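import Crest.Agent.Ryser.Gad

set_option autoImplicit false
set_option linter.unusedSectionVars false
open Finset

namespace Crest.Agent.Ryser

variable {F : Type} [Field F] [Fintype F] [DecidableEq F]

namespace Layout
variable {M : ℝ} (L : Layout F M)

/-- the label `lab` of direction `e` kills option `k` -/
def Kill (d : Option F) (b i : Bool) (e : Option F) (lab : Lab) (k : F) : Prop :=
  ∃ κ, e = dirOf d.isNone (par d.isNone d + κ) ∧
    ((κ ∈ L.links k ∧ ∃ j, L.famL e lab (true, j) ≠ (L.home d, b, i)) ∨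
      (κ ≠ 0 ∧ ∃ r u, L.famL e lab r = (L.home d, b, i) ∧ κ ^ 2 - κ * L.xi k u = L.lev r ∧
        ¬ (r.1 = true ∧ κ ∈ L.links k)))

/-- relevant offsets -/
def Rel (k κ : F) : Prop := κ ≠ 0 ∧ ∃ r u, κ ^ 2 - κ * L.xi k u = L.lev r

lemma valid_of {χ : Option F → Lab} {d : Option F} {b i : Bool} {k : F}
    (h : ∀ e, ¬ L.Kill d b i e (χ e) k) : L.Valid χ d b i k := by
  refine ⟨fun κ hκ j => ?_, fun κ r u h0 h1 h2 => ?_⟩ <;> by_contra h3
  · exact h _ ⟨κ, rfl, Or.inl ⟨hκ, j, h3⟩⟩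
  · exact h _ ⟨κ, rfl, Or.inr ⟨h0, r, u, h1, h2, h3⟩⟩

lemma rel_of_kill {d : Option F} {b i : Bool} {e : Option F} {lab : Lab} {k : F} (hk : k ∈ L.K)
    (h : L.Kill d b i e lab k) : ∃ κ, e = dirOf d.isNone (par d.isNone d + κ) ∧ L.Rel k κ := by
  obtain ⟨κ, h1, ⟨h2, -⟩ | ⟨h2, r, u, -, h3, -⟩⟩ := h
  · obtain ⟨e, -, h3, -⟩ := L.link_hit hk h2
    exact ⟨κ, h1, L.links_ne hk h2, _, _, h3⟩
  · exact ⟨κ, h1, h2, r, u, h3⟩

open Classical in
lemma card_rel (k : F) : (univ.filter (L.Rel k)).card ≤ 32 := by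
  calc _ ≤ ((univ : Finset ((Bool × Bool) × Bool × Bool)).biUnion fun t =>
        univ.filter fun κ => κ ^ 2 - κ * L.xi k t.2 = L.lev t.1).card := card_le_card fun κ hκ => by
          obtain ⟨-, r, u, h⟩ := (mem_filter.mp hκ).2
          exact mem_biUnion.mpr ⟨(r, u), mem_univ _, mem_filter.mpr ⟨mem_univ _, h⟩⟩
    _ ≤ (univ : Finset ((Bool × Bool) × Bool × Bool)).card * 2 :=
        card_biUnion_le_card_mul _ _ _ fun t _ =>
          card_quad_le (a := 1) (b := -L.xi k t.2) (c := -L.lev t.1) one_ne_zero _ fun κ hκ => by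
            linear_combination (mem_filter.mp hκ).2
    _ = 32 := by simp

open Classical in
lemma card_rel' (κ : F) : (L.K.filter fun k => L.Rel k κ).card ≤ 32 := by
  calc _ ≤ ((univ : Finset (Bool × Bool)).biUnion fun r =>
        L.K.filter fun k => ∃ u, L.xi k u = (κ ^ 2 - L.lev r) / κ).card :=
        card_le_card fun k hk => by
          obtain ⟨h0, h1, r, u, h⟩ := mem_filter.mp hk
          exact mem_biUnion.mpr ⟨r, mem_univ _, mem_filter.mpr ⟨h0, u, by
            rw [eq_div_iff h1]; linear_combination -h⟩⟩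
    _ ≤ (univ : Finset (Bool × Bool)).card * 8 :=
        card_biUnion_le_card_mul _ _ _ fun r _ => by convert L.card_xi _
    _ = 32 := by simp

lemma exists_not_kill (d : Option F) (b i : Bool) (e : Option F) {k : F} (hk : k ∈ L.K) :
    ∃ lab, ¬ L.Kill d b i e lab k := by
  by_cases h : ∃ κ ∈ L.links k, e = dirOf d.isNone (par d.isNone d + κ)
  · obtain ⟨κ, h1, h2⟩ := h
    obtain ⟨a, ha⟩ := L.en_surj (γ := L.home d) (e := e) ⟨d, κ, mem_insert_of_mem
      (mem_biUnion.mpr ⟨k, hk, h1⟩), rfl, by rw [h2]; cases d <;> rfl⟩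
    refine ⟨((a, b, i), fun _ => !i), ?_⟩
    rintro ⟨κ', h3, h4⟩
    obtain rfl : κ' = κ := add_left_cancel (dirOf_inj _ (h3.symm.trans h2))
    rcases h4 with ⟨-, j, h4⟩ | ⟨-, ⟨_ | _, r⟩, u, h4, -, h5⟩
    · exact h4 (by simp [famL, ha])
    · simp [famL] at h4
    · exact h5 ⟨rfl, h1⟩
  · refine ⟨((0, b, !i), fun _ => !i), ?_⟩
    rintro ⟨κ, h3, ⟨h4, -⟩ | ⟨-, ⟨_ | _, r⟩, u, h4, -⟩⟩
    · exact h ⟨κ, h4, h3⟩
    · simp [famL] at h4
    · simp [famL] at h4

open Classical in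
lemma chi_tail (hK : 0 < L.K.card) (d : Option F) (b i : Bool) :
    Pr (fun χ : Option F → Lab => surv L.K (L.Kill d b i) χ ≤ (1 / 128) ^ 32 / 2 * L.K.card)
      ≤ Real.exp (-((1 / 128) ^ 64 / 65536 * L.K.card)) := by
  have hK' : (0 : ℝ) < L.K.card := by exact_mod_cast hK
  let E : F → Finset (Option F) := fun k =>
    (univ.filter (L.Rel k)).image fun κ => dirOf d.isNone (par d.isNone d + κ)
  have hE : ∀ k, (E k).card ≤ 32 := fun k => card_image_le.trans (L.card_rel k)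
  have h0 : ∀ k ∈ L.K, ∀ e ∉ E k, Pr (fun w => L.Kill d b i e w k) = 0 := by
    intro k hk e he
    rw [← Pr_false (α := Lab)]
    refine Pr_congr fun w => ⟨fun h => he ?_, False.elim⟩
    obtain ⟨κ, h1, h2⟩ := L.rel_of_kill hk h
    exact mem_image.mpr ⟨κ, mem_filter.mpr ⟨mem_univ _, h2⟩, h1.symm⟩
  have h1 : ∀ k ∈ L.K, ∀ e, 1 / 128 ≤ 1 - Pr (fun w => L.Kill d b i e w k) := by
    intro k hk e
    obtain ⟨lab, h⟩ := L.exists_not_kill d b i e hk
    rw [← Pr_not, Pr_eq_card]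
    have : (1 : ℝ) ≤ (univ.filter fun w => ¬ L.Kill d b i e w k).card := by
      exact_mod_cast card_pos.mpr ⟨lab, mem_filter.mpr ⟨mem_univ _, h⟩⟩
    refine le_trans (le_of_eq ?_) (div_le_div_of_nonneg_right this (Nat.cast_nonneg _))
    simp
  have := surv_lower L.K (L.Kill d b i) 32 (32 * L.K.card) ((1 / 128) ^ 32 / 2 * L.K.card)
    ((1 / 128) ^ 32 * L.K.card) (by norm_num) (by positivity) (by positivity) (by nlinarith)
    (fun e w => by
      unfold kills
      have := L.card_rel' (par d.isNone e - par d.isNone d)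
      refine Nat.cast_le_ofNat.mpr (le_trans (card_le_card fun k hk => ?_) this)
      obtain ⟨h2, h3⟩ := mem_filter.mp hk
      obtain ⟨κ, rfl, h4⟩ := L.rel_of_kill h2 h3
      exact mem_filter.mpr ⟨h2, by simpa using h4⟩)
    (by
      simp only [Ex_kills]
      rw [sum_comm, mul_comm, ← nsmul_eq_mul]
      refine sum_le_card_nsmul _ _ _ fun k hk => ?_
      rw [← sum_subset (subset_univ (E k)) fun e _ he => h0 k hk e he]
      refine (sum_le_card_nsmul _ _ 1 fun _ _ => Pr_le_one _).trans ?_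
      simpa using hE k)
    (by
      rw [Ex_surv, mul_comm, ← nsmul_eq_mul]
      refine card_nsmul_le_sum _ _ _ fun k hk => ?_
      rw [← prod_subset (subset_univ (E k)) fun e _ he => by rw [h0 k hk e he, sub_zero]]
      calc _ ≤ (1 / 128 : ℝ) ^ (E k).card :=
            pow_le_pow_of_le_one (by norm_num) (by norm_num) (hE k)
        _ = ∏ _e ∈ E k, (1 / 128 : ℝ) := (prod_const _).symm
        _ ≤ _ := prod_le_prod (fun _ _ => by norm_num) fun e _ => h1 k hk e)
  refine le_trans (Pr_mono fun χ h => by linarith) (this.trans_eq ?_)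
  congr 2
  field_simp
  norm_num

end Layout

open Classical in
theorem exists_chi : ∃ c : ℝ, 0 < c ∧ ∃ M₁ : ℝ, ∀ (F : Type) [Field F] [Fintype F] [DecidableEq F]
    (M : ℝ) (L : Layout F M), M₁ ≤ M → 5 ≤ Fintype.card F → ∃ χ : Option F → Lab, ∀ d b i,
      c * L.K.card ≤ ((L.K.filter (L.Valid χ d b i)).card : ℝ) := by
  refine ⟨(1 / 128) ^ 32 / 2, by positivity, 3 * 65536 * 128 ^ 64, fun F _ _ _ M L hM h5 => ?_⟩
  have hq : (5 : ℝ) ≤ Fintype.card F := by exact_mod_cast h5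
  have hl : 0 < Real.log (Fintype.card F) := Real.log_pos (by linarith)
  have h1 := (mul_le_mul_of_nonneg_right hM hl.le).trans L.hM
  have hK : 0 < L.K.card := Nat.cast_pos.mp (lt_of_lt_of_le (by positivity) h1)
  have h2 := Pr_exists_univ (fun (t : Option F × Bool × Bool) (χ : Option F → Lab) =>
    surv L.K (L.Kill t.1 t.2.1 t.2.2) χ ≤ (1 / 128) ^ 32 / 2 * L.K.card) _
    fun t => L.chi_tail hK t.1 t.2.1 t.2.2
  obtain ⟨χ, hχ⟩ := exists_not_of_Pr_lt_one (h2.trans_lt (by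
    have h3 : Real.exp (-((1 / 128) ^ 64 / 65536 * L.K.card))
        ≤ Real.exp (-(3 * Real.log (Fintype.card F))) := Real.exp_le_exp.mpr (by linarith)
    rw [Real.exp_neg (3 * _), show (3 : ℝ) = (3 : ℕ) by norm_num, Real.exp_nat_mul,
      Real.exp_log (by linarith)] at h3
    refine (mul_le_mul_of_nonneg_left h3 (Nat.cast_nonneg _)).trans_lt ?_
    rw [← div_eq_mul_inv, div_lt_one (by positivity)]
    simp only [Fintype.card_prod, Fintype.card_option, Fintype.card_bool]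
    push_cast
    nlinarith [mul_le_mul hq hq (by norm_num) (by linarith)]))
  push Not at hχ
  refine ⟨χ, fun d b i => (hχ (d, b, i)).le.trans ?_⟩
  unfold surv
  exact Nat.cast_le.mpr (card_le_card fun k hk =>
    mem_filter.mpr ⟨(mem_filter.mp hk).1, L.valid_of (mem_filter.mp hk).2⟩)

end Crest.Agent.Ryser
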