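import Crest.Agent.Ryser.Large

set_option autoImplicit false
set_option linter.unusedSectionVars false
set_option linter.unusedSimpArgs false
open Finset

namespace Crest.Agent.Ryser

variable {F Φ Ω : Type} [Field F] [Fintype F] [DecidableEq F] [Fintype Φ] [DecidableEq Φ]
  [Fintype Ω] [Nonempty Ω] {h : ℝ}

namespace Model
variable (m : Model F Φ Ω h)

lemma pts_one (l : Option F × F) (_ : Idx F) (l' : Option F × F) (hl' : l' ≠ l) :
    ((((pts l).filter (On l')).card : ℕ) : ℝ) ≤ 1 := by
  exact_mod_cast card_inter_le_one (Ne.symm hl') (pts l) fun p hp => mem_pts.1 hp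

lemma Pr_R1 : Pr (fun ω => ¬ m.R1 ω) ≤ 1 / h := by
  have hh := m.h_pos
  have hd := dl_pos
  have h1 := Pr_exists_univ (fun l (ω : Φ → Ω) => h ^ 200 ≤ (pts l).card ∧
      surv (pts l) (m.K fun _ l' => l' ≠ l) ω ≤ dl * (pts l).card / 2) _ fun l =>
    m.Pr_surv_small (fun _ l' => l' ≠ l) (pts l) 1 (h ^ 200) (pts_one l) one_pos (by positivity)
  refine le_trans (Pr_mono fun ω hω => ?_) (h1.trans (m.union_small ?_))
  · simp only [R1, not_forall, not_lt] at hω
    obtain ⟨l, hl⟩ := hω
    exact ⟨l, by rw [card_pts, m.hq], by rwa [card_pts, m.hq]⟩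
  · have e2 := m.pow_le (a := 1) (b := 198) (by norm_num)
    calc 601 * h ≤ (dl ^ 2 * h / 320) * h ^ 198 := by
          gcongr
          exacts [by linarith [m.h_ge2], by simpa using e2]
      _ = _ := by field_simp

lemma Pr_R2 : Pr (fun ω => ¬ m.R2 ω) ≤ 2 / h := by
  classical
  have hh := m.h_pos
  have hq := m.hq
  set s := ∏ φ, (1 - Pr (fun w => m.K (fun _ _ => True) φ w (0, 0))) with hs
  have hE : ∀ Y : Finset (F × F), Ex (surv Y (m.K fun _ _ => True)) = Y.card * s := by
    intro Y
    rw [Ex_surv, sum_congr rfl (g := fun _ => s) fun p _ => ?_]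
    · simp
    · refine prod_congr rfl fun φ _ => ?_
      have := m.inv φ p (0, 0)
      simp only [K, true_and, ln]
      rw [this]
  have hu : ((univ : Finset (F × F)).card : ℝ) = h ^ 400 := by
    rw [card_univ, Fintype.card_prod]; push_cast; rw [hq]; ring
  have h1 := surv_lower univ (m.K fun _ _ => True) (h * Fintype.card F)
    (5 * (univ : Finset (F × F)).card) (h ^ 302) _ (mul_pos hh q_pos) (by rw [hu]; positivity)
    (by positivity) (by
      rw [hu]
      have e1 := m.pow_le (a := 302) (b := 400) (by norm_num)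
      have e3 : 0 < h ^ 400 := by positivity
      linarith)
    (m.kills_le _ _ _ (fun _ l _ => Nat.cast_le.2 (card_filter_on_le l _)) q_pos.le)
    (m.sum_Ex_kills _ _) (hE univ).ge
  have h2 := Pr_exists_univ (fun l (ω : Φ → Ω) => h ^ 200 * s + 4 + h ^ 102 ≤
      surv (pts l) (m.K fun _ l' => l' ≠ l) ω) _ fun l =>
    surv_upper (pts l) (m.K fun _ l' => l' ≠ l) (h * 1) (5 * h ^ 200) (h ^ 102) (h ^ 200 * s + 4)
      (by positivity) (by positivity) (by positivity) (by
        have e1 := m.pow_le (a := 102) (b := 200) (by norm_num)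
        have e3 : 0 < h ^ 200 := by positivity
        linarith)
      (m.kills_le _ _ _ (pts_one l) zero_le_one)
      (by have := m.sum_Ex_kills (fun _ l' => l' ≠ l) (pts l); rwa [card_pts, hq] at this) (by
        have e1 : ∀ ω, surv (pts l) (m.K fun _ l' => l' ≠ l) ω ≤
            surv (pts l) (m.K fun _ _ => True) ω +
              h ^ 200 * ((univ.filter fun i => m.sp ω i ∈ ({l} : Finset _)).card : ℝ) := by
          intro ω
          by_cases e2 : ∃ i, m.sp ω i = l
          · obtain ⟨i, hi⟩ := e2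
            have e3 : (1 : ℝ) ≤ (univ.filter fun i => m.sp ω i ∈ ({l} : Finset _)).card := by
              exact_mod_cast card_pos.2 ⟨i, by simp [hi]⟩
            have e4 := m.surv_le (fun _ l' => l' ≠ l) (pts l) (pts l) ω fun p hp _ => hp
            rw [card_pts, hq] at e4
            have e5 : 0 ≤ surv (pts l) (m.K fun _ _ => True) ω := Nat.cast_nonneg _
            have e6 := mul_le_mul_of_nonneg_left e3 (show 0 ≤ h ^ 200 by positivity)
            linarith
          · push Not at e2
            have e3 := (m.surv_le (fun _ l' => l' ≠ l) (pts l) ((m.Pp ω).filter (On l)) ω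
              fun p hp h3 => mem_filter.2 ⟨mem_filter.2 ⟨mem_univ _, fun i => h3 i (e2 i)⟩,
                mem_pts.1 hp⟩).trans (m.le_surv (fun _ _ => True) (pts l) _ ω fun p hp =>
                ⟨mem_pts.2 (mem_filter.1 hp).2, fun i _ => (mem_filter.1 (mem_filter.1 hp).1).2 i⟩)
            have e6 : 0 ≤ h ^ 200 *
              ((univ.filter fun i => m.sp ω i ∈ ({l} : Finset _)).card : ℝ) :=
              mul_nonneg (pow_pos hh _).le (Nat.cast_nonneg _)
            linarith
        refine (Ex_mono e1).trans ?_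
        rw [Ex_add, Ex_const_mul, hE, card_pts, hq,
          Ex_card_filter univ (fun i ω => m.sp ω i ∈ ({l} : Finset _))]
        have e2 := m.sum_Pr_ln_mem {l}
        have e3 : ∀ i, Pr (fun ω => m.sp ω i ∈ ({l} : Finset _)) =
            Pr (fun w => m.ln i w ∈ ({l} : Finset _)) :=
          fun i => Pr_coord (m.fam i) (fun w => m.ln i w ∈ ({l} : Finset _))
        simp only [e3]
        rw [card_singleton, hq, Nat.cast_one, one_mul, le_div_iff₀ (by positivity)] at e2
        linarith)
  have e3 := m.absorb (c := 48080) (a := 1) (b := 3) (by linarith [m.h_ge]) (by norm_num)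
  have e1 : h ≤ (h ^ 302) ^ 2 / (16 * (h * Fintype.card F) *
      (5 * (univ : Finset (F × F)).card)) := by
    rw [hu, hq]
    calc h ≤ h ^ 3 / 80 := by linarith
      _ = _ := by field_simp; ring
  have e2 : 601 * h ≤ (h ^ 102) ^ 2 / (16 * (h * 1) * (5 * h ^ 200)) :=
    calc 601 * h ≤ h ^ 3 / 80 := by linarith
      _ = _ := by field_simp; ring
  refine le_trans (Pr_mono fun ω hω => ?_) (((Pr_or _ _).trans (add_le_add (h1.trans
    (m.exp_small e1)) (h2.trans (m.union_small e2)))).trans (le_of_eq (by ring)))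
  by_contra hc
  push Not at hc
  refine hω fun l => ?_
  have e4 := mul_le_mul_of_nonneg_left (hc.2 l).le (show 0 ≤ h ^ 200 by positivity)
  have e5 := hc.1
  rw [hu] at e5
  have e6 := m.absorb (c := 4) (a := 200) (b := 302) (by linarith [m.h_ge]) (by norm_num)
  have e7 : h ^ 200 * (h ^ 200 * s + 4 + h ^ 102) = h ^ 400 * s + 4 * h ^ 200 + h ^ 302 := by ring
  linarith

lemma Pr_R3 : Pr (fun ω => ¬ m.R3 ω) ≤ Real.exp (5 * Zc) / h := by
  classical
  have hh := m.h_pos
  have hq := m.hq
  have h1 := Pr_markov (f := fun ω => ∑ p, m.wt ω p)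
    (fun ω => sum_nonneg fun p _ => (m.wt_pos ω p).le) (show 0 < h ^ 401 by positivity)
  refine le_trans (Pr_mono fun ω hω => (not_le.1 hω).le) (h1.trans ?_)
  have h2 : ∀ p, Ex (fun ω => m.wt ω p) ≤ Real.exp (5 * Zc) := by
    intro p
    unfold wt
    rw [Ex_pi_prod (fun φ w => if m.K (fun _ _ => True) φ w p then (Zc : ℝ) else 1)]
    have h3 : ∀ φ, Ex (fun w => if m.K (fun _ _ => True) φ w p then (Zc : ℝ) else 1) ≤
        Real.exp (Zc * (m.nf φ / Fintype.card F)) := by
      intro φ
      have h4 := m.Pr_K_le (fun _ _ => True) φ p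
      have h5 : Ex (fun w => if m.K (fun _ _ => True) φ w p then (Zc : ℝ) else 1) ≤
          1 + Zc * Pr (fun w => m.K (fun _ _ => True) φ w p) := by
        unfold Pr
        rw [← Ex_const_mul, ← Ex_const (α := Ω) 1, ← Ex_add]
        refine Ex_mono fun w => ?_
        simp only [Ex_const]
        split_ifs <;> simp
      have h6 := mul_le_mul_of_nonneg_left h4 (Nat.cast_nonneg (α := ℝ) Zc)
      linarith [Real.add_one_le_exp (Zc * (m.nf φ / Fintype.card F))]
    refine (prod_le_prod (fun φ _ => Ex_nonneg fun w => ?_) fun φ _ => h3 φ).trans ?_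
    · split_ifs <;> positivity
    · rw [← Real.exp_sum, Real.exp_le_exp, ← mul_sum, ← sum_div, mul_comm]
      refine mul_le_mul_of_nonneg_right ?_ (Nat.cast_nonneg _)
      rw [div_le_iff₀ q_pos]; exact m.sum_nf_le
  rw [Ex_sum univ (fun p ω => m.wt ω p), div_le_div_iff₀ (by positivity) hh]
  have h3 := sum_le_card_mul (s := univ) fun p _ => h2 p
  rw [card_univ, Fintype.card_prod] at h3
  push_cast at h3
  rw [hq] at h3
  calc _ ≤ h ^ 200 * h ^ 200 * Real.exp (5 * Zc) * h := by gcongr
    _ = _ := by ring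

theorem classify : Pr (fun ω => ¬ (Regular (m.o ω) (dl * Fintype.card F / 4) ∧
    Classified (m.o ω) (dl * Fintype.card F / 4))) ≤ (Real.exp (5 * Zc) + 10) / h := by
  have h1 := (Pr_or _ _).trans (add_le_add m.Pr_R1 ((Pr_or _ _).trans (add_le_add m.Pr_R2
    ((Pr_or _ _).trans (add_le_add m.Pr_R3 ((Pr_or _ _).trans
      (add_le_add m.Pr_small m.Pr_large)))))))
  refine le_trans (Pr_mono fun ω hω => ?_) (h1.trans (le_of_eq (by ring)))
  by_contra hc
  simp only [not_or, not_not] at hc
  obtain ⟨r1, r2, r3, h2, h3⟩ := hc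
  refine hω ⟨fun l => ?_, fun S hS hS1 hS2 => ?_⟩
  · have e1 := (r1 l).trans_le (m.surv_le (fun _ l' => l' ≠ l) (pts l)
      (univ.filter fun p => On l p ∧ ∀ d r, proj d p = m.o ω d r → (d, m.o ω d r) = l) ω
      fun p hp e1 => mem_filter.2 ⟨mem_univ _, mem_pts.1 hp, fun d r e2 => by
        by_contra e3
        exact e1 (d, r) e3 e2⟩)
    have e2 : 4 ≤ dl * h ^ 200 := by
      have := m.pow_le (a := 1) (b := 200) (by norm_num)
      have := mul_le_mul_of_nonneg_left this dl_pos.le
      linarith [m.h_ge1]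
    rw [m.hq]; linarith
  · by_contra e1
    push Not at e1
    have hB : m.Bad ω S :=
      { card := hS
        nonsp := fun l hl i e2 => by
          subst e2
          exact hS1 _ hl i.2 rfl
        cover := fun p hp => hS2 p fun d r => hp (d, r)
        far1 := e1.1
        far2 := e1.2 }
    rcases le_total ((unc S).card : ℝ) (h ^ 389) with e2 | e2
    · exact h2 ⟨S, hB, e2⟩
    · exact h3 ⟨r1, r2, r3, S, hB, e2⟩

end Model

end Crest.Agent.Ryser
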