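import Crest.Agent.Ryser.Defs

set_option autoImplicit false
set_option linter.unusedSectionVars false
open Finset

namespace Crest.Agent.Ryser

lemma concl_of {q : ℕ} {P X : Type} [Fintype P] [DecidableEq P] (hP : Fintype.card P = q + 1)
    (good : Finset X) (sym : P → X → P) (ne : good.Nonempty)
    (inter : ∀ x ∈ good, ∀ y ∈ good, ∃ d, sym d x = sym d y)
    (used : ∀ d c, ∃ x ∈ good, sym d x = c)
    (cover : ∀ C : Finset (P × P), (∀ x ∈ good, ∃ d, (d, sym d x) ∈ C) → q + 1 ≤ C.card) :
    Concl q := by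
  let eV := Fintype.equivFin (P × P)
  let eP : P ≃ Fin (q + 1) := Fintype.equivFinOfCardEq hP
  let ed : X → Finset (Fin (Fintype.card (P × P))) := fun x => univ.image fun d => eV (d, sym d x)
  refine ⟨_, fun v => eP (eV.symm v).1, good.image ed, ne.image _, ?_, ?_, ?_, ?_, ?_⟩
  · intro e he i
    obtain ⟨x, _, rfl⟩ := mem_image.mp he
    refine card_eq_one.mpr ⟨eV (eP.symm i, sym (eP.symm i) x), ?_⟩
    ext v
    simp only [ed, mem_filter, mem_image, mem_univ, true_and, mem_singleton]
    constructor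
    · rintro ⟨⟨d, rfl⟩, h⟩
      rw [Equiv.symm_apply_apply] at h
      rw [← h, Equiv.symm_apply_apply]
    · rintro rfl
      exact ⟨⟨_, rfl⟩, by simp⟩
  · intro e he f hf
    obtain ⟨x, hx, rfl⟩ := mem_image.mp he
    obtain ⟨y, hy, rfl⟩ := mem_image.mp hf
    obtain ⟨d, hd⟩ := inter x hx y hy
    exact ⟨eV (d, sym d x), mem_inter.mpr ⟨mem_image.mpr ⟨d, mem_univ _, rfl⟩,
      mem_image.mpr ⟨d, mem_univ _, by rw [hd]⟩⟩⟩
  · intro i
    refine Eq.trans ?_ ((card_univ (α := P)).trans hP)
    symm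
    refine card_bij (fun c _ => eV (eP.symm i, c)) (by simp) (by simp) fun v hv => ?_
    refine ⟨(eV.symm v).2, mem_univ _, ?_⟩
    rw [← (mem_filter.mp hv).2, Equiv.symm_apply_apply, Prod.mk.eta, Equiv.apply_symm_apply]
  · intro v
    obtain ⟨x, hx, h⟩ := used (eV.symm v).1 (eV.symm v).2
    refine ⟨ed x, mem_image_of_mem _ hx, mem_image.mpr ⟨(eV.symm v).1, mem_univ _, ?_⟩⟩
    rw [h, Prod.mk.eta, Equiv.apply_symm_apply]
  · intro S hS
    rw [← card_map eV.symm.toEmbedding]
    refine cover _ fun x hx => ?_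
    obtain ⟨v, hv⟩ := hS _ (mem_image_of_mem ed hx)
    obtain ⟨h1, h2⟩ := mem_inter.mp hv
    obtain ⟨d, _, rfl⟩ := mem_image.mp h1
    exact ⟨d, mem_map.mpr ⟨_, h2, by simp⟩⟩

variable {F : Type} [Field F] [Fintype F] [DecidableEq F]

namespace Gadget

variable (G : Gadget F)

/-- class of a point -/
def cl (p : F × F) : Prop := ∃ d b e, p = G.base d b (true, e)

lemma cl_base (d : Option F) (b : Bool) (u : Bool × Bool) : G.cl (G.base d b u) ↔ u.1 = true := by
  refine ⟨fun ⟨d', b', e, h⟩ => ?_, fun h => ⟨d, b, u.2, by rw [← h]⟩⟩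
  obtain ⟨rfl, rfl⟩ := G.base_off d b u d' b' (by rw [h, G.base_on])
  rw [G.base_inj _ _ h]

open Classical in
/-- the vertex of a point in a direction -/
noncomputable def sym (d : Option F) (p : F × F) : Option F :=
  if proj d p = G.off d (false, false) then
    (if G.cl p then some (G.off d (true, true)) else some (proj d p))
  else if proj d p = G.off d (false, true) then (if G.cl p then none else some (proj d p))
  else if proj d p = G.off d (true, true) then some (G.off d (true, false))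
  else some (proj d p)

lemma off_eq (d : Option F) (r r' : Bool × Bool) : G.off d r = G.off d r' ↔ r = r' :=
  (G.inj d).eq_iff

lemma sym_cases {d : Option F} {p p' : F × F} (h : G.sym d p = G.sym d p') :
    (proj d p = proj d p' ∧ ∀ b, proj d p = G.off d (false, b) → (G.cl p ↔ G.cl p')) ∨
      ∃ j, proj d p = G.off d (true, j) ∧ proj d p' = G.off d (true, !j) := by
  have := G.off_eq d
  simp only [Bool.forall_bool, Bool.exists_bool, Bool.not_true, Bool.not_false]
  unfold sym at h
  grind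

lemma sym_eq {d : Option F} {p p' : F × F} (h : proj d p = proj d p')
    (h' : ∀ b, proj d p = G.off d (false, b) → (G.cl p ↔ G.cl p')) : G.sym d p = G.sym d p' := by
  have h1 := h' true
  have h2 := h' false
  unfold sym
  grind

lemma sym_merge {d : Option F} {p : F × F} {j : Bool} (h : proj d p = G.off d (true, j)) :
    G.sym d p = some (G.off d (true, false)) := by
  have := G.off_eq d
  unfold sym
  cases j <;> grind

lemma sym_plain {d : Option F} {p : F × F} (h : ∀ b, proj d p ≠ G.off d (false, b))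
    (h' : proj d p ≠ G.off d (true, true)) : G.sym d p = some (proj d p) := by
  simp only [sym, if_neg (h _), if_neg h']

lemma sym_split {d : Option F} {p : F × F} {b : Bool} (h : proj d p = G.off d (false, b)) {c : F}
    (hc : G.sym d p = some c) : (∃ b, c = G.off d (false, b)) ∨ c = G.off d (true, true) := by
  have := G.off_eq d
  simp only [Bool.exists_bool]
  unfold sym at hc
  cases b <;> grind

open Classical in
/-- the edges -/
noncomputable def good : Finset (F × F) :=
  univ.filter fun p => (∀ d b, proj d p ≠ G.off d (false, b)) ∨ ∃ d b u, p = G.base d b u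

lemma base_good (d : Option F) (b : Bool) (u : Bool × Bool) : G.base d b u ∈ G.good := by
  simp only [good, mem_filter, mem_univ, true_and]
  exact Or.inr ⟨d, b, u, rfl⟩

lemma good_of {p : F × F} (h : ∀ d b, proj d p ≠ G.off d (false, b)) : p ∈ G.good := by
  simp only [good, mem_filter, mem_univ, true_and]
  exact Or.inl h

lemma base_of_good {p : F × F} (hp : p ∈ G.good) {d : Option F} {b : Bool}
    (h : proj d p = G.off d (false, b)) : ∃ u, p = G.base d b u := by
  simp only [good, mem_filter, mem_univ, true_and] at hp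
  rcases hp with hp | ⟨d', b', u, rfl⟩
  · exact absurd h (hp d b)
  · obtain ⟨rfl, rfl⟩ := G.base_off _ _ _ _ _ h
    exact ⟨u, rfl⟩

lemma inter {p p' : F × F} (hp : p ∈ G.good) (hp' : p' ∈ G.good) :
    ∃ d, G.sym d p = G.sym d p' := by
  obtain ⟨d, hd⟩ := exists_dir p p'
  by_cases h : ∀ b, proj d p = G.off d (false, b) → (G.cl p ↔ G.cl p')
  · exact ⟨d, G.sym_eq hd h⟩
  push Not at h
  obtain ⟨b, h1, h2⟩ := h
  obtain ⟨⟨c, e⟩, rfl⟩ := G.base_of_good hp h1
  obtain ⟨⟨c', e'⟩, rfl⟩ := G.base_of_good hp' (hd ▸ h1)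
  simp only [cl_base] at h2
  cases c <;> cases c' <;> simp at h2
  · obtain ⟨d', j, h3, h4⟩ := G.link d b e e'
    exact ⟨d', by rw [G.sym_merge h3, G.sym_merge h4]⟩
  · obtain ⟨d', j, h3, h4⟩ := G.link d b e' e
    exact ⟨d', by rw [G.sym_merge h3, G.sym_merge h4]⟩

lemma used (d : Option F) (σ : Option F) : ∃ p ∈ G.good, G.sym d p = σ := by
  have ho := G.off_eq d
  rcases σ with _ | c
  · exact ⟨_, G.base_good d true (true, true), by simp [sym, G.base_on, cl_base, ho]⟩
  by_cases h1 : c = G.off d (false, false)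
  · exact ⟨_, G.base_good d false (false, true), by simp [sym, G.base_on, cl_base, h1]⟩
  by_cases h2 : c = G.off d (false, true)
  · exact ⟨_, G.base_good d true (false, true), by simp [sym, G.base_on, cl_base, ho, h2]⟩
  by_cases h3 : c = G.off d (true, true)
  · exact ⟨_, G.base_good d false (true, true), by simp [sym, G.base_on, cl_base, h3]⟩
  have h4 := G.reg (d, c)
  obtain ⟨p, hp⟩ := card_pos.mp (Nat.cast_pos (α := ℝ).mp (lt_trans (by linarith [G.hD]) h4))
  obtain ⟨h5, h6⟩ := (mem_filter.mp hp).2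
  have h5' : proj d p = c := h5
  refine ⟨p, G.good_of fun d' b h => ?_, ?_⟩
  · obtain ⟨rfl, h7⟩ := Prod.mk.inj (h6 _ _ h)
    cases b
    · exact h1 h7.symm
    · exact h2 h7.symm
  · rw [G.sym_plain (by rw [h5']; rintro (_ | _) <;> assumption) (by rwa [h5']), h5']

variable {C : Finset (Option F × Option F)} (hC : ∀ p ∈ G.good, ∃ d, (d, G.sym d p) ∈ C)
include hC

lemma forced {S : Finset (Option F × F)}
    (hS : ∀ l : Option F × F, (l.1, some l.2) ∈ C → (∀ r, l.2 ≠ G.off l.1 r) → l ∈ S)
    (Pen : Option F × F → Prop) [DecidablePred Pen] (x : F × F)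
    (hPen : ∀ l l' p, Pen l → Pen l' → l ≠ l' → On l p → On l' p → p = x)
    (hD : ((S.filter fun l => ¬ Pen l).card : ℝ) ≤ G.D) {d : Option F} {p : F × F}
    (h1 : Pen (d, proj d p)) (h2 : ∀ b, proj d p ≠ G.off d (false, b)) : (d, G.sym d p) ∈ C := by
  by_contra h3
  have h4 := G.reg (d, proj d p)
  set R := univ.filter fun p' => On (d, proj d p) p' ∧
    ∀ d' r, proj d' p' = G.off d' r → (d', G.off d' r) = (d, proj d p) with hR
  have key : ∀ p' ∈ R.erase x, ∃ l ∈ S.filter fun l => ¬ Pen l, l ≠ (d, proj d p) ∧ On l p' := by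
    intro p' hp'
    obtain ⟨h5, h6⟩ := mem_erase.mp hp'
    obtain ⟨h7, h8⟩ := (mem_filter.mp h6).2
    have h7' : proj d p' = proj d p := h7
    obtain ⟨d', h9⟩ := hC p' (G.good_of fun d' b h => by
      obtain ⟨rfl, h⟩ := Prod.mk.inj (h8 _ _ h)
      exact h2 b h.symm)
    have hd : d' ≠ d := by
      rintro rfl
      exact h3 (G.sym_eq h7' (fun b h => absurd (h7' ▸ h) (h2 b)) ▸ h9)
    have hn : ∀ r, proj d' p' ≠ G.off d' r := fun r h => hd (Prod.mk.inj (h8 _ _ h)).1
    rw [G.sym_plain (fun b => hn _) (hn _)] at h9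
    have hne : (d', proj d' p') ≠ (d, proj d p) := fun h => hd (Prod.mk.inj h).1
    exact ⟨(d', proj d' p'), mem_filter.mpr ⟨hS _ h9 hn, fun h => h5 (hPen _ _ _ h h1 hne rfl h7)⟩,
      hne, rfl⟩
  choose! φ φ1 φ2 φ3 using key
  have h5 : (R.erase x).card ≤ (S.filter fun l => ¬ Pen l).card := by
    refine card_le_card_of_injOn φ φ1 fun a ha b hb h => ?_
    exact eq_of_on (φ2 a ha) (φ3 a ha) (mem_filter.mp (mem_of_mem_erase ha)).2.1
      (h ▸ φ3 b hb) (mem_filter.mp (mem_of_mem_erase hb)).2.1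
  have h6 : (R.card : ℝ) ≤ (S.filter fun l => ¬ Pen l).card + 1 := by
    have := pred_card_le_card_erase (s := R) (a := x)
    exact_mod_cast (by omega : R.card ≤ _ + 1)
  linarith

lemma dir_case (h5 : 5 ≤ Fintype.card F) (d : Option F)
    (hf : ∀ p, (∀ b, proj d p ≠ G.off d (false, b)) → (d, G.sym d p) ∈ C) :
    Fintype.card F + 1 ≤ C.card := by
  have ho := G.off_eq
  let A : Finset F := univ \ {G.off d (false, false), G.off d (false, true), G.off d (true, true)}
  let C₁ := A.image fun c => (d, some c)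
  have hA : ∀ c ∈ A, (∀ b, c ≠ G.off d (false, b)) ∧ c ≠ G.off d (true, true) := by
    intro c hc
    simp only [A, mem_sdiff, mem_univ, mem_insert, mem_singleton, not_or, true_and] at hc
    exact ⟨by rintro (_ | _) <;> tauto, hc.2.2⟩
  have h1 : C₁ ⊆ C := by
    intro v hv
    obtain ⟨c, hc, rfl⟩ := mem_image.mp hv
    obtain ⟨p, hp⟩ := card_pos.mp ((card_line (d, c)).symm ▸ (by omega : 0 < Fintype.card F))
    obtain rfl : proj d p = c := (mem_filter.mp hp).2
    exact G.sym_plain (hA _ hc).1 (hA _ hc).2 ▸ hf p (hA _ hc).1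
  have h2 : Fintype.card F ≤ C₁.card + 3 := by
    rw [card_image_of_injective _ fun a b h => by simpa using h]
    exact le_trans card_le_card_sdiff_add_card (Nat.add_le_add_left card_le_three _)
  choose φ hφ using fun i : Bool × Bool × Bool => hC _ (G.base_good d i.1 i.2)
  have h3 := card_le_mul_card_image_of_maps_to (s := univ) (t := C \ C₁)
    (f := fun i : Bool × Bool × Bool => (φ i, G.sym (φ i) (G.base d i.1 i.2)))
    (fun i _ => mem_sdiff.mpr ⟨hφ i, fun h => by
      obtain ⟨c, hc, h⟩ := mem_image.mp h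
      obtain ⟨h4, h6⟩ := Prod.mk.inj h
      rw [← h4] at h6
      rcases G.sym_split (G.base_on d i.1 i.2) h6.symm with ⟨b, h⟩ | h
      · exact (hA c hc).1 b h
      · exact (hA c hc).2 h⟩) 2 (by
      rintro ⟨d', σ⟩ _
      refine (card_le_card_of_injOn (t := univ) (fun i => if d' = d then i.2.2 else
        if ∃ j, proj d' (G.base d i.1 i.2) = G.off d' (true, j) then
          decide (proj d' (G.base d i.1 i.2) = G.off d' (true, true)) else i.1)
        (fun _ _ => mem_univ _) ?_).trans (by simp)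
      rintro ⟨b, u⟩ hi ⟨b', u'⟩ hi' h
      obtain ⟨e1, e2⟩ := Prod.mk.inj (mem_filter.mp hi).2
      obtain ⟨e3, e4⟩ := Prod.mk.inj (mem_filter.mp hi').2
      rw [e1] at e2
      rw [e3] at e4
      have k := G.sym_cases (e2.trans e4.symm)
      have k1 := G.base_on d b u
      have k2 := G.base_on d b' u'
      have k3 : b = b' → d' ≠ d → proj d' (G.base d b u) = proj d' (G.base d b' u') →
          (b, u) = (b', u') := by
        rintro rfl h1 h2
        rw [G.base_inj _ _ (eq_of_proj_eq h1 h2 (k1.trans k2.symm))]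
      have k4 : ∀ j j', proj d' (G.base d b u) = G.off d' (true, j) →
          proj d' (G.base d b' u') = G.off d' (true, j') → b = b' := by
        intro j j' h1 h2
        cases b <;> cases b'
        · rfl
        · exact (G.merge_dir _ _ _ _ _ _ h1 h2).elim
        · exact (G.merge_dir _ _ _ _ _ _ h2 h1).elim
        · rfl
      simp only [cl_base] at k
      by_cases hd : d' = d
      · subst hd
        simp only [if_true] at h
        rw [k1, k2] at k
        simp only [ho, Prod.mk.injEq, true_and, Bool.false_eq_true, false_and, exists_false,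
          or_false, forall_eq'] at k
        exact Prod.ext k.1 (Prod.ext (Bool.eq_iff_iff.mpr k.2) h)
      · simp only [if_neg hd] at h
        rcases k with ⟨k, -⟩ | ⟨j, k5, k6⟩
        · refine k3 ?_ hd k
          by_cases hj : ∃ j, proj d' (G.base d b u) = G.off d' (true, j)
          · obtain ⟨j, hj⟩ := hj
            exact k4 j j hj (k ▸ hj)
          · rwa [if_neg hj, if_neg (k ▸ hj)] at h
        · rw [if_pos ⟨_, k5⟩, if_pos ⟨_, k6⟩, k5, k6] at h
          cases j <;> simp [ho] at h)
  rw [card_sdiff_of_subset h1] at h3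
  have := card_le_card h1
  simp only [card_univ, Fintype.card_prod, Fintype.card_bool] at h3
  omega

lemma pt_case (x : F × F)
    (hf : ∀ d, (∀ b, proj d x ≠ G.off d (false, b)) → (d, G.sym d x) ∈ C) :
    Fintype.card F + 1 ≤ C.card := by
  classical
  have ho := G.off_eq
  by_contra hq
  let I : Finset (Option F × Bool) := univ.filter fun i => proj i.1 x = G.off i.1 (false, i.2)
  let C₁ := (univ \ I.image Prod.fst).image fun d => (d, G.sym d x)
  have hI : ∀ d, d ∈ univ \ I.image Prod.fst → ∀ b, proj d x ≠ G.off d (false, b) :=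
    fun d hd b h => (mem_sdiff.mp hd).2 (mem_image.mpr ⟨(d, b), mem_filter.mpr ⟨mem_univ _, h⟩, rfl⟩)
  have h1 : C₁ ⊆ C := by
    intro v hv
    obtain ⟨d, hd, rfl⟩ := mem_image.mp hv
    exact hf d (hI d hd)
  have h2 : (C \ C₁).card + 1 ≤ I.card := by
    have e1 : C₁.card = (univ \ I.image Prod.fst).card :=
      card_image_of_injective _ fun a b h => (Prod.mk.inj h).1
    have e2 := card_le_card_sdiff_add_card (s := (univ : Finset (Option F))) (t := I.image Prod.fst)
    have e3 := card_image_le (s := I) (f := Prod.fst)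
    have e4 := card_le_card h1
    rw [card_univ, Fintype.card_option] at e2
    rw [card_sdiff_of_subset h1]
    omega
  have h3 : ∀ d b u d', proj d x = G.off d (false, b) → (d', G.sym d' (G.base d b u)) ∈ C₁ →
      x = G.base d b u ∨ ∃ e, x = G.base d b (!u.1, e) := by
    intro d b u d' hx h
    obtain ⟨d'', hd, h⟩ := mem_image.mp h
    obtain ⟨rfl, h⟩ := Prod.mk.inj h
    have hne : d'' ≠ d := by rintro rfl; exact hI _ hd b hx
    rcases G.sym_cases h.symm with ⟨k, -⟩ | ⟨j, k1, k2⟩
    · exact Or.inl (eq_of_proj_eq hne k.symm (hx.trans (G.base_on _ _ _).symm))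
    · obtain ⟨e, he⟩ := G.partner _ _ _ _ _ k1
      exact Or.inr ⟨e, eq_of_proj_eq hne (k2.trans he.symm) (hx.trans (G.base_on _ _ _).symm)⟩
  by_cases hx : ∃ d b u, x = G.base d b u
  · obtain ⟨d, b, u, hx⟩ := hx
    have h4 : I.card ≤ 1 := card_le_one_iff_subset_singleton.mpr ⟨(d, b), fun i hi => by
      have := G.base_off d b u i.1 i.2 (hx ▸ (mem_filter.mp hi).2)
      exact mem_singleton.mpr (Prod.ext this.1 this.2)⟩
    obtain ⟨d', h5⟩ := hC _ (G.base_good d b (u.1, !u.2))
    have h6 : (d', G.sym d' (G.base d b (u.1, !u.2))) ∈ C₁ := by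
      by_contra h
      have := card_pos.mpr ⟨_, mem_sdiff.mpr ⟨h5, h⟩⟩
      omega
    rcases h3 _ _ _ _ (by rw [hx, G.base_on]) h6 with h | ⟨e, h⟩
    · simpa using congrArg Prod.snd (G.base_inj _ _ (hx.symm.trans h))
    · simpa using congrArg Prod.fst (G.base_inj _ _ (hx.symm.trans h))
  push Not at hx
  choose φ hφ using fun t : (Option F × Bool) × Bool × Bool => hC _ (G.base_good t.1.1 t.1.2 t.2)
  have h4 := card_le_mul_card_image_of_maps_to (s := I ×ˢ univ) (t := C \ C₁)
    (f := fun t : (Option F × Bool) × Bool × Bool => (φ t, G.sym (φ t) (G.base t.1.1 t.1.2 t.2)))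
    (fun t ht => mem_sdiff.mpr ⟨hφ t, fun h => by
      rcases h3 _ _ _ _ (mem_filter.mp (mem_product.mp ht).1).2 h with h | ⟨e, h⟩
      exacts [hx _ _ _ h, hx _ _ _ h]⟩) 4 (by
      rintro ⟨d', σ⟩ _
      set T := (I ×ˢ univ).filter fun t : (Option F × Bool) × Bool × Bool =>
        (φ t, G.sym (φ t) (G.base t.1.1 t.1.2 t.2)) = (d', σ) with hT
      have k0 : ∀ t ∈ T, proj t.1.1 x = G.off t.1.1 (false, t.1.2) ∧
          G.sym d' (G.base t.1.1 t.1.2 t.2) = σ := by
        intro t ht
        obtain ⟨e1, e2⟩ := mem_filter.mp ht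
        obtain ⟨e3, e4⟩ := Prod.mk.inj e2
        exact ⟨(mem_filter.mp (mem_product.mp e1).1).2, e3 ▸ e4⟩
      have k1 : ∀ t t' : (Option F × Bool) × Bool × Bool, t.1 = t'.1 → d' ≠ t.1.1 →
          proj d' (G.base t.1.1 t.1.2 t.2) = proj d' (G.base t'.1.1 t'.1.2 t'.2) → t = t' := by
        rintro ⟨i, u⟩ ⟨_, u'⟩ rfl h1 h2
        exact Prod.ext rfl (G.base_inj _ _
          (eq_of_proj_eq h1 h2 ((G.base_on _ _ _).trans (G.base_on _ _ _).symm)))
      rcases T.eq_empty_or_nonempty with h0 | ⟨t₀, h0⟩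
      · simp [h0]
      have k2 := fun t ht => G.sym_cases ((k0 t₀ h0).2.trans (k0 t ht).2.symm)
      by_cases hm : ∃ j, proj d' (G.base t₀.1.1 t₀.1.2 t₀.2) = G.off d' (true, j)
      · obtain ⟨j₀, hm⟩ := hm
        have k3 : ∀ t ∈ T, ∃ j, proj d' (G.base t.1.1 t.1.2 t.2) = G.off d' (true, j) := by
          intro t ht
          rcases k2 t ht with ⟨k, -⟩ | ⟨j, -, k⟩
          exacts [⟨_, k ▸ hm⟩, ⟨_, k⟩]
        choose! ψ hψ using k3
        refine le_trans (card_le_card_of_injOn (fun t => (t.1, ψ t)) (fun t ht => mem_product.mpr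
          ⟨mem_filter.mpr ⟨mem_univ _, (k0 t ht).1, t.2, _, hψ t ht⟩, mem_univ _⟩) ?_)
          ((card_product _ _).trans_le (Nat.mul_le_mul (G.merge_pt x d') (by simp : _ ≤ 2)))
        intro t ht t' ht' h
        obtain ⟨e1, e2⟩ := Prod.mk.inj h
        refine k1 t t' e1 (fun hd => ?_) (by rw [hψ t ht, hψ t' ht', e2])
        have := hψ t ht
        rw [hd, G.base_on, ho] at this
        simp at this
      have k3 : ∀ t ∈ T, proj d' (G.base t.1.1 t.1.2 t.2)
          = proj d' (G.base t₀.1.1 t₀.1.2 t₀.2) := by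
        intro t ht
        rcases k2 t ht with ⟨k, -⟩ | ⟨j, k, -⟩
        exacts [k.symm, absurd ⟨j, k⟩ hm]
      by_cases hs : ∃ b, proj d' (G.base t₀.1.1 t₀.1.2 t₀.2) = G.off d' (false, b)
      · obtain ⟨b, hs⟩ := hs
        refine (card_le_card_of_injOn (t := univ) Prod.snd (fun _ _ => mem_univ _) ?_).trans
          (by simp)
        intro t ht t' ht' h
        have e1 := G.base_off _ _ _ _ _ ((k3 t ht).trans hs)
        have e2 := G.base_off _ _ _ _ _ ((k3 t' ht').trans hs)
        exact Prod.ext (Prod.ext (e1.1.symm.trans e2.1) (e1.2.symm.trans e2.2)) h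
      have k4 : ∀ t ∈ T, d' ≠ t.1.1 := fun t ht hd => hs ⟨t.1.2, by
        rw [← k3 t ht, hd, G.base_on]⟩
      refine le_trans (card_le_card_of_injOn Prod.fst (fun t ht =>
        mem_filter.mpr ⟨mem_univ _, (k0 t ht).1, t.2, k3 t ht⟩) ?_)
        (G.line_pt x (d', proj d' (G.base t₀.1.1 t₀.1.2 t₀.2)) fun h => hx _ _ _
          (eq_of_proj_eq (k4 t₀ h0) h ((k0 t₀ h0).1.trans (G.base_on _ _ _).symm)))
      exact fun t ht t' ht' h => k1 t t' h (k4 t ht) ((k3 t ht).trans (k3 t' ht').symm))
  simp only [card_product, card_univ, Fintype.card_prod, Fintype.card_bool] at h4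
  omega

omit hC in
include G in
theorem concl (h5 : 5 ≤ Fintype.card F) : Concl (Fintype.card F) := by
  classical
  refine concl_of Fintype.card_option G.good G.sym ⟨_, G.base_good none true (true, true)⟩
    (fun _ h _ h' => G.inter h h') G.used fun C hC => ?_
  by_contra hq
  let NS : Finset (Option F × F) := univ.filter fun l => ∀ r, l.2 ≠ G.off l.1 r
  have h1 : Fintype.card F ≤ NS.card := by
    have : ∀ d, ∃ c, ∀ r, c ≠ G.off d r := fun d => by
      by_contra h
      push Not at h
      have := Fintype.card_le_of_surjective (G.off d) fun c => (h c).imp fun _ h => h.symm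
      simp only [Fintype.card_prod, Fintype.card_bool] at this
      omega
    choose c hc using this
    have := card_le_card_of_injOn (s := univ) (t := NS) (fun d => (d, c d))
      (fun d _ => mem_filter.mpr ⟨mem_univ _, hc d⟩) fun a _ b _ h => (Prod.mk.inj h).1
    rw [card_univ, Fintype.card_option] at this
    omega
  obtain ⟨S, s1, s2, s3⟩ := exists_subsuperset_card_eq
    (filter_subset (fun l => (l.1, some l.2) ∈ C) NS) (le_trans (card_le_card_of_injOn
      (fun l => (l.1, some l.2)) (fun l hl => (mem_filter.mp hl).2) fun a _ b _ h => by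
        simpa [Prod.ext_iff] using h) (by omega : C.card ≤ Fintype.card F)) h1
  have hS : ∀ l : Option F × F, (l.1, some l.2) ∈ C → (∀ r, l.2 ≠ G.off l.1 r) → l ∈ S :=
    fun l h h' => s1 (mem_filter.mpr ⟨mem_filter.mpr ⟨mem_univ _, h'⟩, h⟩)
  rcases G.cls S s3 (fun l hl => (mem_filter.mp (s2 hl)).2) (fun p hp => by
    obtain ⟨d, hd⟩ := hC p (G.good_of fun d b => hp d _)
    rw [G.sym_plain (fun b => hp d _) (hp d _)] at hd
    exact ⟨(d, proj d p), hS _ hd (hp d), rfl⟩) with ⟨x, h⟩ | ⟨d, h⟩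
  · exact hq (G.pt_case hC x fun d hd => G.forced hC hS (fun l => On l x) x
      (fun l l' p h1 h2 h3 h4 h5 => eq_of_on h3 h4 h5 h1 h2) h rfl hd)
  · exact hq (G.dir_case hC h5 d fun p hp => G.forced hC hS (fun l => l.1 = d) p
      (fun l l' p h1 h2 h3 h4 h5 => absurd h5 (not_on_of_parallel h3 (h1.trans h2.symm) h4))
      h rfl hp)

end Gadget

end Crest.Agent.Ryser
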