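import Crest.Agent.Ryser.Prob

set_option autoImplicit false
set_option linter.unusedSectionVars false
open Finset

namespace Crest.Agent.Ryser

section plane
variable {F : Type} [Field F]

/-- the linear functional whose level sets are the lines of direction `d` -/
def proj : Option F → F × F → F
  | some k, p => p.2 - k * p.1
  | none, p => p.1

/-- a line is a pair (direction, offset) -/
def On (l : Option F × F) (p : F × F) : Prop := proj l.1 p = l.2

instance [DecidableEq F] (l : Option F × F) (p : F × F) : Decidable (On l p) :=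
  inferInstanceAs (Decidable (proj l.1 p = l.2))

lemma proj_add (d : Option F) (p p' : F × F) : proj d (p + p') = proj d p + proj d p' := by
  cases d <;> simp [proj]; ring

lemma proj_sub (d : Option F) (p p' : F × F) : proj d (p - p') = proj d p - proj d p' := by
  cases d <;> simp [proj]; ring

lemma proj_smul (d : Option F) (c : F) (p : F × F) : proj d (c • p) = c * proj d p := by
  cases d <;> simp [proj]; ring

lemma eq_of_proj_eq {d d' : Option F} (h : d ≠ d') {p p' : F × F} (h1 : proj d p = proj d p')
    (h2 : proj d' p = proj d' p') : p = p' := by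
  obtain ⟨x, y⟩ := p
  obtain ⟨x', y'⟩ := p'
  rcases d with _ | k <;> rcases d' with _ | k' <;> simp only [proj] at h1 h2
  · exact absurd rfl h
  · subst h1; simpa using h2
  · subst h2; simpa using h1
  · have hk : k - k' ≠ 0 := sub_ne_zero.2 fun h' => h (by rw [h'])
    have hx : x = x' := by
      have : (k - k') * (x - x') = 0 := by linear_combination h2 - h1
      exact sub_eq_zero.1 ((mul_eq_zero.1 this).resolve_left hk)
    subst hx; simpa using h1

lemma exists_inter {d d' : Option F} (h : d ≠ d') (c c' : F) :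
    ∃ p, proj d p = c ∧ proj d' p = c' := by
  rcases d with _ | k <;> rcases d' with _ | k'
  · exact absurd rfl h
  · exact ⟨(c, c' + k' * c), by simp [proj], by simp [proj]⟩
  · exact ⟨(c', c + k * c'), by simp [proj], by simp [proj]⟩
  · have hk : k - k' ≠ 0 := sub_ne_zero.2 fun h' => h (by rw [h'])
    refine ⟨((c' - c) / (k - k'), c + k * ((c' - c) / (k - k'))), by simp [proj], ?_⟩
    simp only [proj]; field_simp; ring

lemma exists_dir (p p' : F × F) : ∃ d, proj d p = proj d p' := by
  by_cases h : p.1 = p'.1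
  · exact ⟨none, h⟩
  · have : p.1 - p'.1 ≠ 0 := sub_ne_zero.2 h
    refine ⟨some ((p.2 - p'.2) / (p.1 - p'.1)), ?_⟩
    simp only [proj]; field_simp; ring

lemma eq_of_on {l l' : Option F × F} (h : l ≠ l') {p p' : F × F} (h1 : On l p) (h2 : On l' p)
    (h3 : On l p') (h4 : On l' p') : p = p' := by
  unfold On at *
  by_cases hd : l.1 = l'.1
  · exact absurd (Prod.ext hd (by rw [← h1, ← h2, hd])) h
  · exact eq_of_proj_eq hd (h1.trans h3.symm) (h2.trans h4.symm)

lemma not_on_of_parallel {l l' : Option F × F} (h : l ≠ l') (hd : l.1 = l'.1) {p : F × F}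
    (h1 : On l p) : ¬ On l' p := fun h2 => by
  unfold On at *
  exact h (Prod.ext hd (by rw [← h1, ← h2, hd]))

variable [Fintype F] [DecidableEq F]

lemma card_line (l : Option F × F) : (univ.filter (On l)).card = Fintype.card F := by
  obtain ⟨d, c⟩ := l
  rw [← card_univ]
  symm
  rcases d with _ | k
  · refine card_bij (fun y _ => (c, y)) (by simp [On, proj]) (by simp) ?_
    rintro ⟨x, y⟩ h; simp [On, proj] at h; simp [h]
  · refine card_bij (fun x _ => (x, c + k * x)) (by simp [On, proj]) (by simp +contextual) ?_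
    rintro ⟨x, y⟩ h; simp [On, proj] at h; simp [← h]

lemma card_inter_le_one {l l' : Option F × F} (h : l ≠ l') (Y : Finset (F × F))
    (hY : ∀ p ∈ Y, On l p) : (Y.filter (On l')).card ≤ 1 := by
  rw [card_le_one]
  intro p hp p' hp'
  rw [mem_filter] at hp hp'
  exact eq_of_on h (hY p hp.1) hp.2 (hY p' hp'.1) hp'.2

lemma card_filter_on_le (l : Option F × F) (Y : Finset (F × F)) :
    (Y.filter (On l)).card ≤ Fintype.card F := by
  rw [← card_line l]; exact card_le_card (filter_subset_filter _ (subset_univ _))

end plane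

/-- the conclusion for a given `q` -/
def Concl (q : ℕ) : Prop :=
  ∃ (N : ℕ) (part : Fin N → Fin (q + 1)) (E : Finset (Finset (Fin N))),
    E.Nonempty ∧
    (∀ e ∈ E, ∀ i : Fin (q + 1), (e.filter (fun v => part v = i)).card = 1) ∧
    (∀ e ∈ E, ∀ f ∈ E, (e ∩ f).Nonempty) ∧
    (∀ i : Fin (q + 1), (Finset.univ.filter (fun v => part v = i)).card = q + 1) ∧
    (∀ v : Fin N, ∃ e ∈ E, v ∈ e) ∧
    (∀ S : Finset (Fin N), (∀ e ∈ E, (e ∩ S).Nonempty) → q + 1 ≤ S.card)

/-- number-theoretic layout of the field -/
structure Layout (F : Type) [Field F] [Fintype F] [DecidableEq F] (M : ℝ) where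
  A : F
  K : Finset F
  g : F → F
  f : ℕ
  hA : A ≠ 0
  hK0 : ∀ k ∈ K, k ≠ 0
  hK1 : ∀ k ∈ K, k ^ 4 ≠ A ^ 2
  hKf : K.card ≤ f
  hfib : ∀ γ, (univ.filter (fun e => g e = γ)).card ≤ f
  hreg : ∀ e, ∃ G : Finset F, G.card ≤ 7 ∧ g e ∈ G ∧
    ∀ k ∈ K, g (e - k) ∈ G ∧ g (e + k) ∈ G ∧ g (e - A / k) ∈ G ∧ g (e + A / k) ∈ G
  hf : (20 * f ^ 2) ^ 200 ≤ Fintype.card F
  hM : M * Real.log (Fintype.card F) ≤ K.card

/-- every line has more than `D + 1` points lying on no other special line -/
def Regular {F : Type} [Field F] [Fintype F] [DecidableEq F]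
    (off : Option F → Bool × Bool → F) (D : ℝ) : Prop :=
  ∀ l : Option F × F, D + 1 <
    (univ.filter fun p => On l p ∧ ∀ d r, proj d p = off d r → (d, off d r) = l).card

/-- every cover of the non-special points by `q` non-special lines is almost a pencil -/
def Classified {F : Type} [Field F] [Fintype F] [DecidableEq F]
    (off : Option F → Bool × Bool → F) (D : ℝ) : Prop :=
  ∀ S : Finset (Option F × F), S.card = Fintype.card F → (∀ l ∈ S, ∀ r, l.2 ≠ off l.1 r) →
    (∀ p, (∀ d r, proj d p ≠ off d r) → ∃ l ∈ S, On l p) →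
    (∃ x, ((S.filter fun l => ¬ On l x).card : ℝ) ≤ D) ∨
      ∃ d, ((S.filter fun l => l.1 ≠ d).card : ℝ) ≤ D

/-- The deterministic gadget.  In direction `d` the lines with offsets `off d (false, b)` are split
and the two lines with offsets `off d (true, j)` are merged.  `base d b (c, e)` are the four kept
points of the split line `(d, b)`; `c` is the class. -/
structure Gadget (F : Type) [Field F] [Fintype F] [DecidableEq F] where
  off : Option F → Bool × Bool → F
  base : Option F → Bool → Bool × Bool → F × F
  D : ℝ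
  hD : 0 ≤ D
  inj : ∀ d, Function.Injective (off d)
  base_on : ∀ d b u, proj d (base d b u) = off d (false, b)
  base_inj : ∀ d b, Function.Injective (base d b)
  base_off : ∀ d b u d' b', proj d' (base d b u) = off d' (false, b') → d' = d ∧ b' = b
  link : ∀ d b e e', ∃ d' j, proj d' (base d b (false, e)) = off d' (true, j) ∧
    proj d' (base d b (true, e')) = off d' (true, !j)
  partner : ∀ d b u d' j, proj d' (base d b u) = off d' (true, j) →
    ∃ e, proj d' (base d b (!u.1, e)) = off d' (true, !j)
  merge_dir : ∀ d d' u u' j j', proj d' (base d false u) = off d' (true, j) →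
    proj d' (base d true u') = off d' (true, j') → False
  merge_pt : ∀ (x : F × F) (d' : Option F), (univ.filter fun i : Option F × Bool =>
    proj i.1 x = off i.1 (false, i.2) ∧ ∃ u j, proj d' (base i.1 i.2 u) = off d' (true, j)).card ≤ 2
  line_pt : ∀ (x : F × F) (l : Option F × F), ¬ On l x → (univ.filter fun i : Option F × Bool =>
    proj i.1 x = off i.1 (false, i.2) ∧ ∃ u, On l (base i.1 i.2 u)).card ≤ 4
  reg : Regular off D
  cls : Classified off D

end Crest.Agent.Ryser
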