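import Crest.Agent.Ryser.Gad

set_option autoImplicit false
set_option linter.unusedSectionVars false
set_option linter.unusedSimpArgs false
open Finset

namespace Crest.Agent.Ryser

lemma Pr_le_of_subsingleton {α : Type*} [Fintype α] {A : α → Prop}
    (h : ∀ x y, A x → A y → x = y) : Pr A ≤ 1 / Fintype.card α := by
  classical
  rw [Pr_eq_card]
  refine div_le_div_of_nonneg_right ?_ (Nat.cast_nonneg _)
  exact_mod_cast card_le_one.2 fun x hx y hy => h x y (mem_filter.1 hx).2 (mem_filter.1 hy).2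

lemma Pr_prod_le {α β : Type*} [Fintype α] [Fintype β] [Nonempty α] {A : α × β → Prop} {c : ℝ}
    (h : ∀ a, Pr (fun b => A (a, b)) ≤ c) : Pr A ≤ c := by
  unfold Pr
  rw [Ex_prod]
  exact Ex_le_of_le h

lemma Pr_fix {ι Ω : Type*} [Fintype ι] [DecidableEq ι] [Fintype Ω] [Nonempty Ω] (i : ι)
    (A : Ω → (ι → Ω) → Prop) (c : ℝ) (hA : ∀ y ω z, A y (Function.update ω i z) → A y ω)
    (h : ∀ y, Pr (A y) ≤ c) : Pr (fun ω => A (ω i) ω) ≤ c := by
  rw [Pr_update i]
  simp only [Function.update_self]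
  refine le_trans (Ex_mono fun ω => Pr_mono fun y => hA y ω y) ?_
  unfold Pr
  rw [Ex_comm]
  exact Ex_le_of_le h

variable {F Φ Ω : Type} [Field F] [Fintype F] [DecidableEq F] [Fintype Φ] [DecidableEq Φ]
  [Fintype Ω] [Nonempty Ω] {h : ℝ}

namespace Model
variable (m : Model F Φ Ω h)

def EA (z : Ω → Prop) (ω : Φ → Ω) : Prop :=
  (∀ φ, ¬ z (ω φ)) ∧ ∀ i i', m.fam i ≠ m.fam i' → m.sp ω i ≠ m.sp ω i'

lemma Pr_EA (z : Ω → Prop) (hz : Pr z ≤ 1 / Fintype.card F)
    (hΦ : (Fintype.card Φ : ℝ) ≤ 5 * Fintype.card F) : Real.exp (-50) ≤ Pr (m.EA z) := by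
  have hq := q_pos (F := F)
  have h0 : ∀ φ, (1 + 4 * m.nf φ) / Fintype.card F ≤ 1 / 2 := fun φ => by
    rw [div_le_iff₀ hq]; have := m.hn φ; unfold nf; linarith [m.q_ge, m.one_le_h]
  have h1 := Pr_seq (fun φ φ' w w' => ∃ i i', m.fam i = φ ∧ m.fam i' = φ' ∧ m.ln i w = m.ln i' w')
    (fun _ => z) (fun φ => (1 + 4 * m.nf φ) / Fintype.card F) (fun φ ω => ?_)
    fun φ => (h0 φ).trans (by norm_num)
  · refine le_trans (le_trans ?_ (exp_le_prod_one_sub univ _
      (fun φ _ => by have := m.nf_nonneg φ; positivity) fun φ _ => h0 φ))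
      (h1.trans (Pr_mono fun ω hω => ⟨hω.1, fun i i' h2 h3 => hω.2 _ _ h2 ⟨i, i', rfl, rfl, h3⟩⟩))
    rw [Real.exp_le_exp, neg_le_neg_iff, ← sum_div, sum_add_distrib, ← mul_sum, mul_div_assoc',
      div_le_iff₀ hq]
    simp only [sum_const, card_univ, nsmul_eq_mul, mul_one]
    linarith [m.sum_nf_le]
  · have h2 := Pr_exists_le' ((univ.filter fun i => m.fam i = φ) ×ˢ (univ : Finset (Bool × Bool)))
      (fun x y => m.off x.1 y = (m.sp ω (x.1.1, x.2)).2) _ fun x _ => m.unif x.1 _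
    refine le_trans (Pr_mono fun y hy => ?_) (((Pr_or _ _).trans (add_le_add hz h2)).trans
      (le_of_eq ?_))
    · rcases hy with hy | ⟨φ', -, hy⟩
      · exact Or.inl hy
      · right
        have : ∃ i i', m.fam i = φ ∧ m.ln i y = m.sp ω i' := by
          rcases hy with ⟨i, i', h3, rfl, h4⟩ | ⟨i', i, rfl, h3, h4⟩
          exacts [⟨i, i', h3, h4⟩, ⟨i, i', h3, h4.symm⟩]
        obtain ⟨i, i', h3, h4⟩ := this
        refine ⟨(i, i'.2), by simp [h3], ?_⟩
        have h5 : i.1 = i'.1 := congrArg (fun l : Option F × F => l.1) h4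
        have h6 : (i.1, i'.2) = i' := by rw [h5]
        simp only [h6, ← h4]; rfl
    · simp only [card_product, card_univ, Fintype.card_prod, Fintype.card_bool, nf]
      push_cast; ring

lemma Pr_untouched (htri : ∀ i₁ i₂ i₃ : Idx F, m.fam i₁ = m.fam i₂ → m.fam i₁ = m.fam i₃ →
      i₁.2 = i₂.2 → i₁.2 = i₃.2 → i₁ ≠ i₂ → i₁ ≠ i₃ → i₂ ≠ i₃ → ∀ p₁ p₂ p₃,
      Pr (fun w => On (m.ln i₁ w) p₁ ∧ On (m.ln i₂ w) p₂ ∧ On (m.ln i₃ w) p₃) ≤
        1 / (Fintype.card F : ℝ) ^ 3)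
    (hΦ : (Fintype.card Φ : ℝ) ≤ 5 * Fintype.card F)
    (ok : Idx F → Prop) (O : Finset F) (hO : (O.card : ℝ) ≤ h) (hO0 : 0 < O.card)
    (P : F → Bool × Bool → F × F) (l : Option F × F) (hok : ∀ i, ok i → i.1 ≠ l.1)
    (hP : ∀ k u, On l (P k u)) (hP8 : ∀ p, (O.filter fun k => ∃ u, P k u = p).card ≤ 8) :
    Pr (fun ω => ¬ ∃ k ∈ O, ∀ i, ok i → ∀ u, ¬ On (m.sp ω i) (P k u)) ≤
      Real.exp (-(Real.exp (-80) * O.card / 81920)) + 320 * h ^ 6 / (Fintype.card F : ℝ) ^ 2 := by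
  classical
  have hq := q_pos (F := F)
  have hh := m.h_pos
  set Tg := (O ×ˢ (univ : Finset (Bool × Bool))).image fun x => P x.1 x.2 with hTg
  have hTg4 : (Tg.card : ℝ) ≤ 4 * h := by
    have : Tg.card ≤ O.card * 4 := card_image_le.trans (by simp)
    have : (Tg.card : ℝ) ≤ (O.card * 4 : ℕ) := Nat.cast_le.2 this
    push_cast at this; linarith
  set Hits : Φ → Ω → Finset (Idx F) := fun φ w =>
    univ.filter fun i => m.fam i = φ ∧ ok i ∧ ∃ p ∈ Tg, On (m.ln i w) p with hHits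
  set K : Φ → Ω → F → Prop := fun φ w k => (Hits φ w).card ≤ 8 ∧
    ∃ i, m.fam i = φ ∧ ok i ∧ ∃ u, On (m.ln i w) (P k u) with hK
  have hPK : ∀ φ k, Pr (fun w => K φ w k) ≤ 4 * (m.nf φ / Fintype.card F) := by
    intro φ k
    have h1 := Pr_exists_univ (fun u w => m.K (fun _ _ => True) φ w (P k u)) _
      fun u => m.Pr_K_le (fun _ _ => True) φ (P k u)
    refine le_trans (Pr_mono fun w hw => ?_) (h1.trans (by simp))
    obtain ⟨-, i, h2, -, u, h3⟩ := hw
    exact ⟨u, i, h2, trivial, h3⟩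
  have hsum : ∀ k, ∑ φ, Pr (fun w => K φ w k) ≤ 20 := by
    intro k
    refine (sum_le_sum fun φ _ => hPK φ k).trans ?_
    rw [← mul_sum, ← sum_div, mul_div_assoc', div_le_iff₀ hq]; linarith [m.sum_nf_le]
  have hO1 : (0 : ℝ) < O.card := by exact_mod_cast hO0
  have he : Real.exp (-40) ≤ 1 := Real.exp_le_one_iff.2 (by norm_num)
  have h1 := surv_lower O K 64 (20 * O.card) (Real.exp (-40) * O.card / 2)
    (Real.exp (-40) * O.card) (by norm_num) (by positivity) (by positivity) (by nlinarith)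
    (fun φ w => ?_) ?_ ?_
  rotate_left
  · unfold kills
    by_cases h8 : (Hits φ w).card ≤ 8
    · have h2 : (O.filter fun k => K φ w k).card ≤ (Hits φ w).card * 8 := by
        refine le_trans (card_le_card (t := (Hits φ w).biUnion fun i =>
          O.filter fun k => ∃ u, On (m.ln i w) (P k u)) fun k hk => ?_)
          (card_biUnion_le_card_mul _ _ _ fun i hi => ?_)
        · obtain ⟨h3, -, i, h4, h5, u, h6⟩ := mem_filter.1 hk
          refine mem_biUnion.2 ⟨i, mem_filter.2 ⟨mem_univ _, h4, h5, P k u, ?_, h6⟩,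
            mem_filter.2 ⟨h3, u, h6⟩⟩
          exact mem_image.2 ⟨(k, u), by simp [h3], rfl⟩
        · obtain ⟨-, -, h3, p, h4, h5⟩ := mem_filter.1 hi
          refine le_trans (card_le_card fun k hk => ?_) (hP8 p)
          obtain ⟨h6, u, h7⟩ := mem_filter.1 hk
          obtain ⟨x, -, rfl⟩ := mem_image.1 h4
          refine mem_filter.2 ⟨h6, u, eq_of_on (l := l) (l' := m.ln i w) ?_ (hP _ _) h7 (hP _ _) h5⟩
          exact fun h8 => hok i h3 (by rw [h8]; rfl)
      have h3 : (O.filter fun k => K φ w k).card ≤ 64 := by omega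
      have h4 : ((O.filter fun k => K φ w k).card : ℝ) ≤ 64 := by exact_mod_cast h3
      refine le_trans (Nat.cast_le.2 (card_le_card fun k hk => ?_)) h4
      simp only [mem_filter] at hk ⊢
      exact hk
    · refine le_trans (Nat.cast_le.2 (card_le_card (t := ∅) fun k hk => ?_)) (by simp)
      simp only [mem_filter] at hk
      exact absurd hk.2.1 h8
  · simp only [Ex_kills]
    rw [sum_comm, mul_comm]
    exact sum_le_card_mul fun k _ => hsum k
  · rw [Ex_surv, mul_comm]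
    refine card_mul_le_sum fun k _ => ?_
    refine le_trans ?_ (exp_le_prod_one_sub univ _ (fun _ _ => Pr_nonneg _)
      fun φ _ => (hPK φ k).trans ?_)
    · exact Real.exp_le_exp.2 (by linarith [hsum k])
    · rw [mul_div_assoc', div_le_iff₀ hq]; have := m.hn φ; unfold nf
      linarith [m.q_ge, m.h_pos]
  have h2 : ∀ φ, Pr (fun ω : Φ → Ω => 8 < (Hits φ (ω φ)).card) ≤
      (h * (4 * h)) ^ 3 * (1 / (Fintype.card F : ℝ) ^ 3) := by
    intro φ
    rw [Pr_coord φ (fun w => 8 < (Hits φ w).card)]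
    set X := (univ.filter fun i => m.fam i = φ) ×ˢ Tg with hX
    have h3 := Pr_exists_le' (X ×ˢ X ×ˢ X) (fun x w => (x.1.1.2 = x.2.1.1.2 ∧ x.1.1.2 = x.2.2.1.2 ∧
      x.1.1 ≠ x.2.1.1 ∧ x.1.1 ≠ x.2.2.1 ∧ x.2.1.1 ≠ x.2.2.1) ∧ On (m.ln x.1.1 w) x.1.2 ∧
      On (m.ln x.2.1.1 w) x.2.1.2 ∧ On (m.ln x.2.2.1 w) x.2.2.2)
      (1 / (Fintype.card F : ℝ) ^ 3) fun x hx => by
      by_cases h4 : x.1.1.2 = x.2.1.1.2 ∧ x.1.1.2 = x.2.2.1.2 ∧
        x.1.1 ≠ x.2.1.1 ∧ x.1.1 ≠ x.2.2.1 ∧ x.2.1.1 ≠ x.2.2.1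
      · simp only [hX, mem_product, mem_filter, mem_univ, true_and] at hx
        exact le_trans (Pr_mono fun w hw => hw.2) (htri _ _ _ (hx.1.1.trans hx.2.1.1.symm)
          (hx.1.1.trans hx.2.2.1.symm) h4.1 h4.2.1 h4.2.2.1 h4.2.2.2.1 h4.2.2.2.2 _ _ _)
      · rw [Pr_congr (B := fun _ => False) fun w => by tauto, Pr_false]; positivity
    refine le_trans (Pr_mono fun w hw => ?_) (h3.trans ?_)
    · obtain ⟨r, -, hr⟩ := exists_lt_card_fiber_of_mul_lt_card_of_maps_to (s := Hits φ w)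
        (t := (univ : Finset (Bool × Bool))) (f := fun i => i.2) (n := 2) (fun _ _ => mem_univ _)
        (by simpa using hw)
      obtain ⟨i₁, a₁, i₂, a₂, i₃, a₃, h12, h13, h23⟩ := two_lt_card.1 hr
      simp only [hHits, mem_filter, mem_univ, true_and] at a₁ a₂ a₃
      obtain ⟨⟨b₁, -, p₁, c₁, d₁⟩, e₁⟩ := a₁
      obtain ⟨⟨b₂, -, p₂, c₂, d₂⟩, e₂⟩ := a₂
      obtain ⟨⟨b₃, -, p₃, c₃, d₃⟩, e₃⟩ := a₃
      refine ⟨((i₁, p₁), (i₂, p₂), (i₃, p₃)), ?_,
        ⟨e₁.trans e₂.symm, e₁.trans e₃.symm, h12, h13, h23⟩, d₁, d₂, d₃⟩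
      simp only [hX, mem_product, mem_filter, mem_univ, true_and]
      exact ⟨⟨b₁, c₁⟩, ⟨b₂, c₂⟩, b₃, c₃⟩
    · have h4 : (X.card : ℝ) ≤ h * (4 * h) := by
        rw [hX, card_product]; push_cast
        exact mul_le_mul (m.hn φ) hTg4 (Nat.cast_nonneg _) hh.le
      refine mul_le_mul_of_nonneg_right ?_ (by positivity)
      rw [card_product X, card_product X]; push_cast
      calc _ = (X.card : ℝ) ^ 3 := by ring
        _ ≤ _ := pow_le_pow_left₀ (Nat.cast_nonneg _) h4 3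
  have h3 := Pr_exists_univ _ _ h2
  refine le_trans (Pr_mono fun ω hω => ?_) (((Pr_or _ _).trans (add_le_add h1 h3)).trans
    (add_le_add (le_of_eq ?_) ?_))
  · by_contra hc
    push Not at hc
    have h4 : (0 : ℝ) < surv O K ω := lt_of_le_of_lt (by have := Real.exp_pos (-40); nlinarith) hc.1
    unfold surv at h4
    obtain ⟨k, hk⟩ := card_pos.1 (by exact_mod_cast h4)
    simp only [mem_filter] at hk
    exact hω ⟨k, hk.1, fun i h5 u h6 => hk.2 (m.fam i) ⟨hc.2 _, i, rfl, h5, u, h6⟩⟩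
  · congr 2
    rw [show Real.exp (-80) = Real.exp (-40) ^ 2 by rw [← Real.exp_nat_mul]; norm_num]
    field_simp; ring
  · calc _ ≤ 5 * Fintype.card F * ((h * (4 * h)) ^ 3 * (1 / (Fintype.card F : ℝ) ^ 3)) := by
          gcongr
      _ = _ := by field_simp; ring

lemma Pr_five (hΦ : (Fintype.card Φ : ℝ) ≤ 5 * Fintype.card F) (A : Idx F → Ω → Prop)
    [∀ w, DecidablePred fun i => A i w]
    (h2 : ∀ φ w, (univ.filter fun i => m.fam i = φ ∧ A i w).card ≤ 2)
    (h1 : ∀ i, Pr (A i) ≤ 4 * h / (Fintype.card F : ℝ) ^ 2)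
    (h3 : ∀ i i', i ≠ i' → m.fam i = m.fam i' →
      Pr (fun w => A i w ∧ A i' w) ≤ 4 * h / (Fintype.card F : ℝ) ^ 3)
    [∀ ω : Φ → Ω, DecidablePred fun i => A i (ω (m.fam i))] :
    Pr (fun ω : Φ → Ω => 5 ≤ (univ.filter fun i => A i (ω (m.fam i))).card) ≤
      Real.exp 10 * (4 * h ^ 2 / Fintype.card F) ^ 5 := by
  classical
  have hq := q_pos (F := F)
  have hh := m.h_pos
  set z : ℝ := Fintype.card F / (4 * h ^ 2) with hz
  have hz1 : 1 ≤ z := by
    rw [hz, le_div_iff₀ (by positivity), m.hq, one_mul]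
    exact m.absorb (by linarith [m.h_ge]) (by norm_num)
  have h4 := Pr_sum_ge (fun φ w => (univ.filter fun i => m.fam i = φ ∧ A i w).card) z hz1 5
    (fun _ => 2 / Fintype.card F) fun φ => ?_
  · refine le_trans (Pr_mono fun ω hω => ?_) (h4.trans ?_)
    · refine hω.trans ?_
      rw [card_eq_sum_card_fiberwise (f := m.fam) (t := univ) (fun _ _ => mem_univ _)]
      refine sum_le_sum fun φ _ => card_le_card fun i hi => ?_
      simp only [mem_filter, mem_univ, true_and] at hi ⊢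
      exact ⟨hi.2, hi.2 ▸ hi.1⟩
    · rw [div_eq_mul_inv, ← inv_pow, hz, inv_div]
      refine mul_le_mul_of_nonneg_right (Real.exp_le_exp.2 ?_) (by positivity)
      simp only [sum_const, card_univ, nsmul_eq_mul]
      rw [mul_div_assoc', div_le_iff₀ hq]; linarith
  · have e1 := Pr_exists_le' (univ.filter fun i => m.fam i = φ) A _ fun i _ => h1 i
    have e2 := Pr_exists_le' ((univ.filter fun i => m.fam i = φ) ×ˢ
      (univ.filter fun i => m.fam i = φ)) (fun x w => x.1 ≠ x.2 ∧ A x.1 w ∧ A x.2 w)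
      (4 * h / (Fintype.card F : ℝ) ^ 3) fun x hx => by
      by_cases e3 : x.1 = x.2
      · rw [Pr_congr (B := fun _ => False) fun w => by tauto, Pr_false]; positivity
      · simp only [mem_product, mem_filter, mem_univ, true_and] at hx
        exact le_trans (Pr_mono fun w hw => hw.2) (h3 _ _ e3 (hx.1.trans hx.2.symm))
    have e3 : Ex (fun w => z ^ (univ.filter fun i => m.fam i = φ ∧ A i w).card) ≤
        1 + z * Pr (fun w => ∃ i ∈ univ.filter fun i => m.fam i = φ, A i w) +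
          z ^ 2 * Pr (fun w => ∃ x ∈ (univ.filter fun i => m.fam i = φ) ×ˢ
            (univ.filter fun i => m.fam i = φ), x.1 ≠ x.2 ∧ A x.1 w ∧ A x.2 w) := by
      unfold Pr
      rw [← Ex_const_mul, ← Ex_const_mul, ← Ex_const (α := Ω) 1, ← Ex_add, ← Ex_add]
      refine Ex_mono fun w => ?_
      simp only [Ex_const]
      have e4 := h2 φ w
      have e5 : 0 ≤ z := by linarith
      have e6 : 0 ≤ z ^ 2 := by positivity
      rcases Nat.lt_or_ge (univ.filter fun i => m.fam i = φ ∧ A i w).card 1 with e7 | e7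
      · rw [Nat.lt_one_iff.1 e7]; split_ifs <;> linarith
      · rcases Nat.lt_or_ge (univ.filter fun i => m.fam i = φ ∧ A i w).card 2 with e8 | e8
        · rw [show (univ.filter fun i => m.fam i = φ ∧ A i w).card = 1 by omega, if_pos]
          · split_ifs <;> linarith
          · obtain ⟨i, hi⟩ := card_pos.1 e7
            simp only [mem_filter, mem_univ, true_and] at hi ⊢
            exact ⟨i, hi⟩
        · rw [le_antisymm e4 e8, if_pos (c := ∃ x ∈ _ ×ˢ _, _)]
          · split_ifs <;> linarith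
          · obtain ⟨i, hi, i', hi', hne⟩ := one_lt_card.1 e8
            simp only [mem_filter, mem_univ, true_and, mem_product] at hi hi' ⊢
            exact ⟨(i, i'), ⟨hi.1, hi'.1⟩, hne, hi.2, hi'.2⟩
    have e4 := m.hn φ
    have e5 : z * Pr (fun w => ∃ i ∈ univ.filter fun i => m.fam i = φ, A i w) ≤
        1 / Fintype.card F :=
      calc _ ≤ z * (h * (4 * h / (Fintype.card F : ℝ) ^ 2)) := by
            gcongr; exact e1.trans (by gcongr)
        _ = _ := by rw [hz]; field_simp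
    have e6 : z ^ 2 * Pr (fun w => ∃ x ∈ (univ.filter fun i => m.fam i = φ) ×ˢ
            (univ.filter fun i => m.fam i = φ), x.1 ≠ x.2 ∧ A x.1 w ∧ A x.2 w) ≤
        1 / Fintype.card F :=
      calc _ ≤ z ^ 2 * (h * h * (4 * (4 * h * h) / (Fintype.card F : ℝ) ^ 3)) := by
            gcongr
            refine e2.trans ?_
            rw [card_product]; push_cast
            gcongr
            nlinarith [m.one_le_h]
        _ = _ := by rw [hz]; field_simp
    have e7 : (2 : ℝ) / Fintype.card F = 1 / Fintype.card F + 1 / Fintype.card F := by ring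
    linarith

end Model

end Crest.Agent.Ryser
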