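import Crest.Agent.Ryser.Omega
import Crest.Agent.Ryser.Chi

set_option autoImplicit false
set_option linter.unusedSectionVars false
set_option linter.unusedSimpArgs false
open Finset

namespace Crest.Agent.Ryser

theorem gadget_exists : ∃ (M : ℝ) (q₀ : ℕ), ∀ (F : Type) [Field F] [Fintype F] [DecidableEq F],
    (2 : F) ≠ 0 → q₀ ≤ Fintype.card F → Layout F M → Nonempty (Gadget F) := by
  classical
  obtain ⟨c, hc, M₁, hchi⟩ := exists_chi
  set H : ℝ := max (10 ^ 8 / dl ^ 3) (2 * (Real.exp (5 * Zc) + 12) * Real.exp 50) with hH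
  refine ⟨max M₁ (3 * 81920 * Real.exp 80 / c), ⌈H ^ 200⌉₊, fun F _ _ _ h2 hq₀ L => ?_⟩
  have hd := dl_pos
  have hq0 : (0 : ℝ) < Fintype.card F := Model.q_pos
  set h : ℝ := (Fintype.card F : ℝ) ^ ((200 : ℕ)⁻¹ : ℝ) with hh'
  have hq : (Fintype.card F : ℝ) = h ^ 200 := (Real.rpow_inv_natCast_pow hq0.le (by norm_num)).symm
  have hh0 : 0 ≤ h := Real.rpow_nonneg hq0.le _
  have hH0 : 0 ≤ H := le_trans (by positivity) (le_max_left _ _)
  have hHh : H ≤ h := by
    refine (pow_le_pow_iff_left₀ hH0 hh0 (n := 200) (by norm_num)).1 ?_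
    rw [← hq]; exact (Nat.le_ceil _).trans (Nat.cast_le.2 hq₀)
  have hh : 10 ^ 8 ≤ dl ^ 3 * h := by
    have := (le_max_left _ _).trans hHh
    rwa [div_le_iff₀ (by positivity), mul_comm] at this
  have hf : ((20 * L.f ^ 2 : ℕ) : ℝ) ≤ h := by
    refine (pow_le_pow_iff_left₀ (Nat.cast_nonneg _) hh0 (n := 200) (by norm_num)).1 ?_
    rw [← hq]; exact_mod_cast L.hf
  have hK : (L.K.card : ℝ) ≤ h := by
    refine le_trans (Nat.cast_le.2 ?_) hf
    have := L.hKf
    have := L.f_pos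
    nlinarith
  set m₀ := L.model (fun _ => default) hq hh hf
  have hq1 := m₀.q_ge
  have hh1 := m₀.h_ge
  have hp := m₀.h_pos
  obtain ⟨χ, hχ⟩ := hchi F _ L (le_max_left _ _) (by
    have : (5 : ℝ) ≤ Fintype.card F := by linarith
    exact_mod_cast this)
  set m := L.model χ hq hh hf with hm
  have hΦ : (Fintype.card (Fam F) : ℝ) ≤ 5 * Fintype.card F := by
    simp only [Fintype.card_prod, Fintype.card_option, Fintype.card_bool]
    push_cast; linarith
  have hA := m.Pr_EA (fun w => w.1 = 0) (by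
    have := Pr_prod_le (A := fun w : (F × F) × F => w.2 = 0) (c := 1 / Fintype.card F)
      fun a => Pr_le_of_subsingleton fun x y hx hy => hx.trans hy.symm
    rwa [← Pr_equiv (Equiv.prodComm _ _)] at this) hΦ
  have hlog : 0 < Real.log (Fintype.card F) := Real.log_pos (by linarith)
  have hO : ∀ d b i, 3 * Real.log (Fintype.card F) ≤
      Real.exp (-80) * (L.K.filter (L.Valid χ d b i)).card / 81920 := by
    intro d b i
    have e1 := hχ d b i
    have e2 := le_trans (mul_le_mul_of_nonneg_right (le_max_right _ _) hlog.le) L.hM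
    have e3 := mul_le_mul_of_nonneg_left e2 hc.le
    calc _ = Real.exp (-80) * (c * (3 * 81920 * Real.exp 80 / c * Real.log (Fintype.card F))) /
          81920 := by rw [Real.exp_neg]; field_simp
      _ ≤ _ := by gcongr; linarith
  have hB := Pr_exists_univ (fun (x : Option F × Bool) (ω : Fam F → F × (F × F)) =>
    (ω (L.fam χ (x.1, (false, x.2)))).1 ≠ 0 ∧ ¬ ∃ k ∈ L.K.filter (L.Valid χ x.1 x.2 ((χ x.1).2 x.2)),
      ∀ i, (L.fam χ i ≠ L.fam χ (x.1, (false, x.2)) ∧ i.1 ≠ x.1) → ∀ u,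
        ¬ On (m.sp ω i) (L.tg x.1 (ω (L.fam χ (x.1, (false, x.2)))) k u))
    (321 * h ^ 6 / (Fintype.card F : ℝ) ^ 2) fun x => by
    obtain ⟨d, b⟩ := x
    refine Pr_fix (L.fam χ (d, (false, b))) (fun (y : F × (F × F)) ω => y.1 ≠ 0 ∧
      ¬ ∃ k ∈ L.K.filter (L.Valid χ d b ((χ d).2 b)),
      ∀ i, (L.fam χ i ≠ L.fam χ (d, (false, b)) ∧ i.1 ≠ d) → ∀ u,
        ¬ On (m.sp ω i) (L.tg d y k u)) _ (fun y ω z e1 => ⟨e1.1, fun e2 => e1.2 ?_⟩) fun y => ?_
    · obtain ⟨k, e3, e4⟩ := e2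
      refine ⟨k, e3, fun i e5 u => ?_⟩
      have e6 : m.sp (Function.update ω (L.fam χ (d, (false, b))) z) i = m.sp ω i := by
        unfold Model.sp
        rw [Function.update_of_ne (show m.fam i ≠ _ from e5.1)]
      rw [e6]; exact e4 i e5 u
    by_cases hy : y.1 = 0
    · rw [Pr_congr (B := fun _ => False) fun w => by tauto, Pr_false]; positivity
    have e0 := hO d b ((χ d).2 b)
    have e1 := m.Pr_untouched (L.tri χ) hΦ
      (fun i => L.fam χ i ≠ L.fam χ (d, (false, b)) ∧ i.1 ≠ d)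
      (L.K.filter (L.Valid χ d b ((χ d).2 b)))
      (le_trans (Nat.cast_le.2 (card_filter_le _ _)) hK)
      (by
        by_contra e1
        rw [Nat.eq_zero_of_not_pos e1] at e0
        simp at e0; linarith)
      (L.tg d y) (d, L.off χ (d, (false, b)) y) (fun i hi => hi.2)
      (fun k u => L.tg_on χ d b y k u) (fun p => by
        by_cases e1 : ∃ k u, L.tg d y k u = p
        · obtain ⟨k₀, u₀, rfl⟩ := e1
          refine le_trans (card_le_card fun k hk => ?_) (L.card_xi (L.xi k₀ u₀))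
          simp only [mem_filter] at hk ⊢
          obtain ⟨e2, u, e3⟩ := hk
          exact ⟨e2.1, u, L.tg_inj d hy e3⟩
        · rw [filter_eq_empty_iff.2 fun k _ hk => e1 ⟨k, hk⟩]; simp)
    refine le_trans (Pr_mono fun ω hω => hω.2) (e1.trans ?_)
    have e2 : Real.exp (-(Real.exp (-80) * (L.K.filter (L.Valid χ d b ((χ d).2 b))).card / 81920)) ≤
        h ^ 6 / (Fintype.card F : ℝ) ^ 2 := by
      refine le_trans (Real.exp_le_exp.2 (show _ ≤ -(2 * Real.log (Fintype.card F)) by linarith)) ?_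
      rw [Real.exp_neg, show (2 : ℝ) = ((2 : ℕ) : ℝ) by norm_num, Real.exp_nat_mul,
        Real.exp_log hq0, ← one_div]
      gcongr
      exact one_le_pow₀ m.one_le_h
    have e3 : 321 * h ^ 6 / (Fintype.card F : ℝ) ^ 2 = h ^ 6 / (Fintype.card F : ℝ) ^ 2 +
      320 * h ^ 6 / (Fintype.card F : ℝ) ^ 2 := by ring
    linarith
  have hB' : Fintype.card (Option F × Bool) * (321 * h ^ 6 / (Fintype.card F : ℝ) ^ 2) ≤ 1 / h := by
    simp only [Fintype.card_prod, Fintype.card_option, Fintype.card_bool]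
    push_cast
    calc _ ≤ (3 * Fintype.card F) * (321 * h ^ 6 / (Fintype.card F : ℝ) ^ 2) := by
          exact mul_le_mul_of_nonneg_right (by linarith) (by positivity)
      _ = 963 * h ^ 7 / (Fintype.card F * h) := by field_simp; ring
      _ ≤ h ^ 200 / (Fintype.card F * h) := by
          gcongr; exact m.absorb (by linarith) (by norm_num)
      _ = _ := by rw [← hq]; field_simp
  have hC := Pr_exists_univ (fun (x : (F × F) × (Option F × F)) (ω : Fam F → F × (F × F)) =>
    ¬ On x.2 x.1 ∧ 5 ≤ (univ.filter fun i => L.Ax χ x.1 x.2 i (ω (m.fam i))).card)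
    (Real.exp 10 * (4 * h ^ 2 / Fintype.card F) ^ 5) fun x => by
    by_cases hx : On x.2 x.1
    · rw [Pr_congr (B := fun _ => False) fun w => by tauto, Pr_false]; positivity
    refine le_trans (Pr_mono fun ω hω => hω.2) (m.Pr_five hΦ (L.Ax χ x.1 x.2) (fun φ w => ?_)
      (fun i => (L.Pr_Ax_one χ hx i).trans (by gcongr))
      fun i i' e1 e2 => (L.Pr_Ax_two χ hx i i' e1 e2).trans (by gcongr))
    by_cases hw : w.1 = 0
    · rw [filter_eq_empty_iff.2 fun i _ hi => hi.2.2.1 hw]; simp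
    · exact L.two_le χ φ hw x.1 _ fun i hi =>
        ⟨(mem_filter.1 hi).2.1, (mem_filter.1 hi).2.2.1, (mem_filter.1 hi).2.2.2.2.1⟩
  have hC' : Fintype.card ((F × F) × (Option F × F)) *
      (Real.exp 10 * (4 * h ^ 2 / Fintype.card F) ^ 5) ≤ 1 / h := by
    simp only [Fintype.card_prod, Fintype.card_option]
    push_cast
    have e1 : Real.exp 10 ≤ h := by
      have e2 : Real.exp 10 * dl = 1 := by unfold dl; rw [← Real.exp_add]; simp
      have e3 := m.h_ge1
      have e4 := Real.exp_pos 10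
      nlinarith
    calc _ ≤ (Fintype.card F * Fintype.card F * ((2 * Fintype.card F) * Fintype.card F)) *
          (h * (4 * h ^ 2 / Fintype.card F) ^ 5) := by gcongr; linarith
      _ = 2048 * h ^ 12 / (Fintype.card F * h) := by field_simp; ring
      _ ≤ h ^ 200 / (Fintype.card F * h) := by
          gcongr; exact m.absorb (by linarith) (by norm_num)
      _ = _ := by rw [← hq]; field_simp
  have hall := (Pr_or _ _).trans (add_le_add m.classify ((Pr_or _ _).trans
    (add_le_add (hB.trans hB') (hC.trans hC'))))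
  have hlt : (Real.exp (5 * Zc) + 10) / h + (1 / h + 1 / h) < Real.exp (-50) := by
    have e1 := (le_max_right _ _).trans hHh
    have e2 : (Real.exp (5 * Zc) + 10) / h + (1 / h + 1 / h) = (Real.exp (5 * Zc) + 12) / h := by
      ring
    have e3 := Real.exp_pos (5 * Zc)
    have e4 := Real.exp_pos 50
    rw [e2, Real.exp_neg, div_lt_iff₀ hp, ← div_eq_inv_mul, lt_div_iff₀ e4]
    nlinarith
  obtain ⟨ω, ⟨a1, a2⟩, a3⟩ := exists_of_Pr_lt (hall.trans_lt (hlt.trans_le hA))
  simp only [not_or, not_not] at a3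
  obtain ⟨⟨a3, a4⟩, a5, a6⟩ := a3
  simp only [not_exists, not_and, not_le] at a6
  rw [not_exists] at a5
  refine L.gadget_of χ h2 ω (dl * Fintype.card F / 4) (by positivity) a1
    (fun d r r' e1 e2 => a2 (d, r) (d, r') e1 (Prod.ext rfl e2)) (fun d b => ?_)
    (fun x l hx s hs => ?_) a3 a4
  · obtain ⟨k, e2, e3⟩ := not_not.1 (not_and.1 (a5 (d, b)) (a1 _))
    exact ⟨k, (mem_filter.1 e2).1, (mem_filter.1 e2).2, fun i e4 e5 u => e3 i ⟨e4, e5⟩ u⟩
  · have e1 := a6 (x, l) hx
    refine Nat.lt_succ_iff.1 (lt_of_le_of_lt (card_le_card fun i hi => ?_) e1)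
    exact mem_filter.2 ⟨mem_univ _, hs i hi⟩

end Crest.Agent.Ryser
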