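import Crest.Agent.Ryser.Classify

set_option autoImplicit false
set_option linter.unusedSectionVars false
set_option linter.unusedSimpArgs false
open Finset

namespace Crest.Agent.Ryser

variable {F : Type} [Field F] [Fintype F] [DecidableEq F]

lemma card_quad_le {a b c : F} (ha : a ≠ 0) (s : Finset F)
    (hs : ∀ x ∈ s, a * x ^ 2 + b * x + c = 0) : s.card ≤ 2 := by
  by_contra h
  push Not at h
  obtain ⟨x, hx, y, hy, z, hz, hxy, hxz, hyz⟩ := two_lt_card.1 h
  have e1 := hs x hx
  have e2 := hs y hy
  have e3 := hs z hz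
  have e4 : (x - y) * (a * (x + y) + b) = 0 := by linear_combination e1 - e2
  have e5 : (x - z) * (a * (x + z) + b) = 0 := by linear_combination e1 - e3
  have e6 := (mul_eq_zero.1 e4).resolve_left (sub_ne_zero.2 hxy)
  have e7 := (mul_eq_zero.1 e5).resolve_left (sub_ne_zero.2 hxz)
  have e8 : a * (y - z) = 0 := by linear_combination e6 - e7
  exact hyz (sub_eq_zero.1 ((mul_eq_zero.1 e8).resolve_left ha))

/-- chart -/
def sw : Bool → F × F → F × F
  | false, p => p
  | true, p => (p.2, p.1)

def dirOf : Bool → F → Option F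
  | false, k => some k
  | true, k => if k = 0 then none else some k⁻¹

def par : Bool → Option F → F
  | false, d => d.getD 0
  | true, d => (d.getD 0)⁻¹

@[simp] lemma par_dirOf (c : Bool) (k : F) : par c (dirOf c k) = k := by
  cases c
  · simp [par, dirOf]
  · by_cases h : k = 0 <;> simp [par, dirOf, h]

lemma dirOf_inj (c : Bool) : Function.Injective (dirOf c : F → Option F) :=
  Function.LeftInverse.injective (par_dirOf c)

@[simp] lemma sw_sw (c : Bool) (p : F × F) : sw c (sw c p) = p := by cases c <;> rfl

lemma sw_add (c : Bool) (p p' : F × F) : sw c (p + p') = sw c p + sw c p' := by cases c <;> rfl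

lemma sw_smul (c : Bool) (a : F) (p : F × F) : sw c (a • p) = a • sw c p := by cases c <;> rfl

lemma proj_dirOf (c : Bool) (k : F) (p p' : F × F) : proj (dirOf c k) p = proj (dirOf c k) p' ↔
    proj (some k) (sw c p) = proj (some k) (sw c p') := by
  cases c
  · rfl
  · by_cases h : k = 0
    · simp [dirOf, h, proj, sw]
    · simp only [dirOf, h, if_false, proj, sw]
      constructor
      · intro h1
        have : k * k⁻¹ = 1 := mul_inv_cancel₀ h
        linear_combination (-k) * h1 - (p.1 - p'.1) * this
      · intro h1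
        have : k * k⁻¹ = 1 := mul_inv_cancel₀ h
        linear_combination (-k⁻¹) * h1 - (p.2 - p'.2) * this

/-- placement of the base configuration -/
def place (c : Bool) (w : F × (F × F)) (p : F × F) : F × F := w.2 + w.1 • sw c p

/-- sign -/
def sg (b : Bool) : F := if b then -1 else 1

lemma sg_sq (b : Bool) : (sg b : F) ^ 2 = 1 := by cases b <;> simp [sg]

lemma sg_ne (b : Bool) : (sg b : F) ≠ 0 := by cases b <;> simp [sg]

/-- point of the base split line with parameter `k₀` at position `ξ` -/
def bp (k₀ ξ : F) : F × F := (2 * k₀ + ξ, k₀ ^ 2 + k₀ * ξ)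

abbrev Fam (F : Type) := Option F × Bool × Bool

abbrev Lab := (Fin 8 × Bool × Bool) × (Bool → Bool)

namespace Layout
variable {M : ℝ} (L : Layout F M)

def lev : Bool × Bool → F
  | (false, _) => 0
  | (true, false) => -L.A
  | (true, true) => L.A

/-- position of the base point `u` of option `k` -/
def xi (k : F) (u : Bool × Bool) : F := sg u.2 * (k + sg u.1 * (L.A / k))

def links (k : F) : Finset F := {k, -k, L.A / k, -(L.A / k)}

def B0 : Finset F := insert 0 (L.K.biUnion L.links)

def home (d : Option F) : Option F := d.map L.g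

/-- region `γ` is available for the direction `e` -/
def Av (γ e : Option F) : Prop :=
  ∃ d, ∃ κ ∈ L.B0, L.home d = γ ∧ dirOf γ.isNone (par γ.isNone d + κ) = e

lemma Av.valid {L : Layout F M} {γ e : Option F} (h : L.Av γ e) :
    dirOf γ.isNone (par γ.isNone e) = e := by
  obtain ⟨d, κ, -, -, rfl⟩ := h
  rw [par_dirOf]

lemma Av_home (d : Option F) : L.Av (L.home d) d := by
  refine ⟨d, 0, mem_insert_self _ _, rfl, ?_⟩
  cases d <;> simp [home, dirOf, par]

lemma exists_en : ∃ en : Option F → Fin 8 → Option F,
    (∀ e a, L.Av (en e a) e) ∧ ∀ e γ, L.Av γ e → ∃ a, en e a = γ := by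
  classical
  have key : ∀ e, ∃ en : Fin 8 → Option F, (∀ a, L.Av (en a) e) ∧ ∀ γ, L.Av γ e → ∃ a, en a = γ := by
    intro e
    have hc : (univ.filter fun γ => L.Av γ e).card ≤ 8 := by
      obtain ⟨G, hG, h0, h1⟩ := L.hreg (e.getD 0)
      calc _ ≤ (insertNone G).card := card_le_card fun γ hγ => by
            obtain ⟨d, κ, hκ, h2, h3⟩ := (mem_filter.1 hγ).2
            rcases d with _ | d
            · subst h2; simp [home]
            · subst h2; subst h3
              simp only [home, Option.map_some, Option.isNone_some, dirOf, par, Option.getD_some,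
                some_mem_insertNone] at h0 h1 ⊢
              simp only [B0, links, mem_insert, mem_biUnion, mem_singleton] at hκ
              rcases hκ with rfl | ⟨k, hk, rfl | rfl | rfl | rfl⟩
              · simpa using h0
              · simpa using (h1 _ hk).1
              · simpa using (h1 _ hk).2.1
              · simpa using (h1 _ hk).2.2.1
              · simpa using (h1 _ hk).2.2.2
        _ ≤ 8 := by rw [card_insertNone]; omega
    obtain ⟨g, hg⟩ := exists_dec _ hc
    refine ⟨fun a => (g a).getD (L.home e), fun a => ?_, fun γ hγ => ?_⟩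
    · rcases h : g a with _ | γ
      · simpa [h] using L.Av_home e
      · have : γ ∈ dec g := by simp only [dec, mem_eraseNone, mem_image]; exact ⟨a, mem_univ _, h⟩
        rw [hg] at this
        simpa [h] using (mem_filter.1 this).2
    · have : γ ∈ dec g := by rw [hg]; exact mem_filter.2 ⟨mem_univ _, hγ⟩
      simp only [dec, mem_eraseNone, mem_image] at this
      obtain ⟨a, -, ha⟩ := this
      exact ⟨a, by simp [ha]⟩
  choose en h1 h2 using key
  exact ⟨en, h1, h2⟩

noncomputable def en : Option F → Fin 8 → Option F := L.exists_en.choose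

lemma Av_en (e : Option F) (a : Fin 8) : L.Av (L.en e a) e := L.exists_en.choose_spec.1 e a

lemma en_surj {e γ : Option F} (h : L.Av γ e) : ∃ a, L.en e a = γ :=
  L.exists_en.choose_spec.2 e γ h

/-- family of the special line with role `r` in direction `e` under the label `lab` -/
noncomputable def famL (e : Option F) (lab : Lab) : Bool × Bool → Fam F
  | (false, b) => (L.home e, b, lab.2 b)
  | (true, _) => (L.en e lab.1.1, lab.1.2)

lemma Av_famL (e : Option F) (lab : Lab) (r : Bool × Bool) : L.Av (L.famL e lab r).1 e := by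
  rcases r with ⟨_ | _, b⟩
  · exact L.Av_home e
  · exact L.Av_en e _

/-- option `k` is valid for the split line `(d, b)` with index `i` -/
def Valid (χ : Option F → Lab) (d : Option F) (b i : Bool) (k : F) : Prop :=
  (∀ κ ∈ L.links k, ∀ j, L.famL (dirOf d.isNone (par d.isNone d + κ))
    (χ (dirOf d.isNone (par d.isNone d + κ))) (true, j) = (L.home d, b, i)) ∧
  ∀ κ r u, κ ≠ 0 → L.famL (dirOf d.isNone (par d.isNone d + κ))
    (χ (dirOf d.isNone (par d.isNone d + κ))) r = (L.home d, b, i) →
    κ ^ 2 - κ * L.xi k u = L.lev r → r.1 = true ∧ κ ∈ L.links k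

lemma f_pos : 1 ≤ L.f :=
  le_trans (card_pos.2 ⟨0, by simp⟩) (L.hfib (L.g 0))

lemma card_B0 : L.B0.card ≤ 5 * L.f := by
  have h1 : (L.K.biUnion L.links).card ≤ L.K.card * 4 :=
    card_biUnion_le_card_mul _ _ _ fun k _ => card_le_four
  have := card_insert_le 0 (L.K.biUnion L.links)
  have := L.hKf
  have := L.f_pos
  unfold B0; omega

lemma card_Av (γ : Option F) [DecidablePred (L.Av γ)] :
    (univ.filter (L.Av γ)).card ≤ 5 * L.f ^ 2 := by
  have h1 : (univ.filter fun d => L.home d = γ).card ≤ L.f := by
    rcases γ with _ | γ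
    · refine le_trans (card_le_one.2 fun a ha b hb => ?_) L.f_pos
      simp only [home, mem_filter, Option.map_eq_none_iff] at ha hb
      rw [ha.2, hb.2]
    · refine le_trans (card_le_card (t := (univ.filter fun e => L.g e = γ).image some)
        fun d hd => ?_) (card_image_le.trans (L.hfib γ))
      simp only [home, mem_filter, mem_univ, true_and, Option.map_eq_some_iff, mem_image] at hd ⊢
      obtain ⟨a, rfl, h⟩ := hd
      exact ⟨a, h, rfl⟩
  calc _ ≤ (((univ.filter fun d => L.home d = γ) ×ˢ L.B0).image
        fun x => dirOf γ.isNone (par γ.isNone x.1 + x.2)).card := card_le_card fun e he => by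
          obtain ⟨d, κ, h2, h3, h4⟩ := (mem_filter.1 he).2
          exact mem_image.2 ⟨(d, κ), by simp [h2, h3], h4⟩
    _ ≤ _ := card_image_le.trans (by
          rw [card_product]
          calc _ ≤ L.f * (5 * L.f) := Nat.mul_le_mul h1 L.card_B0
            _ = _ := by ring)

lemma card_xi (ξ : F) : (L.K.filter fun k => ∃ u, L.xi k u = ξ).card ≤ 8 := by
  calc _ ≤ ((univ : Finset (Bool × Bool)).biUnion fun u => L.K.filter fun k => L.xi k u = ξ).card :=
        card_le_card fun k hk => by
          simp only [mem_filter, mem_biUnion, mem_univ, true_and] at hk ⊢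
          obtain ⟨h1, u, h2⟩ := hk
          exact ⟨u, h1, h2⟩
    _ ≤ (univ : Finset (Bool × Bool)).card * 2 := card_biUnion_le_card_mul _ _ _ fun u _ =>
        card_quad_le (a := sg u.2) (b := -ξ) (c := sg u.2 * sg u.1 * L.A) (sg_ne _) _ fun k hk => by
          obtain ⟨h1, h2⟩ := mem_filter.1 hk
          have h3 := L.hK0 k h1
          rw [← h2, xi]; field_simp; ring
    _ = 8 := by simp

lemma xi_inj (h2 : (2 : F) ≠ 0) {k : F} (hk : k ∈ L.K) : Function.Injective (L.xi k) := by
  have h0 := L.hK0 k hk
  have h1 := L.hK1 k hk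
  have hA := L.hA
  have e : k * (L.A / k) = L.A := by field_simp
  set k' := L.A / k with hk'
  have a1 : k' ≠ 0 := div_ne_zero hA h0
  have a2 : k + k' ≠ 0 := fun h => h1 (by rw [← e, eq_neg_of_add_eq_zero_right h]; ring)
  have a3 : k - k' ≠ 0 := fun h => h1 (by rw [← e, ← sub_eq_zero.1 h]; ring)
  have b0 := mul_ne_zero h2 h0
  have b1 := mul_ne_zero h2 a1
  have b2 := mul_ne_zero h2 a2
  have b3 := mul_ne_zero h2 a3
  rintro ⟨_ | _, _ | _⟩ ⟨_ | _, _ | _⟩ h <;> simp only [xi, sg, ← hk', if_true, Bool.false_eq_true,
    if_false] at h <;> first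
      | rfl
      | exact absurd (by linear_combination h) b0
      | exact absurd (by linear_combination -h) b0
      | exact absurd (by linear_combination h) b1
      | exact absurd (by linear_combination -h) b1
      | exact absurd (by linear_combination h) b2
      | exact absurd (by linear_combination -h) b2
      | exact absurd (by linear_combination h) b3
      | exact absurd (by linear_combination -h) b3

lemma links_ne {k : F} (hk : k ∈ L.K) {κ : F} (hκ : κ ∈ L.links k) : κ ≠ 0 := by
  have h0 := L.hK0 k hk
  have a1 : L.A / k ≠ 0 := div_ne_zero L.hA h0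
  simp only [links, mem_insert, mem_singleton] at hκ
  rcases hκ with rfl | rfl | rfl | rfl
  exacts [h0, neg_ne_zero.2 h0, a1, neg_ne_zero.2 a1]

lemma link_hit {k : F} (hk : k ∈ L.K) {κ : F} (hκ : κ ∈ L.links k) : ∃ e e',
    κ ^ 2 - κ * L.xi k (false, e) = L.lev (true, false) ∧
    κ ^ 2 - κ * L.xi k (true, e') = L.lev (true, true) := by
  have h0 := L.hK0 k hk
  simp only [links, mem_insert, mem_singleton] at hκ
  rcases hκ with h | h | h | h
  · exact ⟨false, false, by simp [h, xi, sg, lev]; field_simp; ring,
      by simp [h, xi, sg, lev]; field_simp; ring⟩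
  · exact ⟨true, true, by simp [h, xi, sg, lev]; field_simp; ring,
      by simp [h, xi, sg, lev]; field_simp; ring⟩
  · exact ⟨false, true, by simp [h, xi, sg, lev]; field_simp; ring,
      by simp [h, xi, sg, lev]; field_simp; ring⟩
  · exact ⟨true, false, by simp [h, xi, sg, lev]; field_simp; ring,
      by simp [h, xi, sg, lev]; field_simp; ring⟩

lemma exists_link {k : F} (hk : k ∈ L.K) (e e' : Bool) : ∃ κ ∈ L.links k,
    κ ^ 2 - κ * L.xi k (false, e) = L.lev (true, false) ∧
    κ ^ 2 - κ * L.xi k (true, e') = L.lev (true, true) := by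
  have h0 := L.hK0 k hk
  cases e <;> cases e'
  · exact ⟨k, by simp [links], by simp [xi, sg, lev]; field_simp; ring,
      by simp [xi, sg, lev]; field_simp; ring⟩
  · exact ⟨L.A / k, by simp [links], by simp [xi, sg, lev]; field_simp; ring,
      by simp [xi, sg, lev]; field_simp; ring⟩
  · exact ⟨-(L.A / k), by simp [links], by simp [xi, sg, lev]; field_simp; ring,
      by simp [xi, sg, lev]; field_simp; ring⟩
  · exact ⟨-k, by simp [links], by simp [xi, sg, lev]; field_simp; ring,
      by simp [xi, sg, lev]; field_simp; ring⟩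

end Layout

end Crest.Agent.Ryser
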