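import Crest.Agent.Ryser.Defs

set_option autoImplicit false
set_option linter.unusedSectionVars false
open Finset

namespace Crest.Agent.Ryser

lemma card_mul_le_sum {ι : Type*} {s : Finset ι} {f : ι → ℝ} {c : ℝ} (h : ∀ i ∈ s, c ≤ f i) :
    s.card * c ≤ ∑ i ∈ s, f i := by simpa using card_nsmul_le_sum s f c h

lemma sum_le_card_mul {ι : Type*} {s : Finset ι} {f : ι → ℝ} {c : ℝ} (h : ∀ i ∈ s, f i ≤ c) :
    ∑ i ∈ s, f i ≤ s.card * c := by simpa using sum_le_card_nsmul s f c h

variable {F : Type} [Field F] [Fintype F] [DecidableEq F]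

/-- number of lines of `S` through `p` -/
def cnt (S : Finset (Option F × F)) (p : F × F) : ℕ := (S.filter fun l => On l p).card

/-- points of a line -/
def pts (l : Option F × F) : Finset (F × F) := univ.filter (On l)

/-- uncovered points -/
def unc (S : Finset (Option F × F)) : Finset (F × F) := univ.filter fun p => ∀ l ∈ S, ¬ On l p

/-- points of `Y` on `l` that lie on another line of `S` -/
def dbl (S : Finset (Option F × F)) (Y : Finset (F × F)) (l : Option F × F) : Finset (F × F) :=
  Y.filter fun p => On l p ∧ ∃ l' ∈ S, l' ≠ l ∧ On l' p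

/-- points of `l` on no other line of `S` -/
def priv (S : Finset (Option F × F)) (l : Option F × F) : Finset (F × F) :=
  univ.filter fun p => On l p ∧ ∀ l' ∈ S, l' ≠ l → ¬ On l' p

lemma card_pts (l : Option F × F) : (pts l).card = Fintype.card F := card_line l

@[simp] lemma mem_pts {l : Option F × F} {p : F × F} : p ∈ pts l ↔ On l p := by simp [pts]

@[simp] lemma mem_unc {S : Finset (Option F × F)} {p : F × F} :
    p ∈ unc S ↔ ∀ l ∈ S, ¬ On l p := by simp [unc]

lemma cnt_eq_zero {S : Finset (Option F × F)} {p : F × F} : cnt S p = 0 ↔ p ∈ unc S := by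
  simp [cnt, filter_eq_empty_iff]

lemma sum_cnt (S : Finset (Option F × F)) (Y : Finset (F × F)) :
    ∑ p ∈ Y, cnt S p = ∑ l ∈ S, (Y.filter (On l)).card := by
  simp only [cnt, card_filter]
  exact sum_comm

lemma sum_exc (S : Finset (Option F × F)) (Y : Finset (F × F)) :
    ∑ p ∈ Y, (cnt S p - 1) + Y.card = ∑ p ∈ Y, cnt S p + (Y.filter (· ∈ unc S)).card := by
  rw [card_eq_sum_ones Y, card_filter, ← sum_add_distrib, ← sum_add_distrib]
  refine sum_congr rfl fun p _ => ?_
  simp only [← cnt_eq_zero]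
  split_ifs with h <;> omega

lemma sum_exc_univ {S : Finset (Option F × F)} (hS : S.card = Fintype.card F) :
    ∑ p, (cnt S p - 1) = (unc S).card := by
  have h1 := sum_exc S univ
  rw [sum_cnt] at h1
  simp only [card_line, sum_const, hS, card_univ, Fintype.card_prod, smul_eq_mul,
    filter_univ_mem] at h1
  omega

lemma sum_dbl (S : Finset (Option F × F)) (Y : Finset (F × F)) :
    ∑ l ∈ S, (dbl S Y l).card ≤ 2 * ∑ p ∈ Y, (cnt S p - 1) := by
  simp only [dbl, card_filter]
  rw [sum_comm, mul_sum]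
  refine sum_le_sum fun p _ => ?_
  rw [← card_filter]
  by_cases h : cnt S p ≤ 1
  · have : (S.filter fun l => On l p ∧ ∃ l' ∈ S, l' ≠ l ∧ On l' p) = ∅ := by
      rw [filter_eq_empty_iff]
      rintro l hl ⟨h1, l', hl', hne, h2⟩
      exact hne (card_le_one.1 h l' (mem_filter.2 ⟨hl', h2⟩) l (mem_filter.2 ⟨hl, h1⟩))
    rw [this]; simp
  · have : (S.filter fun l => On l p ∧ ∃ l' ∈ S, l' ≠ l ∧ On l' p).card ≤ cnt S p :=
      card_le_card fun l hl => by simp only [mem_filter] at hl ⊢; exact ⟨hl.1, hl.2.1⟩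
    omega

lemma card_dbl_ge (S : Finset (Option F × F)) (Y : Finset (F × F)) (a : ℝ) :
    ((S.filter fun l => a ≤ (dbl S Y l).card).card : ℝ) * a ≤ 2 * ∑ p ∈ Y, ((cnt S p - 1 : ℕ) : ℝ) := by
  have h1 : ((∑ l ∈ S, (dbl S Y l).card : ℕ) : ℝ) ≤ ((2 * ∑ p ∈ Y, (cnt S p - 1) : ℕ) : ℝ) := by
    exact_mod_cast sum_dbl S Y
  rw [Nat.cast_mul, Nat.cast_sum, Nat.cast_sum] at h1
  refine le_trans ?_ h1
  calc _ = ∑ l ∈ S.filter fun l => a ≤ (dbl S Y l).card, a := by simp
    _ ≤ ∑ l ∈ S.filter fun l => a ≤ (dbl S Y l).card, ((dbl S Y l).card : ℝ) :=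
        sum_le_sum fun l hl => (mem_filter.1 hl).2
    _ ≤ _ := sum_le_sum_of_subset_of_nonneg (filter_subset _ _) fun _ _ _ => Nat.cast_nonneg _

lemma card_inter_eq {l l' : Option F × F} (h : l' ≠ l) :
    ((pts l).filter (On l')).card = if l'.1 ≠ l.1 then 1 else 0 := by
  split_ifs with hd
  · obtain ⟨p, h1, h2⟩ := exists_inter hd l'.2 l.2
    refine le_antisymm (card_inter_le_one h.symm _ fun p hp => mem_pts.1 hp) ?_
    exact card_pos.2 ⟨p, mem_filter.2 ⟨mem_pts.2 h2, h1⟩⟩
  · push Not at hd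
    rw [card_eq_zero, filter_eq_empty_iff]
    intro p hp hp'
    exact not_on_of_parallel h hd hp' (mem_pts.1 hp)

lemma sum_cnt_erase (T : Finset (Option F × F)) (l : Option F × F) :
    ∑ p ∈ pts l, cnt (T.erase l) p = (T.filter fun l' => l'.1 ≠ l.1).card := by
  rw [sum_cnt, sum_congr rfl fun l' hl' => card_inter_eq (ne_of_mem_erase hl'), ← card_filter]
  congr 1
  ext l'
  simp only [mem_filter, mem_erase]
  constructor
  · tauto
  · rintro ⟨h1, h2⟩; exact ⟨⟨fun h => h2 (by rw [h]), h1⟩, h2⟩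

/-- points of a line `l` covered by lines of `T` other than `l` -/
lemma card_cov_le (T : Finset (Option F × F)) (l : Option F × F) :
    (univ.filter fun p => On l p ∧ ∃ l' ∈ T, l' ≠ l ∧ On l' p).card ≤ T.card := by
  calc _ ≤ ((T.erase l).biUnion fun l' => (pts l).filter (On l')).card := by
        refine card_le_card fun p hp => ?_
        simp only [mem_filter, mem_univ, true_and, mem_biUnion, mem_erase, mem_pts] at hp ⊢
        obtain ⟨h1, l', h2, h3, h4⟩ := hp
        exact ⟨l', ⟨h3, h2⟩, h1, h4⟩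
    _ ≤ ∑ l' ∈ T.erase l, ((pts l).filter (On l')).card := card_biUnion_le
    _ ≤ ∑ l' ∈ T.erase l, 1 := sum_le_sum fun l' hl' =>
        card_inter_le_one (ne_of_mem_erase hl').symm _ fun p hp => mem_pts.1 hp
    _ ≤ T.card := by simpa using card_erase_le

/-- points covered by a set of lines -/
lemma card_cov_le' (T : Finset (Option F × F)) (Y : Finset (F × F)) (a : ℝ)
    (h : ∀ l ∈ T, ((Y.filter (On l)).card : ℝ) ≤ a) :
    ((Y.filter fun p => ∃ l ∈ T, On l p).card : ℝ) ≤ T.card * a := by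
  calc ((Y.filter fun p => ∃ l ∈ T, On l p).card : ℝ)
      ≤ ((T.biUnion fun l => Y.filter (On l)).card : ℝ) := by
        refine Nat.cast_le.2 (card_le_card fun p hp => ?_)
        simp only [mem_filter, mem_biUnion] at hp ⊢
        obtain ⟨h1, l, h2, h3⟩ := hp
        exact ⟨l, h2, h1, h3⟩
    _ ≤ ((∑ l ∈ T, (Y.filter (On l)).card : ℕ) : ℝ) := Nat.cast_le.2 card_biUnion_le
    _ ≤ T.card * a := by
        push_cast
        simpa using sum_le_card_nsmul T _ a h

lemma unc_lower (S : Finset (Option F × F)) (hS : S.card = Fintype.card F) (D : ℝ) (hD : 0 < D)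
    (h1 : ∀ x, D < (S.filter fun l => ¬ On l x).card)
    (h2 : ∀ d, D < (S.filter fun l => l.1 ≠ d).card) :
    D ^ 2 * Fintype.card F ≤ 2 * ((unc S).card : ℝ) ^ 2 := by
  obtain ⟨x, -, hx⟩ := exists_max_image univ (cnt S) ⟨(0, 0), mem_univ _⟩
  set μ := cnt S x with hμ
  have hM := sum_exc_univ hS
  -- (ii)
  have hA : D * Fintype.card F ≤ μ * (unc S).card := by
    have e1 : ∑ l ∈ S, (S.filter fun l' => l'.1 ≠ l.1).card = ∑ p, cnt S p * (cnt S p - 1) := by
      simp only [← sum_cnt_erase]
      calc ∑ l ∈ S, ∑ p ∈ pts l, cnt (S.erase l) p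
          = ∑ l ∈ S, ∑ p, if On l p then cnt S p - 1 else 0 := by
            refine sum_congr rfl fun l hl => ?_
            rw [pts, sum_filter]
            refine sum_congr rfl fun p _ => ?_
            split_ifs with h
            · unfold cnt
              rw [filter_erase, card_erase_of_mem (mem_filter.2 ⟨hl, h⟩)]
            · rfl
        _ = _ := by
            rw [sum_comm]
            refine sum_congr rfl fun p _ => ?_
            rw [← sum_filter]; simp [cnt]
    have e2 : ∑ p, cnt S p * (cnt S p - 1) ≤ μ * (unc S).card := by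
      rw [← hM, mul_sum]
      exact sum_le_sum fun p _ => Nat.mul_le_mul_right _ (hx p (mem_univ _))
    have e3 : D * Fintype.card F ≤ ((∑ l ∈ S, (S.filter fun l' => l'.1 ≠ l.1).card : ℕ) : ℝ) := by
      push_cast
      rw [← hS]
      rw [mul_comm]
      exact card_mul_le_sum fun l _ => (h2 l.1).le
    rw [e1] at e3
    exact e3.trans (by exact_mod_cast e2)
  -- (i)
  have hB : D * (μ - 1 : ℕ) ≤ (unc S).card := by
    set P := S.filter fun l => On l x with hP
    set O := S.filter fun l => ¬ On l x with hO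
    set Y := univ.filter fun p => ∃ l ∈ P, On l p with hY
    have e1 : ∑ p ∈ Y, cnt O p ≤ (unc S).card := by
      rw [← hM]
      refine le_trans (sum_le_sum fun p hp => ?_) (sum_le_sum_of_subset (subset_univ Y))
      obtain ⟨l, hl, hlp⟩ := (mem_filter.1 hp).2
      have : cnt O p + 1 ≤ cnt S p := by
        unfold cnt
        rw [← card_insert_of_notMem (a := l)]
        · refine card_le_card fun l' hl' => ?_
          simp only [mem_insert, mem_filter, hO] at hl' ⊢
          rcases hl' with rfl | hl'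
          · exact ⟨(mem_filter.1 hl).1, hlp⟩
          · exact ⟨hl'.1.1, hl'.2⟩
        · simp only [mem_filter, hO, not_and]
          intro h; exact absurd (mem_filter.1 hl).2 h.2
      omega
    have e2 : ∀ l ∈ O, μ - 1 ≤ (Y.filter (On l)).card := by
      intro l hl
      have hlx : ¬ On l x := (mem_filter.1 hl).2
      have f1 : μ - 1 ≤ (P.filter fun l' => l'.1 ≠ l.1).card := by
        have f2 := card_filter_add_card_filter_not (s := P) (fun l' => l'.1 ≠ l.1)
        have f3 : (P.filter fun l' => ¬ l'.1 ≠ l.1).card ≤ 1 := by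
          rw [card_le_one]
          intro a ha b hb
          simp only [mem_filter, hP, ne_eq, not_not] at ha hb
          by_contra hab
          exact not_on_of_parallel hab (ha.2.trans hb.2.symm) ha.1.2 hb.1.2
        have f4 : P.card = μ := rfl
        omega
      rw [← sum_cnt_erase] at f1
      refine f1.trans ?_
      rw [card_filter, hY, sum_filter, pts, sum_filter]
      refine sum_le_sum fun p _ => ?_
      by_cases hp : On l p
      · simp only [hp, if_true]
        split_ifs with h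
        · rw [cnt, card_le_one]
          intro a ha b hb
          simp only [mem_filter, hP, mem_erase] at ha hb
          by_contra hab
          exact hlx (eq_of_on hab ha.2 hb.2 ha.1.2.2 hb.1.2.2 ▸ hp)
        · rw [Nat.le_zero, cnt_eq_zero, mem_unc]
          intro l' hl' h'
          exact h ⟨l', mem_of_mem_erase hl', h'⟩
      · simp [hp]
    have e3 : O.card * (μ - 1) ≤ (unc S).card := by
      refine le_trans ?_ e1
      rw [sum_cnt]
      simpa using card_nsmul_le_sum O _ _ e2
    have e4 : ((O.card * (μ - 1) : ℕ) : ℝ) ≤ (unc S).card := by exact_mod_cast e3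
    rw [Nat.cast_mul] at e4
    exact le_trans (mul_le_mul_of_nonneg_right (h1 x).le (Nat.cast_nonneg _)) e4
  have hq : (0 : ℝ) < Fintype.card F := by exact_mod_cast Fintype.card_pos
  have hM0 : (0 : ℝ) ≤ (unc S).card := Nat.cast_nonneg _
  rcases Nat.lt_or_ge μ 2 with h | h
  · have hμ1 : (μ : ℝ) ≤ 1 := by exact_mod_cast Nat.lt_succ_iff.1 h
    have h3 : D * Fintype.card F ≤ (unc S).card := hA.trans (by nlinarith)
    have h4 : (1 : ℝ) ≤ Fintype.card F := by exact_mod_cast Fintype.card_pos
    have h5 : (D * Fintype.card F) ^ 2 ≤ ((unc S).card : ℝ) ^ 2 :=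
      pow_le_pow_left₀ (by positivity) h3 2
    nlinarith [sq_nonneg D]
  · have h3 : (μ : ℝ) ≤ 2 * (μ - 1 : ℕ) := by
      have : μ ≤ 2 * (μ - 1) := by omega
      exact_mod_cast this
    have h4 : D * μ ≤ 2 * (unc S).card := by nlinarith
    calc D ^ 2 * Fintype.card F = D * (D * Fintype.card F) := by ring
      _ ≤ D * (μ * (unc S).card) := mul_le_mul_of_nonneg_left hA hD.le
      _ = (D * μ) * (unc S).card := by ring
      _ ≤ (2 * (unc S).card) * (unc S).card := mul_le_mul_of_nonneg_right h4 hM0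
      _ = _ := by ring

/-- Corrádi's lemma -/
lemma corradi (X : Finset (F × F)) (T : Finset (Option F × F)) (a : ℝ) (ha : 0 < a)
    (hT : ∀ l ∈ T, a ≤ (X.filter (On l)).card) (hX : 2 * (X.card : ℝ) ≤ a ^ 2) :
    T.card * a ≤ 2 * X.card := by
  set Dg : ℝ := ∑ p ∈ X, (cnt T p : ℝ) with hDg
  have h1 : T.card * a ≤ Dg := by
    have : Dg = ((∑ p ∈ X, cnt T p : ℕ) : ℝ) := by push_cast; rfl
    rw [this, sum_cnt]; push_cast
    simpa using card_nsmul_le_sum T _ _ hT
  have h2 : ∑ p ∈ X, (cnt T p : ℝ) ^ 2 ≤ (T.card : ℝ) ^ 2 + Dg := by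
    have e1 : ∑ p ∈ X, cnt T p ^ 2 ≤ T.card ^ 2 + ∑ p ∈ X, cnt T p := by
      have e2 : ∀ p, cnt T p ^ 2 = ∑ l ∈ T, if On l p then cnt (T.erase l) p + 1 else 0 := by
        intro p
        rw [← sum_filter, sum_congr rfl (g := fun _ => cnt T p)]
        · simp [cnt, sq]
        · intro l hl
          unfold cnt
          rw [filter_erase, card_erase_add_one hl]
      simp only [e2]
      rw [sum_comm, sum_cnt, sq]
      calc _ ≤ ∑ l ∈ T, (T.card + (X.filter (On l)).card) := by
            refine sum_le_sum fun l _ => ?_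
            rw [← sum_filter, sum_add_distrib, ← card_eq_sum_ones]
            refine Nat.add_le_add_right ?_ _
            refine le_trans (sum_le_sum_of_subset (t := pts l) fun p hp => ?_) ?_
            · exact mem_pts.2 (mem_filter.1 hp).2
            · rw [sum_cnt_erase]; exact card_filter_le _ _
        _ = _ := by rw [sum_add_distrib]; simp
    have : ((∑ p ∈ X, cnt T p ^ 2 : ℕ) : ℝ) ≤ ((T.card ^ 2 + ∑ p ∈ X, cnt T p : ℕ) : ℝ) := by
      exact_mod_cast e1
    push_cast at this
    exact this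
  have h3 : Dg ^ 2 ≤ X.card * ∑ p ∈ X, (cnt T p : ℝ) ^ 2 := sq_sum_le_card_mul_sum_sq
  have hD0 : 0 ≤ Dg := sum_nonneg fun _ _ => Nat.cast_nonneg _
  have hX0 : (0 : ℝ) ≤ X.card := Nat.cast_nonneg _
  have hT0 : (0 : ℝ) ≤ T.card := Nat.cast_nonneg _
  have h4 : X.card * (T.card : ℝ) ^ 2 ≤ Dg ^ 2 / 2 := by
    have : (T.card * a) ^ 2 ≤ Dg ^ 2 := pow_le_pow_left₀ (by positivity) h1 2
    nlinarith [sq_nonneg (T.card : ℝ)]
  have h5 : Dg ^ 2 / 2 ≤ X.card * Dg := by nlinarith
  refine h1.trans ?_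
  by_contra hc
  push Not at hc
  nlinarith

end Crest.Agent.Ryser
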