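import Crest.Agent.Ryser.Small

set_option autoImplicit false
set_option linter.unusedSectionVars false
set_option linter.unusedSimpArgs false
open Finset

namespace Crest.Agent.Ryser

variable {F Φ Ω : Type} [Field F] [Fintype F] [DecidableEq F] [Fintype Φ] [DecidableEq Φ]
  [Fintype Ω] [Nonempty Ω] {h : ℝ}

/-- number of colours -/
noncomputable def Zc : ℕ := ⌈64 / dl⌉₊

lemma Zc_ge : 64 / dl ≤ Zc := Nat.le_ceil _

lemma Zc_ge1 : (1 : ℝ) ≤ Zc := by
  refine le_trans ?_ Zc_ge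
  rw [le_div_iff₀ dl_pos]; linarith [dl_le]

instance : NeZero Zc := ⟨fun h => by have := Zc_ge1; rw [h] at this; norm_num at this⟩

namespace Model
variable (m : Model F Φ Ω h)

/-- points on no special line -/
def Pp (ω : Φ → Ω) : Finset (F × F) := univ.filter fun p => ∀ i, ¬ On (m.sp ω i) p

/-- points on no special line of nonzero colour -/
noncomputable def P2 (κ : Φ → Fin Zc) (ω : Φ → Ω) : Finset (F × F) :=
  univ.filter fun p => ∀ i, κ (m.fam i) ≠ 0 → ¬ On (m.sp ω i) p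

def Kc (ω : Φ → Ω) (φ : Φ) (c : Fin Zc) (p : F × F) : Prop :=
  c ≠ 0 ∧ m.K (fun _ _ => True) φ (ω φ) p

open Classical in
noncomputable def wt (ω : Φ → Ω) (p : F × F) : ℝ :=
  ∏ φ, if m.K (fun _ _ => True) φ (ω φ) p then (Zc : ℝ) else 1

def R1 (ω : Φ → Ω) : Prop :=
  ∀ l, dl * h ^ 200 / 2 < surv (pts l) (m.K fun _ l' => l' ≠ l) ω

def R2 (ω : Φ → Ω) : Prop :=
  ∀ l, h ^ 200 * surv (pts l) (m.K fun _ l' => l' ≠ l) ω ≤
    surv univ (m.K fun _ _ => True) ω + 3 * h ^ 302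

def R3 (ω : Φ → Ω) : Prop := ∑ p, m.wt ω p ≤ h ^ 401

lemma wt_pos (ω : Φ → Ω) (p : F × F) : 0 < m.wt ω p :=
  prod_pos fun φ _ => by split_ifs <;> linarith [Zc_ge1]

lemma surv_Kc (ω : Φ → Ω) (Y : Finset (F × F)) (κ : Φ → Fin Zc) :
    surv Y (m.Kc ω) κ = (Y.filter (· ∈ m.P2 κ ω)).card := by
  unfold surv
  congr 2
  ext p
  simp only [mem_filter, Kc, K, P2, mem_univ, true_and, sp]
  refine and_congr_right fun _ => ⟨fun h1 i h2 h3 => h1 _ ⟨h2, i, rfl, h3⟩, ?_⟩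
  rintro h1 φ ⟨h2, i, rfl, h3⟩
  exact h1 i h2 h3

lemma prod_Kc (ω : Φ → Ω) (p : F × F) :
    ∏ φ, (1 - Pr (fun c => m.Kc ω φ c p)) = 1 / m.wt ω p := by
  unfold wt
  rw [one_div, ← prod_inv_distrib]
  refine prod_congr rfl fun φ _ => ?_
  split_ifs with h1
  · rw [← Pr_not, ← one_div, ← Pr_fin_zero]
    exact Pr_congr fun c => by simp [Kc, h1]
  · rw [Pr_congr (B := fun _ => False) fun c => by simp [Kc, h1], Pr_false]; simp

lemma kills_Kc (ω : Φ → Ω) (Y : Finset (F × F)) (B : ℝ) (hB0 : 0 ≤ B)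
    (hB : ∀ i, ((Y.filter (On (m.sp ω i))).card : ℝ) ≤ B) (φ : Φ) (c : Fin Zc) :
    kills Y (m.Kc ω) φ c ≤ m.nf φ * B := by
  classical
  refine le_trans ?_ (m.kills_le' (fun i l => l = m.sp ω i) Y B
    (fun i l hl => hl ▸ hB i) hB0 φ (ω φ))
  unfold kills
  refine Nat.cast_le.2 (card_le_card fun p hp => ?_)
  simp only [mem_filter] at hp ⊢
  obtain ⟨h1, -, i, rfl, -, h2⟩ := hp
  exact ⟨h1, i, rfl, rfl, h2⟩

lemma kills_Kc' (ω : Φ → Ω) (Y : Finset (F × F)) (B : ℝ) (hB0 : 0 ≤ B)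
    (hB : ∀ i, ((Y.filter (On (m.sp ω i))).card : ℝ) ≤ B) :
    (∀ φ c, kills Y (m.Kc ω) φ c ≤ h * B) ∧ ∑ φ, Ex (kills Y (m.Kc ω) φ) ≤ 5 * h ^ 200 * B := by
  refine ⟨fun φ c => (m.kills_Kc ω Y B hB0 hB φ c).trans
    (mul_le_mul_of_nonneg_right (m.hn φ) hB0), ?_⟩
  refine (sum_le_sum fun φ _ => Ex_le_of_le (m.kills_Kc ω Y B hB0 hB φ)).trans ?_
  rw [← sum_mul, ← m.hq]
  exact mul_le_mul_of_nonneg_right m.sum_nf_le hB0

/-- sample size -/
@[irreducible] noncomputable def kk (h : ℝ) : ℝ := h ^ 200 / ⌈h ^ 26⌉₊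

include m in
lemma kk_le : kk h ≤ h ^ 174 := by
  have hh := m.h_pos
  calc kk h ≤ h ^ 200 / h ^ 26 := by
        unfold kk; gcongr; exact Nat.le_ceil _
    _ = _ := by field_simp

include m in
lemma kk_ge : h ^ 174 / 2 ≤ kk h := by
  have hh := m.h_pos
  have h1 := m.pow_le (a := 0) (b := 26) (by norm_num)
  have h2 : (⌈h ^ 26⌉₊ : ℝ) ≤ 2 * h ^ 26 := by
    linarith [Nat.ceil_lt_add_one (show 0 ≤ h ^ 26 by positivity)]
  have h3 : (0 : ℝ) < ⌈h ^ 26⌉₊ := lt_of_lt_of_le (by positivity) (Nat.le_ceil _)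
  calc h ^ 174 / 2 = h ^ 200 / (2 * h ^ 26) := by field_simp
    _ ≤ kk h := by unfold kk; gcongr

lemma fp_large (ω : Φ → Ω) (S : Finset (Option F × F)) (hB : m.Bad ω S) (h1 : m.R1 ω) :
    ∃ T ⊆ S, (T.card : ℝ) ≤ 2 * kk h ∧ ∀ l ∉ S, (∀ i, m.sp ω i ≠ l) →
      dl * kk h / 8 < (dbl T (m.Pp ω) l).card := by
  have hh := m.h_pos
  have hd := dl_pos
  have hq := m.hq
  have hk1 := m.kk_le
  have hk2 := m.kk_ge
  have hk0 : 0 < kk h := lt_of_lt_of_le (by positivity) hk2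
  set R := ⌈h ^ 26⌉₊ with hR
  have hR0 : (0 : ℝ) < R := lt_of_lt_of_le (by positivity) (Nat.le_ceil _)
  have : NeZero R := ⟨by rintro h0; simp [h0] at hR0⟩
  have hR4 : (1 : ℝ) ≤ R := by exact_mod_cast Nat.pos_of_ne_zero (NeZero.ne R)
  have hρ1 : (1 : ℝ) / R ≤ 1 := by rw [div_le_one hR0]; exact hR4
  have hkk : (S.card : ℝ) / R = kk h := by rw [hB.card, hq]; unfold kk; rfl
  have hP : Pr (fun σ : Option F × F → Fin R => 2 * (S.card / R : ℝ) ≤ (samp S σ).card ∨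
      ∃ l, l ∉ S ∧ ((m.Pp ω).filter (On l)).card * (1 - 1 / (R : ℝ)) + dl * kk h / 4 ≤
        surv ((m.Pp ω).filter (On l)) (Ks R S l) σ) < 1 := by
    have h1 := Pr_samp_large (R := R) S (by rw [hB.card]; exact Fintype.card_pos)
    have h2 := Pr_exists_univ (fun l (σ : Option F × F → Fin R) => l ∉ S ∧
      ((m.Pp ω).filter (On l)).card * (1 - 1 / (R : ℝ)) + dl * kk h / 4 ≤
        surv ((m.Pp ω).filter (On l)) (Ks R S l) σ)
        (Real.exp (-((dl * kk h / 4) ^ 2 / (16 * 1 * kk h)))) fun l => by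
      by_cases hl : l ∈ S
      · simp only [hl, not_true, false_and, Pr_false]; positivity
      refine le_trans (Pr_mono fun σ hσ => hσ.2) (surv_upper _ _ 1 (kk h) _ _ one_pos hk0
        (by positivity) (by nlinarith [dl_le]) (kills_Ks_le S l _ fun p hp => (mem_filter.1 hp).2)
        (hkk ▸ sum_Ex_kills_Ks S l _ fun p hp => (mem_filter.1 hp).2) ?_)
      rw [Ex_surv]
      refine sum_le_card_mul fun p hp => ?_
      rw [prod_Pr_Ks]
      refine pow_le_of_le_one (by linarith) (by have : 0 ≤ 1 / (R : ℝ) := by positivity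
                                                linarith) ?_
      rw [Ne, cnt_eq_zero, erase_eq_of_notMem hl, mem_unc]
      obtain ⟨l', h3, h4⟩ := hB.cover p (mem_filter.1 (mem_filter.1 hp).1).2
      exact fun h5 => h5 l' h3 h4
    have h3 : h ≤ S.card / R / 16 := by
      rw [hkk]
      have := m.absorb (c := 32) (a := 1) (b := 174) (by linarith [m.h_ge]) (by norm_num)
      linarith
    have h4 : 601 * h ≤ (dl * kk h / 4) ^ 2 / (16 * 1 * kk h) := by
      have e1 : (dl * kk h / 4) ^ 2 / (16 * 1 * kk h) = dl ^ 2 * kk h / 256 := by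
        field_simp; ring
      have e2 := m.pow_le (a := 2) (b := 174) (by norm_num)
      rw [e1]
      calc 601 * h ≤ (dl ^ 2 * h / 512) * h := by gcongr; linarith [m.h_ge2]
        _ = dl ^ 2 * (h ^ 2 / 2) / 256 := by ring
        _ ≤ _ := by gcongr; linarith
    have h5 := m.exp_small h3
    have h6 := m.union_small h4
    have h7 := m.inv_h_small
    refine lt_of_le_of_lt ((Pr_or _ _).trans (add_le_add h1 h2)) ?_
    linarith
  obtain ⟨σ, hσ⟩ := exists_not_of_Pr_lt_one hP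
  push Not at hσ
  obtain ⟨hσ1, hσ2⟩ := hσ
  refine ⟨samp S σ, filter_subset _ _, by rw [← hkk]; exact hσ1.le, fun l hl hl' => ?_⟩
  have h2 := hσ2 l hl
  rw [surv_Ks] at h2
  have h3 := (h1 l).trans_le (m.surv_le (fun _ l' => l' ≠ l) (pts l) ((m.Pp ω).filter (On l)) ω
    fun p hp h3 => mem_filter.2 ⟨mem_filter.2 ⟨mem_univ _, fun i => h3 i (hl' i)⟩, mem_pts.1 hp⟩)
  have h4 : ((m.Pp ω).filter (On l)).card ≤ (((m.Pp ω).filter (On l)).filter
      (· ∈ unc ((samp S σ).erase l))).card + (dbl (samp S σ) (m.Pp ω) l).card := by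
    refine le_trans (card_le_card fun p hp => ?_) (card_union_le _ _)
    simp only [mem_filter, mem_union, mem_unc, dbl, mem_erase] at hp ⊢
    by_contra hc
    push Not at hc
    obtain ⟨l', h5, h6⟩ := hc.1 hp
    exact hc.2 hp.1 hp.2 l' h5.2 h5.1 h6
  have h5 : ((((m.Pp ω).filter (On l)).card : ℕ) : ℝ) ≤ (((((m.Pp ω).filter (On l)).filter
      (· ∈ unc ((samp S σ).erase l))).card + (dbl (samp S σ) (m.Pp ω) l).card : ℕ) : ℝ) :=
    Nat.cast_le.2 h4
  push_cast at h5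
  have h6 : dl * h ^ 200 / 2 * (1 / R) ≤ ((m.Pp ω).filter (On l)).card * (1 / (R : ℝ)) := by
    gcongr
  have h7 : dl * h ^ 200 / 2 * (1 / R) = dl * kk h / 2 := by unfold kk; rw [← hR]; ring
  have h8 : 0 < dl * kk h := by positivity
  nlinarith

lemma colour (ω : Φ → Ω) (S T : Finset (Option F × F)) (hB : m.Bad ω S) (h3 : m.R3 ω)
    (hM : h ^ 389 ≤ (unc S).card) (hT : (T.card : ℝ) ≤ 2 * kk h) :
    Pr (fun κ => (((unc S).filter (· ∈ m.P2 κ ω)).card : ℝ) ≤ h ^ 377 / 2 ∨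
      ∃ l ∈ S, dl * kk h / 16 ≤ ((dbl T (m.Pp ω)ᶜ l).filter (· ∈ m.P2 κ ω)).card) ≤ 1 / 2 := by
  have hh := m.h_pos
  have hd := dl_pos
  have hq := m.hq
  have hk1 := m.kk_le
  have hk2 := m.kk_ge
  have hk0 : 0 < kk h := lt_of_lt_of_le (by positivity) hk2
  have a1 := m.kills_Kc' ω (unc S) (h ^ 200) (by positivity)
    fun i => hq ▸ Nat.cast_le.2 (card_filter_on_le _ _)
  have a2 := surv_lower (unc S) (m.Kc ω) _ _ (h ^ 377 / 2) (h ^ 377) (by positivity)
    (by positivity) (by positivity) (by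
      have e1 := m.pow_le (a := 377) (b := 400) (by norm_num)
      have e2 : h ^ 200 * h ^ 200 = h ^ 400 := by ring
      have e3 : 0 < h ^ 377 := by positivity
      nlinarith) a1.1 a1.2 (by
      rw [Ex_surv]
      simp only [prod_Kc]
      have e1 := sq_sum_div_le_sum_sq_div (unc S) (fun _ => (1 : ℝ)) (g := m.wt ω)
        fun p _ => m.wt_pos ω p
      simp only [one_pow, sum_const, nsmul_eq_mul, mul_one] at e1
      refine le_trans ?_ e1
      have e2 : ∑ p ∈ unc S, m.wt ω p ≤ h ^ 401 := le_trans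
        (sum_le_sum_of_subset_of_nonneg (subset_univ _) fun p _ _ => (m.wt_pos ω p).le) h3
      have e3 : 0 < ∑ p ∈ unc S, m.wt ω p := sum_pos (fun p _ => m.wt_pos ω p)
        (card_pos.1 (by exact_mod_cast lt_of_lt_of_le (pow_pos hh 389) hM))
      calc h ^ 377 = (h ^ 389) ^ 2 / h ^ 401 := by field_simp
        _ ≤ _ := by gcongr)
  have a3 := Pr_exists_le' S (fun l κ => dl * kk h / 16 ≤
    ((dbl T (m.Pp ω)ᶜ l).filter (· ∈ m.P2 κ ω)).card)
    (Real.exp (-((dl * kk h / 32) ^ 2 / (16 * (h * 1) * (5 * h ^ 200 * 1))))) fun l hl => by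
    have b1 := m.kills_Kc' ω (dbl T (m.Pp ω)ᶜ l) 1 zero_le_one fun i => by
      exact_mod_cast card_inter_le_one (hB.nonsp l hl i).symm (dbl T (m.Pp ω)ᶜ l)
        fun p hp => (mem_filter.1 hp).2.1
    refine le_trans (Pr_mono fun κ hκ => ?_) (surv_upper _ (m.Kc ω) _ _ (dl * kk h / 32)
      (dl * kk h / 32) (by positivity) (by positivity) (by positivity) (by
        have e1 := m.pow_le (a := 174) (b := 200) (by norm_num)
        have e2 : dl * kk h ≤ kk h := mul_le_of_le_one_left hk0.le dl_le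
        linarith) b1.1 b1.2 ?_)
    · rw [surv_Kc]; linarith
    · rw [Ex_surv]
      simp only [prod_Kc]
      refine (sum_le_card_mul (c := 1 / Zc) fun p hp => ?_).trans ?_
      · refine one_div_le_one_div_of_le (by linarith [Zc_ge1]) ?_
        have e1 := (mem_filter.1 hp).1
        simp only [Pp, mem_compl, mem_filter, mem_univ, true_and, not_forall, not_not] at e1
        obtain ⟨i, hi⟩ := e1
        unfold wt
        rw [← mul_prod_erase _ _ (mem_univ (m.fam i)), if_pos ⟨i, rfl, trivial, hi⟩]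
        refine le_mul_of_one_le_right (Nat.cast_nonneg _) (one_le_prod fun φ _ => ?_)
        split_ifs
        exacts [Zc_ge1, le_rfl]
      · have e1 : (dbl T (m.Pp ω)ᶜ l).card ≤ T.card := le_trans (card_le_card fun p hp => by
          simp only [dbl, mem_filter, mem_univ, true_and] at hp ⊢; exact hp.2) (card_cov_le T l)
        have e2 : 1 / (Zc : ℝ) ≤ dl / 64 := by
          rw [← one_div_div 64 dl]; exact one_div_le_one_div_of_le (by positivity) Zc_ge
        calc _ ≤ (2 * kk h) * (dl / 64) := by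
              gcongr; exact le_trans (Nat.cast_le.2 e1) hT
          _ = _ := by ring
  have a4 : h ≤ (h ^ 377 / 2) ^ 2 / (16 * (h * h ^ 200) * (5 * h ^ 200 * h ^ 200)) := by
    rw [le_div_iff₀ (by positivity)]
    calc _ = 320 * h ^ 602 / 4 := by ring
      _ ≤ h ^ 754 / 4 := by
          gcongr; exact m.absorb (by linarith [m.h_ge]) (by norm_num)
      _ = _ := by ring
  have a5 : 601 * h ≤ (dl * kk h / 32) ^ 2 / (16 * (h * 1) * (5 * h ^ 200 * 1)) := by
    rw [le_div_iff₀ (by positivity)]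
    calc _ = (10 ^ 8 * (48080 * 4096 / 10 ^ 8) * h ^ 202) / 4096 := by ring
      _ ≤ ((dl ^ 2 * h) * h * h ^ 346) / 4096 := by
          gcongr
          exacts [m.h_ge2, by linarith [m.h_ge], m.one_le_h, by norm_num]
      _ = (dl * (h ^ 174 / 2) / 32) ^ 2 := by ring
      _ ≤ _ := by gcongr
  have a6 := m.exp_small a4
  have a7 := m.union_small a5
  have a8 := m.inv_h_small
  have a9 : (S.card : ℝ) ≤ Fintype.card (Option F × F) := Nat.cast_le.2 (card_le_univ _)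
  refine (Pr_or _ _).trans ?_
  have a10 := mul_le_mul_of_nonneg_right a9
    (Real.exp_pos (-((dl * kk h / 32) ^ 2 / (16 * (h * 1) * (5 * h ^ 200 * 1))))).le
  have a11 : Pr (fun κ => (((unc S).filter (· ∈ m.P2 κ ω)).card : ℝ) ≤ h ^ 377 / 2) ≤ 1 / h :=
    le_trans (Pr_mono fun κ hκ => by rw [surv_Kc]; linarith) (a2.trans a6)
  linarith

noncomputable def C3 (κ : Φ → Fin Zc) (T : Finset (Option F × F)) (ω : Φ → Ω) :
    Finset (Option F × F) := univ.filter fun l => (dbl T (m.P2 κ ω) l).card ≤ dl * kk h / 8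

def EvL (κ : Φ → Fin Zc) (T : Finset (Option F × F)) (ω₁ ω₂ : Φ → Ω) : Prop :=
  (((m.C3 κ T ω₁).card : ℝ) ≤ 6 * Fintype.card F ∧
      h ^ 177 / 4 ≤ m.spIn (fun φ => κ φ = 0) (m.C3 κ T ω₁) ω₂) ∨
    (h ^ 377 / 4 ≤ ((unc (m.C3 κ T ω₁)).filter (· ∈ m.P2 κ ω₁)).card ∧
      surv ((unc (m.C3 κ T ω₁)).filter (· ∈ m.P2 κ ω₁)) (m.K fun i _ => κ (m.fam i) = 0) ω₂ ≤
        dl * ((unc (m.C3 κ T ω₁)).filter (· ∈ m.P2 κ ω₁)).card / 2)

lemma clean_large (ω : Φ → Ω) (S T : Finset (Option F × F)) (hB : m.Bad ω S) (h2 : m.R2 ω)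
    (hTS : T ⊆ S) (hT : ∀ l ∉ S, (∀ i, m.sp ω i ≠ l) → dl * kk h / 8 < (dbl T (m.Pp ω) l).card)
    (κ : Φ → Fin Zc) (g1 : h ^ 377 / 2 < (((unc S).filter (· ∈ m.P2 κ ω)).card : ℝ))
    (g2 : ∀ l ∈ S, (((dbl T (m.Pp ω)ᶜ l).filter (· ∈ m.P2 κ ω)).card : ℝ) < dl * kk h / 16) :
    m.EvL κ T ω ω := by
  classical
  have hh := m.h_pos
  have hd := dl_pos
  have hq := m.hq
  have hk2 := m.kk_ge
  have hk0 : 0 < kk h := lt_of_lt_of_le (by positivity) hk2
  by_contra hc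
  simp only [EvL, not_or, not_and, not_le] at hc
  obtain ⟨hb, hc⟩ := hc
  have s1 : ∀ l ∈ m.C3 κ T ω, l ∉ S → ∃ i, m.sp ω i = l := by
    intro l hl hlS
    by_contra hn
    push Not at hn
    have e1 := hT l hlS hn
    have e2 := (mem_filter.1 hl).2
    have e3 : (dbl T (m.Pp ω) l).card ≤ (dbl T (m.P2 κ ω) l).card := card_le_card fun p hp => by
      simp only [dbl, Pp, P2, mem_filter, mem_univ, true_and] at hp ⊢
      exact ⟨fun i _ => hp.1 i, hp.2⟩
    have e4 : ((dbl T (m.Pp ω) l).card : ℝ) ≤ (dbl T (m.P2 κ ω) l).card := Nat.cast_le.2 e3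
    linarith
  have s2 := hb (m.card_le_six ω S _ hB.card s1)
  set T' := (m.C3 κ T ω).filter fun l => l ∉ S ∧ ∃ p, On l p ∧ p ∈ m.P2 κ ω with hT'
  have s3 : (T'.card : ℝ) ≤ m.spIn (fun φ => κ φ = 0) (m.C3 κ T ω) ω :=
    m.card_le_spIn _ _ _ ω fun l hl => by
      obtain ⟨e1, e2, p, e3, e4⟩ := mem_filter.1 hl
      obtain ⟨i, rfl⟩ := s1 l e1 e2
      refine ⟨e1, i, ?_, rfl⟩
      by_contra e5
      exact (mem_filter.1 e4).2 i e5 e3
  have s4 : h ^ 377 / 4 ≤ ((unc (m.C3 κ T ω)).filter (· ∈ m.P2 κ ω)).card := by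
    have e1 := unc_ge S (m.C3 κ T ω) (· ∈ m.P2 κ ω) T' fun l e1 e2 e3 => mem_filter.2 ⟨e1, e2, e3⟩
    have e2 : (T'.card : ℝ) * h ^ 200 ≤ h ^ 177 / 4 * h ^ 200 := by gcongr; linarith
    have e3 : h ^ 177 / 4 * h ^ 200 = h ^ 377 / 4 := by ring
    rw [hq] at e1
    linarith
  have s5 := hc s4
  have s6 : ∑ p ∈ m.Pp ω, ((cnt S p - 1 : ℕ) : ℝ) ≤ 3 * h ^ 302 := by
    have e1 := sum_exc S (m.Pp ω)
    have e2 : (m.Pp ω).filter (· ∈ unc S) = ∅ := by
      rw [filter_eq_empty_iff]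
      intro p hp hp'
      obtain ⟨l, e3, e4⟩ := hB.cover p (mem_filter.1 hp).2
      exact mem_unc.1 hp' l e3 e4
    rw [e2, card_empty, add_zero, sum_cnt] at e1
    have e3 : ((∑ p ∈ m.Pp ω, (cnt S p - 1) + (m.Pp ω).card : ℕ) : ℝ) =
      ((∑ l ∈ S, ((m.Pp ω).filter (On l)).card : ℕ) : ℝ) := by rw [e1]
    rw [Nat.cast_add, Nat.cast_sum, Nat.cast_sum] at e3
    have e4 : ∑ l ∈ S, (((m.Pp ω).filter (On l)).card : ℝ) ≤
        S.card * (((m.Pp ω).card + 3 * h ^ 302) / h ^ 200) := sum_le_card_mul fun l _ => by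
      have f1 := m.le_surv (fun _ l' => l' ≠ l) (pts l) ((m.Pp ω).filter (On l)) ω fun p hp =>
        ⟨mem_pts.2 (mem_filter.1 hp).2, fun i _ => (mem_filter.1 (mem_filter.1 hp).1).2 i⟩
      have f2 := m.surv_le (fun _ _ => True) univ (m.Pp ω) ω fun p _ hp =>
        mem_filter.2 ⟨mem_univ _, fun i => hp i trivial⟩
      have f3 := h2 l
      have f4 := mul_le_mul_of_nonneg_left f1 (show 0 ≤ h ^ 200 by positivity)
      rw [le_div_iff₀ (by positivity)]
      linarith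
    rw [hB.card, hq, mul_div_cancel₀ _ (by positivity)] at e4
    linarith
  have s7 : ((S \ m.C3 κ T ω).card : ℝ) * (dl * kk h / 16) ≤ 6 * h ^ 302 := by
    have e1 := card_dbl_ge S (m.Pp ω) (dl * kk h / 16)
    refine le_trans ?_ (e1.trans (by linarith))
    gcongr
    intro l hl
    rw [mem_sdiff] at hl
    refine mem_filter.2 ⟨hl.1, ?_⟩
    have e2 := hl.2
    simp only [C3, mem_filter, mem_univ, true_and, not_le] at e2
    have e3 := g2 l hl.1
    have e4 : (dbl T (m.P2 κ ω) l).card ≤ (dbl S (m.Pp ω) l).card +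
        ((dbl T (m.Pp ω)ᶜ l).filter (· ∈ m.P2 κ ω)).card := by
      refine le_trans (card_le_card fun p hp => ?_) (card_union_le _ _)
      simp only [dbl, mem_filter, mem_union, mem_compl] at hp ⊢
      obtain ⟨f1, f2, l', f3, f4⟩ := hp
      by_cases f5 : p ∈ m.Pp ω
      · exact Or.inl ⟨f5, f2, l', hTS f3, f4⟩
      · exact Or.inr ⟨⟨f5, f2, l', f3, f4⟩, f1⟩
    have e5 : (((dbl T (m.P2 κ ω) l).card : ℕ) : ℝ) ≤ (((dbl S (m.Pp ω) l).card +
        ((dbl T (m.Pp ω)ᶜ l).filter (· ∈ m.P2 κ ω)).card : ℕ) : ℝ) := Nat.cast_le.2 e4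
    push_cast at e5
    linarith
  have s8 := m.surv_le (fun i _ => κ (m.fam i) = 0) ((unc (m.C3 κ T ω)).filter (· ∈ m.P2 κ ω))
    (univ.filter fun p => ∃ l ∈ S \ m.C3 κ T ω, On l p) ω fun p hp e1 => by
      rw [mem_filter] at hp
      obtain ⟨l, e2, e3⟩ := hB.cover p fun i => by
        by_cases e4 : κ (m.fam i) = 0
        · exact e1 i e4
        · exact (mem_filter.1 hp.2).2 i e4
      exact mem_filter.2 ⟨mem_univ _, l, mem_sdiff.2 ⟨e2, fun e4 => mem_unc.1 hp.1 l e4 e3⟩, e3⟩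
  have s9 := card_cov_le' (S \ m.C3 κ T ω) univ (Fintype.card F)
    fun l _ => Nat.cast_le.2 (card_filter_on_le l _)
  have s10 : ((S \ m.C3 κ T ω).card : ℝ) * h ^ 200 ≤ dl * (h ^ 377 / 4) / 2 := by
    refine le_of_mul_le_mul_right ?_ (show 0 < dl * kk h / 16 by positivity)
    calc _ = (S \ m.C3 κ T ω).card * (dl * kk h / 16) * h ^ 200 := by ring
      _ ≤ 6 * h ^ 302 * h ^ 200 := by gcongr
      _ = 1536 * h ^ 502 / 256 := by ring
      _ ≤ (dl ^ 2 * h) * h ^ 550 / 256 := by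
          gcongr
          exacts [by linarith [m.h_ge2], m.one_le_h, by norm_num]
      _ = dl * (h ^ 377 / 4) / 2 * (dl * (h ^ 174 / 2) / 16) := by ring
      _ ≤ _ := by gcongr
  have s11 : dl * (h ^ 377 / 4) ≤ dl * ((unc (m.C3 κ T ω)).filter (· ∈ m.P2 κ ω)).card := by
    gcongr
  rw [hq] at s9
  linarith

lemma Pr_EvL (κ : Φ → Fin Zc) (T : Finset (Option F × F)) :
    Pr (fun ω => m.EvL κ T ω ω) ≤ 2 * Real.exp (-(1300 * h ^ 175)) := by
  have hh := m.h_pos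
  have hd := dl_pos
  have hq := m.hq
  refine Pr_piecewise_le (univ.filter fun φ => κ φ = 0) _ _ fun ω₀ => ?_
  have h1 := m.Pr_spIn (fun φ => κ φ = 0) (m.C3 κ T ω₀) (h ^ 177 / 4) (by
    have := m.absorb (c := 192) (a := 0) (b := 177) (by linarith [m.h_ge]) (by norm_num)
    linarith)
  have h2 := m.Pr_surv_small (fun i _ => κ (m.fam i) = 0)
    ((unc (m.C3 κ T ω₀)).filter (· ∈ m.P2 κ ω₀)) (Fintype.card F) (h ^ 377 / 4)
    (fun _ l _ => Nat.cast_le.2 (card_filter_on_le l _)) q_pos (by positivity)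
  have e1 : Real.exp (-(h ^ 177 / 4 / (64 * h))) ≤ Real.exp (-(1300 * h ^ 175)) := by
    rw [Real.exp_le_exp, neg_le_neg_iff]
    calc 1300 * h ^ 175 ≤ (h / 256) * h ^ 175 := by gcongr; linarith [m.h_ge]
      _ = _ := by field_simp; ring
  have e2 : Real.exp (-(dl ^ 2 * (h ^ 377 / 4) / (320 * h * Fintype.card F))) ≤
      Real.exp (-(1300 * h ^ 175)) := by
    rw [Real.exp_le_exp, neg_le_neg_iff, hq]
    calc 1300 * h ^ 175 ≤ (dl ^ 2 * h / 1280) * h ^ 175 := by gcongr; linarith [m.h_ge2]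
      _ = _ := by field_simp; ring
  refine le_trans (Pr_mono fun ω' hω => ?_) (((Pr_or _ _).trans (add_le_add h1 h2)).trans
    (by linarith))
  set ω := (univ.filter fun φ => κ φ = 0).piecewise ω' ω₀ with hω'
  have a1 : ∀ i, κ (m.fam i) ≠ 0 → m.sp ω i = m.sp ω₀ i := fun i hi => by
    simp [sp, hω', piecewise, hi]
  have a2 : ∀ φ, κ φ = 0 → ω φ = ω' φ := fun φ hφ => by simp [hω', piecewise, hφ]
  have a3 : m.P2 κ ω = m.P2 κ ω₀ := by
    ext p
    simp only [P2, mem_filter, mem_univ, true_and]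
    exact forall_congr' fun i => forall_congr' fun hi => by rw [a1 i hi]
  have a4 : m.C3 κ T ω = m.C3 κ T ω₀ := by simp only [C3, a3]
  have a5 : ∀ C, m.spIn (fun φ => κ φ = 0) C ω = m.spIn (fun φ => κ φ = 0) C ω' := fun C => by
    unfold spIn
    congr 2
    ext i
    simp only [mem_filter, mem_univ, true_and, sp]
    exact and_congr_right fun hi => by rw [a2 _ hi]
  have a6 : ∀ Y, surv Y (m.K fun i _ => κ (m.fam i) = 0) ω =
      surv Y (m.K fun i _ => κ (m.fam i) = 0) ω' := fun Y => by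
    unfold surv
    congr 2
    ext p
    simp only [mem_filter, K]
    refine and_congr_right fun _ => forall_congr' fun φ => not_congr (exists_congr fun i => ?_)
    refine and_congr_right fun h3 => and_congr_right fun h4 => ?_
    rw [a2 φ (h3 ▸ h4)]
  unfold EvL at hω
  rw [a3, a4, a5, a6] at hω
  exact hω

lemma Pr_large : Pr (fun ω => m.R1 ω ∧ m.R2 ω ∧ m.R3 ω ∧
    ∃ S, m.Bad ω S ∧ h ^ 389 ≤ ((unc S).card : ℝ)) ≤ 4 / h := by
  have hh := m.h_pos
  have h1 := Pr_exists_small (2 * h ^ 174) (600 * h) m.card_ln (by positivity)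
    (fun T ω => 1 / 2 ≤ Pr (fun κ => m.EvL κ T ω ω)) _ (by positivity)
    fun T => Pr_le_of_Ex (A := fun ω κ => m.EvL κ T ω ω) (fun _ hx => hx) fun κ => m.Pr_EvL κ T
  refine le_trans (Pr_mono fun ω hω => ?_) (h1.trans ?_)
  · obtain ⟨r1, r2, r3, S, hB, hM⟩ := hω
    obtain ⟨T, hTS, hT1, hT2⟩ := m.fp_large ω S hB r1
    refine ⟨T, by linarith [m.kk_le], ?_⟩
    have h2 := m.colour ω S T hB r3 hM hT1
    have h3 := Pr_not (fun κ => (((unc S).filter (· ∈ m.P2 κ ω)).card : ℝ) ≤ h ^ 377 / 2 ∨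
      ∃ l ∈ S, dl * kk h / 16 ≤ ((dbl T (m.Pp ω)ᶜ l).filter (· ∈ m.P2 κ ω)).card)
    refine le_trans (by linarith) (h3.ge.trans (Pr_mono fun κ hκ => ?_))
    push Not at hκ
    exact m.clean_large ω S T hB r2 hTS hT2 κ hκ.1 hκ.2
  · have e1 := m.exp_small (x := 100 * h ^ 175) (by
      have := m.pow_le (a := 1) (b := 175) (by norm_num)
      have : 0 < h ^ 175 := by positivity
      linarith)
    calc _ = 4 * Real.exp (-(100 * h ^ 175)) := by
          rw [show -(100 * h ^ 175) = 2 * h ^ 174 * (600 * h) + -(1300 * h ^ 175) by ring,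
            Real.exp_add]; ring
      _ ≤ 4 * (1 / h) := by gcongr
      _ = _ := by ring

end Model

end Crest.Agent.Ryser
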