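import Crest.Agent.Ryser.Geom

set_option autoImplicit false
set_option linter.unusedSectionVars false
set_option linter.unusedSimpArgs false
open Finset

namespace Crest.Agent.Ryser

lemma tail_sum {ι Ω : Type*} [Fintype ι] [DecidableEq ι] [Fintype Ω] [Nonempty Ω]
    (X : ι → Ω → ℝ) (B W t μ : ℝ) (hB : 0 < B) (hW : 0 < W) (ht : 0 ≤ t) (htW : t ≤ 4 * W)
    (h0 : ∀ i y, 0 ≤ X i y) (hXB : ∀ i y, X i y ≤ B) (hXW : ∑ i, Ex (X i) ≤ W)
    (hμ : ∑ i, Ex (X i) ≤ μ) :
    Pr (fun ω : ι → Ω => μ + t ≤ ∑ i, X i (ω i)) ≤ Real.exp (-(t ^ 2 / (16 * B * W))) := by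
  have h1 := tail_upper (fun ω : ι → Ω => ∑ i, X i (ω i)) X B W t hB hW ht htW h0 hXB hXW ?_
  · have h2 : Ex (fun ω : ι → Ω => ∑ i, X i (ω i)) = ∑ i, Ex (X i) := by
      rw [Ex_sum univ (fun i (ω : ι → Ω) => X i (ω i))]
      exact sum_congr rfl fun i _ => Ex_coord i (X i)
    rw [h2] at h1
    exact le_trans (Pr_mono fun ω h => by linarith) h1
  · intro ω i y
    rw [← add_sum_erase _ _ (mem_univ i), ← add_sum_erase _ _ (mem_univ i),
      sum_congr rfl (g := fun j => X j (ω j))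
        (f := fun j => X j (Function.update ω i y j)) fun j hj => by
          rw [Function.update_of_ne (ne_of_mem_erase hj)]]
    simp only [Function.update_self]
    have := h0 i y
    have := h0 i (ω i)
    rw [abs_le]; constructor <;> linarith

abbrev Idx (F : Type) := Option F × (Bool × Bool)

/-- the constant density -/
noncomputable def dl : ℝ := Real.exp (-10)

lemma dl_pos : 0 < dl := Real.exp_pos _
lemma dl_le : dl ≤ 1 := Real.exp_le_one_iff.2 (by norm_num)

/-- abstract model of random special lines -/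
structure Model (F Φ Ω : Type) [Field F] [Fintype F] [DecidableEq F] [Fintype Φ] [DecidableEq Φ]
    [Fintype Ω] (h : ℝ) where
  fam : Idx F → Φ
  off : Idx F → Ω → F
  hn : ∀ φ, ((univ.filter fun i => fam i = φ).card : ℝ) ≤ h
  unif : ∀ i c, Pr (fun w => off i w = c) ≤ 1 / Fintype.card F
  inv : ∀ φ p p', Pr (fun w => ∃ i, fam i = φ ∧ On (i.1, off i w) p) =
    Pr (fun w => ∃ i, fam i = φ ∧ On (i.1, off i w) p')
  hq : (Fintype.card F : ℝ) = h ^ 200
  hh : 10 ^ 8 ≤ dl ^ 3 * h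

variable {F Φ Ω : Type} [Field F] [Fintype F] [DecidableEq F] [Fintype Φ] [DecidableEq Φ]
  [Fintype Ω] [Nonempty Ω] {h : ℝ}

namespace Model
variable (m : Model F Φ Ω h)

def ln (i : Idx F) (w : Ω) : Option F × F := (i.1, m.off i w)

/-- the special line of index `i` -/
def sp (ω : Φ → Ω) (i : Idx F) : Option F × F := m.ln i (ω (m.fam i))

def o (ω : Φ → Ω) : Option F → Bool × Bool → F := fun d r => m.off (d, r) (ω (m.fam (d, r)))

def K (ok : Idx F → Option F × F → Prop) (φ : Φ) (w : Ω) (p : F × F) : Prop :=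
  ∃ i, m.fam i = φ ∧ ok i (m.ln i w) ∧ On (m.ln i w) p

noncomputable def nf (φ : Φ) : ℝ := (univ.filter fun i => m.fam i = φ).card

include m in
lemma h_ge : 10 ^ 8 ≤ h := by
  have h1 := m.hh
  have h2 : dl ^ 3 ≤ 1 := pow_le_one₀ dl_pos.le dl_le
  have h3 : 0 < dl ^ 3 := pow_pos dl_pos 3
  have h4 : 0 ≤ h := by by_contra hc; push Not at hc; nlinarith
  nlinarith

include m in
lemma h_ge1 : 10 ^ 8 ≤ dl * h := by
  have h1 := m.hh
  have h2 : dl ^ 3 ≤ dl := pow_le_of_le_one dl_pos.le dl_le (by norm_num)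
  nlinarith [m.h_ge]

include m in
lemma h_ge2 : 10 ^ 8 ≤ dl ^ 2 * h := by
  have h1 := m.hh
  have h2 : dl ^ 3 ≤ dl ^ 2 := pow_le_pow_of_le_one dl_pos.le dl_le (by norm_num)
  nlinarith [m.h_ge]

include m in
lemma one_le_h : 1 ≤ h := le_trans (by norm_num) m.h_ge

include m in
lemma h_pos : 0 < h := lt_of_lt_of_le (by norm_num) m.h_ge

include m in
lemma pow_le {a b : ℕ} (hab : a ≤ b) : h ^ a ≤ h ^ b := pow_le_pow_right₀ m.one_le_h hab

include m in
/-- absorb a constant into one power of `h` -/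
lemma absorb {c : ℝ} {a b : ℕ} (hc : c ≤ h) (hab : a < b) : c * h ^ a ≤ h ^ b :=
  calc c * h ^ a ≤ h * h ^ a := mul_le_mul_of_nonneg_right hc (pow_pos m.h_pos a).le
    _ = h ^ (a + 1) := by ring
    _ ≤ h ^ b := m.pow_le hab

include m in
lemma q_ge : 10 ^ 8 * h ≤ Fintype.card F := by
  rw [m.hq]; simpa using m.absorb (a := 1) (b := 200) m.h_ge (by norm_num)

lemma nf_nonneg (φ : Φ) : 0 ≤ m.nf φ := Nat.cast_nonneg _

lemma sum_nf : ∑ φ, m.nf φ = 4 * (Fintype.card F + 1) := by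
  unfold nf
  rw [← Nat.cast_sum, ← card_eq_sum_card_fiberwise (t := univ) (fun _ _ => mem_univ _)]
  simp; ring

lemma sum_nf_le : ∑ φ, m.nf φ ≤ 5 * Fintype.card F := by
  rw [sum_nf]; linarith [m.q_ge, m.h_ge]

lemma q_pos : (0 : ℝ) < Fintype.card F := by exact_mod_cast Fintype.card_pos

lemma Pr_On_le (i : Idx F) (p : F × F) :
    Pr (fun w => On (m.ln i w) p) ≤ 1 / Fintype.card F :=
  le_trans (Pr_mono fun _ hw => Eq.symm hw) (m.unif i (proj i.1 p))

lemma Pr_K_le (ok : Idx F → Option F × F → Prop) (φ : Φ) (p : F × F) :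
    Pr (fun w => m.K ok φ w p) ≤ m.nf φ / Fintype.card F := by
  refine le_trans (Pr_mono fun w hw => ?_) ((Pr_exists_le' (univ.filter fun i => m.fam i = φ)
    (fun i w => On (m.ln i w) p) _ fun i _ => m.Pr_On_le i p).trans (le_of_eq ?_))
  · obtain ⟨i, h1, -, h2⟩ := hw
    exact ⟨i, by simpa using h1, h2⟩
  · unfold nf; ring

lemma dl_le_prod (ok : Idx F → Option F × F → Prop) (p : F × F) :
    dl ≤ ∏ φ, (1 - Pr (fun w => m.K ok φ w p)) := by
  have hq := q_pos (F := F)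
  have h1 : ∀ φ, m.nf φ / Fintype.card F ≤ 1 / 2 := fun φ => by
    rw [div_le_iff₀ hq]; have := m.hn φ; unfold nf; linarith [m.q_ge, m.h_pos]
  refine le_trans ?_ (exp_le_prod_one_sub univ _ (fun _ _ => Pr_nonneg _)
    fun φ _ => (m.Pr_K_le ok φ p).trans (h1 φ))
  refine Real.exp_le_exp.2 ?_
  have h2 : ∑ φ, Pr (fun w => m.K ok φ w p) ≤ 5 := by
    refine (sum_le_sum fun φ _ => m.Pr_K_le ok φ p).trans ?_
    rw [← sum_div, div_le_iff₀ hq]; exact m.sum_nf_le
  linarith

lemma Ex_surv_ge (ok : Idx F → Option F × F → Prop) (Y : Finset (F × F)) :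
    dl * Y.card ≤ Ex (surv Y (m.K ok)) := by
  rw [Ex_surv, mul_comm]
  exact card_mul_le_sum fun p _ => m.dl_le_prod ok p

lemma sum_Ex_kills (ok : Idx F → Option F × F → Prop) (Y : Finset (F × F)) :
    ∑ φ, Ex (kills Y (m.K ok) φ) ≤ 5 * Y.card := by
  have hq := q_pos (F := F)
  simp only [Ex_kills]
  rw [sum_comm, mul_comm]
  refine sum_le_card_mul fun p _ => ?_
  refine (sum_le_sum fun φ _ => m.Pr_K_le ok φ p).trans ?_
  rw [← sum_div, div_le_iff₀ hq]; exact m.sum_nf_le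

lemma kills_le' (ok : Idx F → Option F × F → Prop) (Y : Finset (F × F)) (B : ℝ)
    (hB : ∀ i l, ok i l → ((Y.filter (On l)).card : ℝ) ≤ B) (hB0 : 0 ≤ B) (φ : Φ) (w : Ω) :
    kills Y (m.K ok) φ w ≤ m.nf φ * B := by
  classical
  unfold kills
  set T := ((univ.filter fun i => m.fam i = φ).filter fun i => ok i (m.ln i w)).image
    fun i => m.ln i w with hT
  have h1 := card_cov_le' T Y B fun l hl => by
    obtain ⟨i, hi, rfl⟩ := mem_image.1 hl
    exact hB i _ (mem_filter.1 hi).2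
  have h2 : (T.card : ℝ) ≤ m.nf φ :=
    Nat.cast_le.2 (card_image_le.trans (card_filter_le _ _))
  refine le_trans (Nat.cast_le.2 (card_le_card fun p hp => ?_))
    (h1.trans (mul_le_mul_of_nonneg_right h2 hB0))
  simp only [mem_filter] at hp ⊢
  obtain ⟨hp, i, h3, h4, h5⟩ := hp
  exact ⟨hp, _, mem_image.2 ⟨i, by simp [h3, h4], rfl⟩, h5⟩

lemma kills_le (ok : Idx F → Option F × F → Prop) (Y : Finset (F × F)) (B : ℝ)
    (hB : ∀ i l, ok i l → ((Y.filter (On l)).card : ℝ) ≤ B) (hB0 : 0 ≤ B) (φ : Φ) (w : Ω) :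
    kills Y (m.K ok) φ w ≤ h * B :=
  (m.kills_le' ok Y B hB hB0 φ w).trans (mul_le_mul_of_nonneg_right (m.hn φ) hB0)

/-- a known point set keeps many points -/
lemma Pr_surv_small (ok : Idx F → Option F × F → Prop) (Y : Finset (F × F)) (B y : ℝ)
    (hB : ∀ i l, ok i l → ((Y.filter (On l)).card : ℝ) ≤ B) (hB0 : 0 < B) (hy : 0 < y) :
    Pr (fun ω => y ≤ Y.card ∧ surv Y (m.K ok) ω ≤ dl * Y.card / 2) ≤
      Real.exp (-(dl ^ 2 * y / (320 * h * B))) := by
  by_cases hY : y ≤ Y.card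
  · have hY0 : (0 : ℝ) < Y.card := hy.trans_le hY
    have hh := m.h_pos
    have hd := dl_pos
    have h1 := surv_lower Y (m.K ok) (h * B) (5 * Y.card) (dl * Y.card / 2) (dl * Y.card)
      (by positivity) (by positivity) (by positivity) (by nlinarith [dl_le])
      (m.kills_le ok Y B hB hB0.le) (m.sum_Ex_kills ok Y) (m.Ex_surv_ge ok Y)
    refine le_trans (Pr_mono fun ω hω => by linarith [hω.2]) (h1.trans ?_)
    rw [Real.exp_le_exp, neg_le_neg_iff]
    have : (dl * Y.card / 2) ^ 2 / (16 * (h * B) * (5 * Y.card)) =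
        dl ^ 2 * Y.card / (320 * h * B) := by field_simp; ring
    rw [this]; gcongr
  · simp only [hY, false_and, Pr_false]; positivity

/-- number of special lines in a set of lines -/
noncomputable def spIn (A : Φ → Prop) (C : Finset (Option F × F)) (ω : Φ → Ω) : ℝ := by
  classical exact ((univ.filter fun i => A (m.fam i) ∧ m.sp ω i ∈ C).card : ℝ)

lemma sum_Pr_ln_mem (C : Finset (Option F × F)) :
    ∑ i, Pr (fun w => m.ln i w ∈ C) ≤ C.card * (4 / Fintype.card F) := by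
  have h2 : ∀ i : Idx F, Pr (fun w => m.ln i w ∈ C) ≤
      ∑ l ∈ C, if l.1 = i.1 then 1 / (Fintype.card F : ℝ) else 0 := by
    intro i
    refine le_trans (Pr_mono fun w hw => ⟨m.ln i w, hw, rfl⟩)
      ((Pr_exists_le C fun l w => m.ln i w = l).trans (sum_le_sum fun l _ => ?_))
    split_ifs with hl
    · exact le_trans (Pr_mono fun w hw => by rw [← hw]; rfl) (m.unif i l.2)
    · rw [← Pr_false (α := Ω)]
      exact Pr_mono fun w hw => hl (by rw [← hw]; rfl)
  refine (sum_le_sum fun i _ => h2 i).trans ?_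
  rw [sum_comm]
  refine sum_le_card_mul (c := 4 / Fintype.card F) fun l _ => ?_
  rw [Fintype.sum_prod_type_right]
  simp only [sum_ite_eq]
  simp; ring_nf; rfl

lemma Pr_spIn (A : Φ → Prop) (C : Finset (Option F × F)) (j : ℝ) (hj : 48 ≤ j) :
    Pr (fun ω => (C.card : ℝ) ≤ 6 * Fintype.card F ∧ j ≤ m.spIn A C ω) ≤
      Real.exp (-(j / (64 * h))) := by
  classical
  by_cases hC : (C.card : ℝ) ≤ 6 * Fintype.card F
  swap
  · simp only [hC, false_and, Pr_false]; positivity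
  have hq := q_pos (F := F)
  have hh := m.h_pos
  set X : Φ → Ω → ℝ := fun φ w =>
    (((univ.filter fun i => m.fam i = φ).filter fun i => m.ln i w ∈ C).card : ℝ) with hX
  have hE : ∑ φ, Ex (X φ) ≤ 24 := by
    have h1 : ∀ φ, Ex (X φ) = ∑ i ∈ univ.filter (fun i => m.fam i = φ),
        Pr (fun w => m.ln i w ∈ C) := fun φ => Ex_card_filter _ (fun i w => m.ln i w ∈ C)
    simp only [h1]
    rw [sum_fiberwise]
    refine (m.sum_Pr_ln_mem C).trans ?_
    rw [mul_div_assoc', div_le_iff₀ hq]; linarith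
  have h1 := tail_sum X h j (j / 2) (j / 2) hh (by linarith) (by linarith) (by linarith)
    (fun _ _ => Nat.cast_nonneg _)
    (fun φ w => le_trans (Nat.cast_le.2 (card_filter_le _ _)) (m.hn φ)) (by linarith) (by linarith)
  refine le_trans (Pr_mono fun ω hω => ?_) (h1.trans (le_of_eq ?_))
  · have h2 : m.spIn A C ω ≤ ∑ φ, X φ (ω φ) := by
      simp only [hX, spIn]
      rw [← Nat.cast_sum, Nat.cast_le,
        card_eq_sum_card_fiberwise (f := m.fam) (t := univ) (fun _ _ => mem_univ _)]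
      refine sum_le_sum fun φ _ => card_le_card fun i hi => ?_
      simp only [mem_filter, mem_univ, true_and, sp] at hi ⊢
      exact ⟨hi.2, hi.2 ▸ hi.1.2⟩
    linarith [hω.2]
  · congr 2; field_simp; ring

end Model

end Crest.Agent.Ryser
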