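import Crest.Agent.Ryser.Defs

set_option autoImplicit false
open Finset

namespace Crest.Agent.Ryser

theorem layout_pow (M : ℝ) : ∃ s₀ : ℕ, ∀ s : ℕ, ∀ [Fact s.Prime], s₀ ≤ s → ∃ n₀ : ℕ, ∀ n, n₀ ≤ n →
    ∀ [Fintype (GaloisField s n)] [DecidableEq (GaloisField s n)],
      Nonempty (Layout (GaloisField s n) M) := by
  refine ⟨⌈(2400 * |M| + 1) ^ 2⌉₊ + 20, fun s hs h0 => ⟨1600, fun n hn _ _ => ?_⟩⟩
  obtain ⟨c, c1, c2⟩ : ∃ c, 800 * (c + 2) ≤ n ∧ n < 800 * (c + 3) := ⟨n / 800 - 2, by omega⟩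
  obtain ⟨a, ha⟩ : ∃ a, a = 2 * c + 1 := ⟨_, rfl⟩
  let pb := Field.powerBasisOfFiniteOfSeparable (ZMod s) (GaloisField s n)
  have hd : pb.dim = n := by rw [← pb.finrank, GaloisField.finrank s (by omega)]
  have hcard : Fintype.card (GaloisField s n) = s ^ n := by
    rw [← Nat.card_eq_fintype_card, GaloisField.card s n (by omega)]
  have co : ∀ (x : ZMod s) (i : ℕ) (hi : i < pb.dim) (j : Fin pb.dim),
      pb.basis.equivFun (x • pb.gen ^ i) j = if i = j then x else 0 := by
    intro x i hi j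
    have := pb.basis_eq_pow ⟨i, hi⟩
    simp only at this
    rw [← this, map_smul, Pi.smul_apply, Module.Basis.equivFun_self]
    simp [Fin.ext_iff]
  have inj : ∀ (x y : ZMod s) (i j : ℕ), i < n → j < n → x ≠ 0 →
      x • pb.gen ^ i = y • pb.gen ^ j → x = y ∧ i = j := by
    intro x y i j hi hj hx h
    have h1 := co x i (by omega) ⟨i, by omega⟩
    rw [h, co y j (by omega)] at h1
    simp only [if_true] at h1
    split_ifs at h1 with h2
    · exact ⟨h1.symm, h2.symm⟩
    · exact absurd h1.symm hx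
  have hθ : pb.gen ≠ 0 := fun h => by
    simpa using (inj 1 0 1 1 (by omega) (by omega) one_ne_zero (by simp [h])).1
  let K := ((univ.erase (0 : ZMod s)) ×ˢ range (a + 1)).image fun t => t.1 • pb.gen ^ t.2
  have hK : K.card = (s - 1) * (a + 1) := by
    rw [card_image_of_injOn, card_product, card_erase_of_mem (mem_univ _), card_univ, ZMod.card,
      card_range]
    intro t ht t' ht' h
    obtain ⟨h1, h2⟩ := mem_product.mp ht
    have h3 := mem_range.mp (mem_product.mp ht').2
    have h4 := mem_range.mp h2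
    have := inj _ _ _ _ (by omega) (by omega) (mem_erase.mp h1).1 h
    exact Prod.ext this.1 this.2
  have mK : ∀ k ∈ K, ∃ (x : ZMod s) (i : ℕ), x ≠ 0 ∧ i ≤ a ∧ k = x • pb.gen ^ i := by
    intro k hk
    obtain ⟨t, ht, rfl⟩ := mem_image.mp hk
    obtain ⟨h1, h2⟩ := mem_product.mp ht
    exact ⟨_, _, (mem_erase.mp h1).1, Nat.lt_succ_iff.mp (mem_range.mp h2), rfl⟩
  let g : GaloisField s n → GaloisField s n := fun e =>
    pb.basis.equivFun.symm fun j => if (j : ℕ) ≤ a then 0 else pb.basis.equivFun e j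
  have hg : ∀ e (x : ZMod s) i, i ≤ a → g (e + x • pb.gen ^ i) = g e := by
    intro e x i hi
    simp only [g]
    congr 1
    funext j
    rw [map_add, Pi.add_apply, co x i (by omega)]
    split_ifs with h1 h2
    · rfl
    · omega
    · rw [add_zero]
  have hs20 : 20 ≤ s := by omega
  refine ⟨⟨pb.gen ^ a, K, g, s ^ (a + 1), pow_ne_zero _ hθ, ?_, ?_, ?_, ?_, ?_, ?_, ?_⟩⟩
  · intro k hk
    obtain ⟨x, i, hx, -, rfl⟩ := mK k hk
    exact smul_ne_zero hx (pow_ne_zero _ hθ)
  · intro k hk h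
    obtain ⟨x, i, hx, hi, rfl⟩ := mK k hk
    rw [smul_pow, ← pow_mul, ← pow_mul, ← one_smul (ZMod s) (pb.gen ^ (a * 2))] at h
    have := (inj _ _ _ _ (by omega) (by omega) (pow_ne_zero _ hx) h).2
    omega
  · rw [hK, pow_succ']
    exact Nat.mul_le_mul (by omega) (Nat.lt_pow_self (by omega))
  · intro γ
    refine le_trans (card_le_card_of_injOn (t := univ)
      (fun e (j : Fin (a + 1)) => pb.basis.equivFun e ⟨j, by omega⟩)
      (fun e _ => mem_univ _) fun e he e' he' h => ?_) (by simp [ZMod.card])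
    have h1 := pb.basis.equivFun.symm.injective
      ((mem_filter.mp he).2.trans (mem_filter.mp he').2.symm)
    refine pb.basis.equivFun.injective (funext fun j => ?_)
    by_cases hj : (j : ℕ) ≤ a
    · exact congrFun h ⟨j, by omega⟩
    · simpa only [if_neg hj] using congrFun h1 j
  · intro e
    refine ⟨{g e}, by simp, by simp, fun k hk => ?_⟩
    obtain ⟨x, i, hx, hi, rfl⟩ := mK k hk
    have h1 : pb.gen ^ a / (x • pb.gen ^ i) = x⁻¹ • pb.gen ^ (a - i) := by
      rw [div_eq_iff (smul_ne_zero hx (pow_ne_zero _ hθ)), smul_mul_smul_comm, inv_mul_cancel₀ hx,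
        one_smul, ← pow_add, Nat.sub_add_cancel hi]
    simp only [h1, sub_eq_add_neg, ← neg_smul, mem_singleton]
    exact ⟨hg _ _ _ hi, hg _ _ _ hi, hg _ _ _ (by omega), hg _ _ _ (by omega)⟩
  · rw [hcard]
    calc _ ≤ (s * (s ^ (a + 1)) ^ 2) ^ 200 := by gcongr
      _ = s ^ ((2 * a + 3) * 200) := by ring
      _ ≤ _ := Nat.pow_le_pow_right (by omega) (by omega)
  · rw [hK, hcard, Nat.cast_pow, Real.log_pow]
    have h1 : (2400 * |M| + 1) ^ 2 ≤ s := (Nat.le_ceil _).trans (by exact_mod_cast (by omega))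
    have h2 : 2400 * |M| + 1 ≤ Real.sqrt s := Real.le_sqrt_of_sq_le h1
    have hs0 : (0 : ℝ) < s := by positivity
    have h3 : Real.log s ≤ 2 * Real.sqrt s := by
      have := Real.log_le_sub_one_of_pos (Real.sqrt_pos.mpr hs0)
      rw [Real.log_sqrt hs0.le] at this
      linarith
    have h4 := Real.mul_self_sqrt hs0.le
    have h5 : (n : ℝ) ≤ 1200 * (a + 1) := by exact_mod_cast (by omega : n ≤ 1200 * (a + 1))
    have h6 : 0 ≤ Real.log s := Real.log_natCast_nonneg s
    have h7 := abs_nonneg M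
    rw [Nat.cast_mul, Nat.cast_sub (by omega)]
    push_cast
    calc _ ≤ |M| * ((1200 * (a + 1)) * (2 * Real.sqrt s)) :=
          (mul_le_mul_of_nonneg_right (le_abs_self M) (by positivity)).trans (by gcongr)
      _ = (2400 * |M| * Real.sqrt s) * (a + 1) := by ring
      _ ≤ _ := mul_le_mul_of_nonneg_right (by nlinarith) (by positivity)

end Crest.Agent.Ryser
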