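import Crest.Agent.Ryser.Defs

set_option autoImplicit false
open Finset

namespace Crest.Agent.Ryser

lemma div_near {L x w : ℕ} (hL : 0 < L) (h1 : x ≤ w + L) (h2 : w ≤ x + L) :
    x / L = w / L - 1 ∨ x / L = w / L ∨ x / L = w / L + 1 := by
  have a1 := Nat.div_le_div_right (c := L) h1
  have a2 := Nat.div_le_div_right (c := L) h2
  rw [Nat.add_div_right _ hL] at a1 a2
  generalize x / L = u, w / L = v at *
  omega

theorem layout_prime (M : ℝ) : ∃ q₀ : ℕ, ∀ q : ℕ, ∀ [Fact q.Prime], q₀ ≤ q →
    Nonempty (Layout (ZMod q) M) := by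
  refine ⟨(1296 ^ 200) ^ (⌈|M| * 129600⌉₊ + 1), fun q hq h0 => ?_⟩
  have hq0 : q ≠ 0 := hq.out.ne_zero
  obtain ⟨c, hc⟩ : ∃ c, Nat.log (1296 ^ 200) q = c + 1 ∧ |M| * 129600 ≤ c := by
    have := Nat.le_log_of_pow_le (by norm_num) h0
    exact ⟨_, (Nat.sub_add_cancel (by omega)).symm, Nat.ceil_le.mp (by omega)⟩
  have h1 := Nat.pow_log_le_self (1296 ^ 200) hq0
  have h2 := Nat.lt_pow_succ_log_self (b := 1296 ^ 200) (by norm_num) q
  rw [hc.1] at h1 h2
  obtain ⟨L, hL⟩ : ∃ L, L = 6 ^ (2 * c + 1) := ⟨_, rfl⟩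
  have hL0 : 0 < L := by rw [hL]; positivity
  have h3 : (20 * L ^ 2) ^ 200 ≤ q := by
    refine le_trans ?_ h1
    rw [← pow_mul, mul_comm 200, pow_mul]
    refine Nat.pow_le_pow_left ?_ _
    rw [hL, ← pow_mul, show (2 * c + 1) * 2 = 4 * c + 2 by ring, pow_add, pow_mul, pow_succ 1296]
    norm_num; omega
  have h4 : L ^ 4 < q := by
    refine lt_of_lt_of_le ?_ h3
    calc L ^ 4 < (20 * L ^ 2) ^ 2 := by nlinarith [pow_pos hL0 4]
      _ ≤ _ := Nat.pow_le_pow_right (by positivity) (by norm_num)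
  have h5 : L < q := lt_of_le_of_lt (Nat.le_self_pow (by norm_num) L) h4
  have inj : ∀ x y : ℕ, x < q → y < q → (x : ZMod q) = y → x = y := fun x y hx hy h => by
    simpa [ZMod.val_cast_of_lt hx, ZMod.val_cast_of_lt hy] using congrArg ZMod.val h
  have ne : ∀ x : ℕ, 0 < x → x < q → (x : ZMod q) ≠ 0 := fun x hx hy h =>
    hx.ne' (inj x 0 hy (by omega) (by simpa using h))
  have hK : (L.divisors.image (Nat.cast : ℕ → ZMod q)).card = L.divisors.card :=
    card_image_of_injOn fun x hx y hy => inj x y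
      (lt_of_le_of_lt (Nat.divisor_le hx) h5) (lt_of_le_of_lt (Nat.divisor_le hy) h5)
  refine ⟨⟨L, L.divisors.image Nat.cast, fun e => (e.val / L : ℕ), L, ne L hL0 h5, ?_, ?_, ?_, ?_,
    ?_, by rwa [ZMod.card], ?_⟩⟩
  · intro k hk
    obtain ⟨x, hx, rfl⟩ := mem_image.mp hk
    exact ne x (Nat.pos_of_mem_divisors hx) (lt_of_le_of_lt (Nat.divisor_le hx) h5)
  · intro k hk h
    obtain ⟨x, hx, rfl⟩ := mem_image.mp hk
    have h6 : x ^ 4 = L ^ 2 := inj _ _
      (lt_of_le_of_lt (Nat.pow_le_pow_left (Nat.divisor_le hx) _) h4)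
      (lt_of_le_of_lt (Nat.pow_le_pow_right hL0 (by norm_num)) h4) (by exact_mod_cast h)
    have h7 : x ^ 2 = L := (pow_left_inj₀ (by positivity) hL0.le two_ne_zero).mp
      (by rw [← h6]; ring)
    have h8 : (6 ^ c) ^ 2 ∣ x ^ 2 := ⟨6, by rw [h7, hL]; ring⟩
    obtain ⟨m, rfl⟩ := (Nat.pow_dvd_pow_iff two_ne_zero).mp h8
    have h9 : m ^ 2 = 6 := Nat.eq_of_mul_eq_mul_left (show 0 < (6 ^ c) ^ 2 by positivity)
      (by rw [← mul_pow, h7, hL]; ring)
    have : m ≤ 2 := by nlinarith
    interval_cases m <;> omega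
  · rw [hK]; exact Nat.card_divisors_le_self L
  · intro γ
    refine le_trans (card_le_card_of_injOn (t := range L) (fun e => e.val % L)
      (fun e _ => mem_range.mpr (Nat.mod_lt _ hL0)) fun e he e' he' h => ?_) (card_range L).le
    have h6 := inj _ _ (lt_of_le_of_lt (Nat.div_le_self _ _) e.val_lt)
      (lt_of_le_of_lt (Nat.div_le_self _ _) e'.val_lt)
      ((mem_filter.mp he).2.trans (mem_filter.mp he').2.symm)
    refine ZMod.val_injective q ?_
    rw [← Nat.div_add_mod e.val L, ← Nat.div_add_mod e'.val L, h6]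
    exact congrArg _ h
  · intro e
    let G : Finset ℕ := {e.val / L - 1, e.val / L, e.val / L + 1, 0, q / L - 1, q / L}
    have key : ∀ t : ℕ, t ≤ L → (e - t).val / L ∈ G ∧ (e + t).val / L ∈ G := by
      intro t ht
      have gen : ∀ u v : ZMod q, v = u + t → v.val = u.val + t ∨ v.val + q = u.val + t := by
        rintro u _ rfl
        have := ZMod.val_add_val_of_le (a := u) (b := (t : ZMod q))
        have := ZMod.val_add_of_lt (a := u) (b := (t : ZMod q))
        rw [ZMod.val_cast_of_lt (by omega : t < q)] at *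
        omega
      have b1 := e.val_lt
      have b2 := (e - t).val_lt
      simp only [G, mem_insert, mem_singleton]
      constructor
      · rcases gen (e - t) e (by ring) with h | h
        · have := div_near (x := (e - t).val) (w := e.val) hL0 (by omega) (by omega)
          omega
        · have := div_near (x := (e - t).val) (w := q) hL0 (by omega) (by omega)
          have := Nat.div_le_div_right (c := L) b2.le
          omega
      · rcases gen e (e + t) rfl with h | h
        · have := div_near (x := (e + t).val) (w := e.val) hL0 (by omega) (by omega)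
          omega
        · have := Nat.div_eq_of_lt (show (e + t).val < L by omega)
          omega
    refine ⟨G.image Nat.cast, card_image_le.trans (card_le_six.trans (by norm_num)),
      mem_image_of_mem _ (by simp [G]), fun k hk => ?_⟩
    obtain ⟨x, hx, rfl⟩ := mem_image.mp hk
    obtain ⟨y, hy⟩ := Nat.dvd_of_mem_divisors hx
    have hx0 := Nat.pos_of_mem_divisors hx
    have h6 : (L : ZMod q) / x = y := by
      rw [div_eq_iff (ne x hx0 (lt_of_le_of_lt (Nat.divisor_le hx) h5)), hy]; push_cast; ring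
    have k1 := key x (Nat.divisor_le hx)
    have k2 := key y (by nlinarith)
    rw [h6]
    exact ⟨mem_image_of_mem _ k1.1, mem_image_of_mem _ k1.2, mem_image_of_mem _ k2.1,
      mem_image_of_mem _ k2.2⟩
  · have h6 : L.divisors.card = (2 * c + 2) * (2 * c + 2) := by
      rw [hL, show 6 = 2 * 3 by rfl, mul_pow, Nat.Coprime.card_divisors_mul
        (Nat.Coprime.pow _ _ (by norm_num)), Nat.divisors_prime_pow Nat.prime_two,
        Nat.divisors_prime_pow Nat.prime_three]
      simp
    rw [hK, h6, ZMod.card]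
    have h7 : Real.log q ≤ (c + 2) * (200 * 1296) := by
      calc _ ≤ Real.log (((1296 ^ 200) ^ (c + 2) : ℕ) : ℝ) :=
            Real.log_le_log (by positivity) (by exact_mod_cast h2.le)
        _ = (c + 2) * (200 * Real.log 1296) := by
            rw [Nat.cast_pow, Nat.cast_pow, Real.log_pow, Real.log_pow]; norm_num
        _ ≤ _ := by
            have := Real.log_le_sub_one_of_pos (show (0 : ℝ) < 1296 by norm_num)
            gcongr; linarith
    have h8 : 0 ≤ Real.log q := Real.log_natCast_nonneg q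
    have h9 : (0 : ℝ) ≤ c := Nat.cast_nonneg c
    calc _ ≤ |M| * ((c + 2) * (200 * 1296)) :=
          (mul_le_mul_of_nonneg_right (le_abs_self M) h8).trans (by gcongr)
      _ ≤ _ := by push_cast; nlinarith [hc.2]

end Crest.Agent.Ryser
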