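import Crest.Agent.Ryser.Events

set_option autoImplicit false
set_option linter.unusedSectionVars false
set_option linter.unusedSimpArgs false
open Finset

namespace Crest.Agent.Ryser

variable {F : Type} [Field F] [Fintype F] [DecidableEq F]

lemma Pr_Om_three {A : F × (F × F) → Prop} (h : ∀ x y, A x → A y → x = y) :
    Pr A ≤ 1 / (Fintype.card F : ℝ) ^ 3 :=
  (Pr_le_of_subsingleton h).trans (le_of_eq (by simp; ring))

lemma Pr_Om_two {A : F × (F × F) → Prop} (h : ∀ a x y, A (a, x) → A (a, y) → x = y) :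
    Pr A ≤ 1 / (Fintype.card F : ℝ) ^ 2 :=
  Pr_prod_le fun a => (Pr_le_of_subsingleton (h a)).trans (le_of_eq (by simp; ring))

namespace Layout
variable {M : ℝ} (L : Layout F M) (χ : Option F → Lab)

noncomputable def fam (i : Idx F) : Fam F := L.famL i.1 (χ i.1) i.2

noncomputable def ch (i : Idx F) : Bool := (L.fam χ i).1.isNone

noncomputable def pr (i : Idx F) : F := par (L.ch χ i) i.1

noncomputable def off (i : Idx F) (w : F × (F × F)) : F :=
  proj i.1 (place (L.ch χ i) w (0, L.lev i.2 - L.pr χ i ^ 2))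

/-- the base points -/
def tg (d : Option F) (w : F × (F × F)) (k : F) (u : Bool × Bool) : F × F :=
  place d.isNone w (bp (par d.isNone d) (L.xi k u))

lemma dir_eq (i : Idx F) : dirOf (L.ch χ i) (L.pr χ i) = i.1 := (L.Av_famL _ _ _).valid

lemma ch_congr {i i' : Idx F} (h : L.fam χ i = L.fam χ i') : L.ch χ i = L.ch χ i' := by
  unfold ch; rw [h]

lemma dir_eq_of {i i' : Idx F} (h : L.fam χ i = L.fam χ i') (h' : L.pr χ i = L.pr χ i') :
    i.1 = i'.1 := by
  rw [← L.dir_eq χ i, ← L.dir_eq χ i', L.ch_congr χ h, h']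

lemma ch_split (d : Option F) (b : Bool) : L.ch χ (d, (false, b)) = d.isNone := by
  simp [ch, fam, famL, home]

lemma pr_split (d : Option F) (b : Bool) : L.pr χ (d, (false, b)) = par d.isNone d := by
  simp [pr, ch_split]

lemma on_iff (i : Idx F) (w : F × (F × F)) (p : F × F) : proj i.1 p = L.off χ i w ↔
    proj (some (L.pr χ i)) (sw (L.ch χ i) p) = proj (some (L.pr χ i)) (sw (L.ch χ i) w.2) +
      w.1 * (L.lev i.2 - L.pr χ i ^ 2) := by
  unfold off
  rw [← L.dir_eq χ i, proj_dirOf, place, sw_add, sw_smul, sw_sw, proj_add, proj_smul]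
  simp [proj]

lemma on_place (i : Idx F) {w : F × (F × F)} (hw : w.1 ≠ 0) (p : F × F) :
    proj i.1 (place (L.ch χ i) w p) = L.off χ i w ↔
      p.2 - L.pr χ i * p.1 = L.lev i.2 - L.pr χ i ^ 2 := by
  rw [on_iff, place, sw_add, sw_smul, sw_sw, proj_add, proj_smul, add_right_inj,
    mul_right_inj' hw]
  rfl

lemma on_tg (i : Idx F) (d : Option F) (hc : L.ch χ i = d.isNone) {w : F × (F × F)}
    (hw : w.1 ≠ 0) (k : F) (u : Bool × Bool) : proj i.1 (L.tg d w k u) = L.off χ i w ↔
      (L.pr χ i - par d.isNone d) ^ 2 - (L.pr χ i - par d.isNone d) * L.xi k u = L.lev i.2 := by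
  unfold tg
  rw [← hc, L.on_place χ i hw, bp]
  constructor <;> intro h <;> linear_combination h

lemma tg_on (d : Option F) (b : Bool) (w : F × (F × F)) (k : F) (u : Bool × Bool) :
    proj d (L.tg d w k u) = L.off χ (d, (false, b)) w := by
  rw [L.on_iff χ (d, (false, b)), ch_split, pr_split, tg, place, sw_add, sw_smul, sw_sw, proj_add,
    proj_smul]
  simp only [proj, bp, lev]; ring

lemma tg_inj (d : Option F) {w : F × (F × F)} (hw : w.1 ≠ 0) {k k' : F} {u u' : Bool × Bool}
    (h : L.tg d w k u = L.tg d w k' u') : L.xi k u = L.xi k' u' := by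
  unfold tg place at h
  have h1 := congrArg (fun p => (sw d.isNone p).1) (smul_right_injective _ hw (add_left_cancel h))
  simpa [bp] using h1

lemma card_fam (φ : Fam F) : (univ.filter fun i => L.fam χ i = φ).card ≤ 20 * L.f ^ 2 := by
  classical
  have h1 := L.card_Av φ.1
  calc _ ≤ ((univ.filter (L.Av φ.1)) ×ˢ (univ : Finset (Bool × Bool))).card :=
        card_le_card fun i hi => by
          simp only [mem_filter, mem_univ, true_and, mem_product, and_true] at hi ⊢
          rw [← hi]; exact L.Av_famL _ _ _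
    _ ≤ _ := by rw [card_product]; simp; omega

lemma off_add (i : Idx F) (a : F) (t v : F × F) :
    L.off χ i (a, t + v) = L.off χ i (a, t) + proj i.1 v := by
  simp only [off, place, proj_add]; ring

noncomputable def model {h : ℝ} (hq : (Fintype.card F : ℝ) = h ^ 200) (hh : 10 ^ 8 ≤ dl ^ 3 * h)
    (hf : ((20 * L.f ^ 2 : ℕ) : ℝ) ≤ h) : Model F (Fam F) (F × (F × F)) h where
  fam := L.fam χ
  off := L.off χ
  hn φ := le_trans (Nat.cast_le.2 (L.card_fam χ φ)) hf
  unif i c := Pr_prod_le fun a => by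
    have h1 : Pr (fun t : F × F => On (i.1, c - L.off χ i (a, 0)) t) = 1 / Fintype.card F := by
      have : (0 : ℝ) < Fintype.card F := by exact_mod_cast Fintype.card_pos
      rw [Pr_eq_card, card_line, Fintype.card_prod]; push_cast; field_simp
    refine le_trans (Pr_mono fun t ht => ?_) h1.le
    have := L.off_add χ i a 0 t
    rw [zero_add] at this
    unfold On; simp only; rw [← ht, this]; ring
  inv φ p p' := by
    rw [← Pr_equiv (Equiv.addRight ((0 : F), p' - p))
      (fun w => ∃ i, L.fam χ i = φ ∧ On (i.1, L.off χ i w) p')]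
    refine Pr_congr fun w => exists_congr fun i => and_congr_right fun _ => ?_
    obtain ⟨a, t⟩ := w
    simp only [On, Equiv.coe_addRight, Prod.mk_add_mk, add_zero, off_add, proj_sub]
    constructor <;> intro h <;> linear_combination h
  hq := hq
  hh := hh

lemma tri (i₁ i₂ i₃ : Idx F) (h12 : L.fam χ i₁ = L.fam χ i₂) (h13 : L.fam χ i₁ = L.fam χ i₃)
    (r12 : i₁.2 = i₂.2) (r13 : i₁.2 = i₃.2) (n12 : i₁ ≠ i₂) (n13 : i₁ ≠ i₃) (n23 : i₂ ≠ i₃)
    (p₁ p₂ p₃ : F × F) : Pr (fun w => proj i₁.1 p₁ = L.off χ i₁ w ∧ proj i₂.1 p₂ = L.off χ i₂ w ∧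
      proj i₃.1 p₃ = L.off χ i₃ w) ≤ 1 / (Fintype.card F : ℝ) ^ 3 := by
  refine Pr_Om_three fun w w' hw hw' => ?_
  simp only [on_iff] at hw hw'
  simp only [← L.ch_congr χ h12, ← L.ch_congr χ h13, ← r12, ← r13, proj] at hw hw'
  have k12 : L.pr χ i₁ ≠ L.pr χ i₂ := fun h => n12 (Prod.ext (L.dir_eq_of χ h12 h) r12)
  have k13 : L.pr χ i₁ ≠ L.pr χ i₃ := fun h => n13 (Prod.ext (L.dir_eq_of χ h13 h) r13)
  have k23 : L.pr χ i₂ ≠ L.pr χ i₃ := fun h =>
    n23 (Prod.ext (L.dir_eq_of χ (h12.symm.trans h13) h) (r12.symm.trans r13))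
  set c := L.ch χ i₁
  set j := L.lev i₁.2
  set k₁ := L.pr χ i₁
  set k₂ := L.pr χ i₂
  set k₃ := L.pr χ i₃
  have h1 : w.1 - w'.1 = 0 := by
    by_contra h
    have := card_quad_le (b := (sw c w.2).1 - (sw c w'.2).1)
      (c := -((sw c w.2).2 - (sw c w'.2).2 + (w.1 - w'.1) * j)) h {k₁, k₂, k₃} fun x hx => by
        simp only [mem_insert, mem_singleton] at hx
        rcases hx with rfl | rfl | rfl
        · linear_combination hw.1 - hw'.1
        · linear_combination hw.2.1 - hw'.2.1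
        · linear_combination hw.2.2 - hw'.2.2
    rw [card_eq_three.2 ⟨_, _, _, k12, k13, k23, rfl⟩] at this
    omega
  have h2 : (k₁ - k₂) * ((sw c w.2).1 - (sw c w'.2).1) = 0 := by
    linear_combination hw.1 - hw'.1 - hw.2.1 + hw'.2.1 + (k₂ ^ 2 - k₁ ^ 2) * h1
  have h3 := (mul_eq_zero.1 h2).resolve_left (sub_ne_zero.2 k12)
  have h4 : (sw c w.2).2 - (sw c w'.2).2 = 0 := by
    linear_combination hw'.1 - hw.1 + k₁ * h3 - (j - k₁ ^ 2) * h1
  refine Prod.ext (sub_eq_zero.1 h1) ?_
  rw [← sw_sw c w.2, ← sw_sw c w'.2, Prod.ext (sub_eq_zero.1 h3) (sub_eq_zero.1 h4)]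

lemma fam_split_inj {d d' : Option F} {b b' : Bool}
    (h : L.fam χ (d, (false, b)) = L.fam χ (d', (false, b'))) : b = b' :=
  congrArg (fun φ : Fam F => φ.2.1) h

/-- at most two split lines of a family pass through a point -/
lemma two_le (φ : Fam F) {w : F × (F × F)} (hw : w.1 ≠ 0) (x : F × F) (s : Finset (Idx F))
    (hs : ∀ i ∈ s, L.fam χ i = φ ∧ i.2.1 = false ∧ proj i.1 x = L.off χ i w) : s.card ≤ 2 := by
  rw [← card_image_of_injOn (f := L.pr χ)]
  · refine card_quad_le (b := (sw φ.1.isNone w.2).1 - (sw φ.1.isNone x).1)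
      (c := (sw φ.1.isNone x).2 - (sw φ.1.isNone w.2).2) hw _ fun k hk => ?_
    obtain ⟨⟨d, r, b⟩, hi, rfl⟩ := mem_image.1 hk
    obtain ⟨h1, h2, h3⟩ := hs _ hi
    subst h2
    rw [on_iff] at h3
    simp only [ch, h1, proj, lev] at h3
    linear_combination h3
  · rintro ⟨d, r, b⟩ hi ⟨d', r', b'⟩ hi' h
    obtain ⟨h1, h2, -⟩ := hs _ hi
    obtain ⟨h3, h4, -⟩ := hs _ hi'
    subst h2; subst h4
    have h5 := L.dir_eq_of χ (h1.trans h3.symm) h
    have h6 := L.fam_split_inj χ (h1.trans h3.symm)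
    simp only at h5
    rw [h5, h6]

/-- split line through `x` with an option point on `l` -/
def Ax (x : F × F) (l : Option F × F) (i : Idx F) (w : F × (F × F)) : Prop :=
  i.2.1 = false ∧ w.1 ≠ 0 ∧ proj i.1 x = L.off χ i w ∧ ∃ k ∈ L.K, ∃ u, On l (L.tg i.1 w k u)

lemma Pr_Ax_one {x : F × F} {l : Option F × F} (hx : ¬ On l x) (i : Idx F) :
    Pr (L.Ax χ x l i) ≤ 4 * L.K.card / (Fintype.card F : ℝ) ^ 2 := by
  have h1 := Pr_exists_le' (L.K ×ˢ (univ : Finset (Bool × Bool))) (fun y w =>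
    i.2.1 = false ∧ proj i.1 x = L.off χ i w ∧ On l (L.tg i.1 w y.1 y.2))
    (1 / (Fintype.card F : ℝ) ^ 2) fun y _ => Pr_Om_two fun a t t' h1 h2 => by
      obtain ⟨d, r, b⟩ := i
      obtain ⟨h0, h1, h3⟩ := h1
      obtain ⟨-, h2, h4⟩ := h2
      simp only at h0 h1 h2 h3 h4
      subst h0
      have hd : d ≠ l.1 := by
        rintro rfl
        exact hx (h1.trans ((L.tg_on χ _ b _ _ _).symm.trans h3))
      refine eq_of_proj_eq hd ?_ ?_
      · have := h1.symm.trans h2
        simpa only [off, place, proj_add, add_left_inj] using this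
      · have := Eq.trans h3 h4.symm
        simpa only [tg, place, proj_add, add_left_inj] using this
  refine le_trans (Pr_mono fun w hw => ?_) (h1.trans (le_of_eq ?_))
  · obtain ⟨h2, -, h3, k, hk, u, h4⟩ := hw
    exact ⟨(k, u), by simp [hk], h2, h3, h4⟩
  · simp; ring

lemma Pr_Ax_two {x : F × F} {l : Option F × F} (hx : ¬ On l x) (i i' : Idx F) (hne : i ≠ i')
    (hf : L.fam χ i = L.fam χ i') :
    Pr (fun w => L.Ax χ x l i w ∧ L.Ax χ x l i' w) ≤ 4 * L.K.card / (Fintype.card F : ℝ) ^ 3 := by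
  have h1 := Pr_exists_le' (L.K ×ˢ (univ : Finset (Bool × Bool))) (fun y w =>
    i.2.1 = false ∧ i'.2.1 = false ∧ proj i.1 x = L.off χ i w ∧ proj i'.1 x = L.off χ i' w ∧
      On l (L.tg i.1 w y.1 y.2))
    (1 / (Fintype.card F : ℝ) ^ 3) fun y _ => Pr_Om_three fun w w' h1 h2 => by
      obtain ⟨d, r, b⟩ := i
      obtain ⟨d', r', b'⟩ := i'
      obtain ⟨h0, h0', h1, h1', h3⟩ := h1
      obtain ⟨-, -, h2, h2', h4⟩ := h2
      simp only at h0 h0' h3 h4
      subst h0; subst h0'
      have hd : d ≠ d' := by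
        rintro rfl
        exact hne (by rw [L.fam_split_inj χ hf])
      obtain ⟨v, e1, e2⟩ := exists_inter hd (L.off χ (d, (false, b)) (1, 0))
        (L.off χ (d', (false, b')) (1, 0))
      have key : ∀ w : F × (F × F), proj d x = L.off χ (d, (false, b)) w →
          proj d' x = L.off χ (d', (false, b')) w → x = w.2 + w.1 • v := by
        intro w g1 g2
        refine eq_of_proj_eq hd ?_ ?_
        · rw [g1, proj_add, proj_smul, e1]; simp [off, place, proj_add, proj_smul]
        · rw [g2, proj_add, proj_smul, e2]; simp [off, place, proj_add, proj_smul]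
      have g1 := key w h1 h1'
      have g2 := key w' h2 h2'
      simp only [On, tg, place, proj_add, proj_smul] at h3 h4 hx
      have g3 := congrArg (proj l.1) g1
      have g4 := congrArg (proj l.1) g2
      simp only [proj_add, proj_smul] at g3 g4
      set a := proj l.1 (sw d.isNone (bp (par d.isNone d) (L.xi y.1 y.2)))
      have g5 : (w.1 - w'.1) * (a - proj l.1 v) = 0 := by linear_combination h3 - h4 + g3 - g4
      have g6 : a - proj l.1 v ≠ 0 := fun g6 => hx (by linear_combination g3 + h3 - w.1 * g6)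
      have g7 := sub_eq_zero.1 ((mul_eq_zero.1 g5).resolve_right g6)
      refine Prod.ext g7 ?_
      rw [g7] at g1
      exact add_right_cancel (g1.symm.trans g2)
  refine le_trans (Pr_mono fun w hw => ?_) (h1.trans (le_of_eq ?_))
  · obtain ⟨⟨h2, -, h3, k, hk, u, h4⟩, h5, -, h6, -⟩ := hw
    exact ⟨(k, u), by simp [hk], h2, h5, h3, h6, h4⟩
  · simp; ring

theorem gadget_of (h2 : (2 : F) ≠ 0) (ω : Fam F → F × (F × F)) (D : ℝ) (hD : 0 ≤ D)
    (hz : ∀ φ, (ω φ).1 ≠ 0)
    (hA : ∀ d r r', L.fam χ (d, r) ≠ L.fam χ (d, r') →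
      L.off χ (d, r) (ω (L.fam χ (d, r))) ≠ L.off χ (d, r') (ω (L.fam χ (d, r'))))
    (hB : ∀ d b, ∃ k ∈ L.K, L.Valid χ d b ((χ d).2 b) k ∧ ∀ i, L.fam χ i ≠ L.fam χ (d, (false, b)) →
      i.1 ≠ d → ∀ u, proj i.1 (L.tg d (ω (L.fam χ (d, (false, b)))) k u) ≠
        L.off χ i (ω (L.fam χ i)))
    (hC : ∀ x l, ¬ On l x → ∀ s : Finset (Idx F), (∀ i ∈ s, L.Ax χ x l i (ω (L.fam χ i))) →
      s.card ≤ 4)
    (hR : Regular (fun d r => L.off χ (d, r) (ω (L.fam χ (d, r)))) D)
    (hS : Classified (fun d r => L.off χ (d, r) (ω (L.fam χ (d, r)))) D) :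
    Nonempty (Gadget F) := by
  choose k hk hV hU using hB
  have inj : ∀ d, Function.Injective fun r => L.off χ (d, r) (ω (L.fam χ (d, r))) := by
    intro d r r' h
    by_cases hf : L.fam χ (d, r) = L.fam χ (d, r')
    swap
    · exact absurd h (hA d r r' hf)
    simp only [← hf] at h
    have h1 := (L.on_place χ (d, r') (hz (L.fam χ (d, r)))
      (0, L.lev r - L.pr χ (d, r) ^ 2)).1 (by rw [← h, ← L.ch_congr χ hf]; rfl)
    have h3 : L.pr χ (d, r') = L.pr χ (d, r) := by simp only [pr, L.ch_congr χ hf]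
    have h4 : L.lev r = L.lev r' := by rw [h3] at h1; linear_combination h1
    have hA0 := L.hA
    have hA2 := mul_ne_zero h2 hA0
    obtain ⟨_ | _, b⟩ := r <;> obtain ⟨_ | _, b'⟩ := r'
    · rw [L.fam_split_inj χ hf]
    · cases b' <;> simp [lev, hA0, hA0.symm] at h4
    · cases b <;> simp [lev, hA0, hA0.symm] at h4
    · cases b <;> cases b' <;> simp only [lev] at h4 <;> first
        | rfl
        | exact absurd (by linear_combination h4) hA2
        | exact absurd (by linear_combination -h4) hA2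
  have touch : ∀ d b u d' r, proj d' (L.tg d (ω (L.fam χ (d, (false, b)))) (k d b) u) =
      L.off χ (d', r) (ω (L.fam χ (d', r))) → (d' = d ∧ r = (false, b)) ∨
      (L.fam χ (d', r) = L.fam χ (d, (false, b)) ∧ r.1 = true ∧
        ∃ κ ∈ L.links (k d b), L.pr χ (d', r) - par d.isNone d = κ ∧
          κ ^ 2 - κ * L.xi (k d b) u = L.lev r) := by
    intro d b u d' r h
    by_cases hd : d' = d
    · subst hd
      exact Or.inl ⟨rfl, inj d' (h.symm.trans (L.tg_on χ _ b _ _ _))⟩
    right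
    have hf : L.fam χ (d', r) = L.fam χ (d, (false, b)) := by
      by_contra hf
      exact hU d b (d', r) hf hd u h
    have hc : L.ch χ (d', r) = d.isNone := (L.ch_congr χ hf).trans (L.ch_split χ d b)
    rw [hf] at h
    have h1 := (L.on_tg χ (d', r) d hc (hz _) _ _).1 h
    have h3 : dirOf d.isNone (par d.isNone d + (L.pr χ (d', r) - par d.isNone d)) = d' := by
      rw [add_sub_cancel, ← hc]; exact L.dir_eq χ (d', r)
    have h4 := (hV d b).2 _ r u (fun h4 => hd (L.dir_eq_of χ hf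
      (by rw [pr_split]; exact sub_eq_zero.1 h4))) (by rw [h3]; exact hf) h1
    exact ⟨hf, h4.1, _, h4.2, rfl, h1⟩
  refine ⟨{
    off := fun d r => L.off χ (d, r) (ω (L.fam χ (d, r)))
    base := fun d b u => L.tg d (ω (L.fam χ (d, (false, b)))) (k d b) u
    D := D
    hD := hD
    inj := inj
    base_on := fun d b u => L.tg_on χ _ b _ _ _
    base_inj := fun d b u u' h => L.xi_inj h2 (hk d b) (L.tg_inj d (hz _) h)
    base_off := fun d b u d' b' h => ?_
    link := fun d b e e' => ?_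
    partner := fun d b u d' j h => ?_
    merge_dir := fun d d' u u' j j' h h' => ?_
    merge_pt := fun x d' => ?_
    line_pt := fun x l hx => ?_
    reg := hR
    cls := hS }⟩
  · rcases touch d b u d' _ h with ⟨h1, h3⟩ | ⟨-, h1, -⟩
    · exact ⟨h1, congrArg Prod.snd h3⟩
    · simp at h1
  · obtain ⟨κ, hκ, h1, h3⟩ := L.exists_link (hk d b) e e'
    have hf : ∀ j, L.fam χ (dirOf d.isNone (par d.isNone d + κ), (true, j)) =
      L.fam χ (d, (false, b)) := (hV d b).1 κ hκ
    have hc := fun j => (L.ch_congr χ (hf j)).trans (L.ch_split χ d b)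
    have hp : ∀ j, L.pr χ (dirOf d.isNone (par d.isNone d + κ), (true, j)) - par d.isNone d = κ :=
      fun j => by simp [pr, hc j]
    refine ⟨dirOf d.isNone (par d.isNone d + κ), false, ?_, ?_⟩
    · simp only [hf]
      exact (L.on_tg χ (_, (true, false)) d (hc _) (hz _) _ _).2 (by rw [hp]; exact h1)
    · simp only [hf]
      exact (L.on_tg χ (_, (true, true)) d (hc _) (hz _) _ _).2 (by rw [hp]; exact h3)
  · rcases touch d b u d' _ h with ⟨-, h3⟩ | ⟨hf, -, κ, hκ, h1, h3⟩
    · simp at h3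
    obtain ⟨e, e', h4, h5⟩ := L.link_hit (hk d b) hκ
    have hκ0 := L.links_ne (hk d b) hκ
    have hf' : L.fam χ (d', (true, !j)) = L.fam χ (d, (false, b)) := hf
    have hc := (L.ch_congr χ hf').trans (L.ch_split χ d b)
    have hp : L.pr χ (d', (true, !j)) - par d.isNone d = κ := h1
    simp only [hf']
    cases j
    · have h6 : L.xi (k d b) u = L.xi (k d b) (false, e) :=
        mul_left_cancel₀ hκ0 (by linear_combination h4 - h3)
      rw [L.xi_inj h2 (hk d b) h6]
      exact ⟨e', (L.on_tg χ (d', (true, true)) d hc (hz _) _ _).2 (by rw [← h5, ← hp]; rfl)⟩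
    · have h6 : L.xi (k d b) u = L.xi (k d b) (true, e') :=
        mul_left_cancel₀ hκ0 (by linear_combination h5 - h3)
      rw [L.xi_inj h2 (hk d b) h6]
      exact ⟨e, (L.on_tg χ (d', (true, false)) d hc (hz _) _ _).2 (by rw [← h4, ← hp]; rfl)⟩
  · rcases touch d _ u d' _ h with ⟨-, h3⟩ | ⟨hf, -⟩
    · simp at h3
    rcases touch d _ u' d' _ h' with ⟨-, h3⟩ | ⟨hf', -⟩
    · simp at h3
    have : L.fam χ (d, (false, false)) = L.fam χ (d, (false, true)) := hf.symm.trans hf'
    simpa using L.fam_split_inj χ this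
  · rw [← card_image_of_injective (f := fun i : Option F × Bool => ((i.1, (false, i.2)) : Idx F))
      _ (fun a b h => by simpa [Prod.ext_iff] using h)]
    refine L.two_le χ (L.fam χ (d', (true, true))) (hz (L.fam χ (d', (true, true)))) x _
      fun i hi => ?_
    obtain ⟨⟨d, b⟩, hi', rfl⟩ := mem_image.1 hi
    obtain ⟨-, h1, u, j, h3⟩ := mem_filter.1 hi'
    rcases touch d b u d' _ h3 with ⟨-, h4⟩ | ⟨hf, -⟩
    · simp at h4
    have hf' : L.fam χ (d', (true, true)) = L.fam χ (d, (false, b)) := hf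
    exact ⟨hf'.symm, rfl, by rw [hf']; exact h1⟩
  · rw [← card_image_of_injective (f := fun i : Option F × Bool => ((i.1, (false, i.2)) : Idx F))
      _ (fun a b h => by simpa [Prod.ext_iff] using h)]
    refine hC x l hx _ fun i hi => ?_
    obtain ⟨⟨d, b⟩, hi', rfl⟩ := mem_image.1 hi
    obtain ⟨-, h1, u, h3⟩ := mem_filter.1 hi'
    exact ⟨rfl, hz _, h1, k d b, hk d b, u, h3⟩

end Layout

end Crest.Agent.Ryser
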