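import Crest.Agent.Ryser.Model

set_option autoImplicit false
set_option linter.unusedSectionVars false
set_option linter.unusedSimpArgs false
open Finset

namespace Crest.Agent.Ryser

section ovr
variable {ι Ω γ : Type*} [Fintype ι] [DecidableEq ι] [Fintype Ω] [Nonempty Ω]

/-- total overkill -/
noncomputable def ovr (I : Finset γ) (K : ι → Ω → γ → Prop) (ω : ι → Ω) : ℝ :=
  ∑ i, kills I K i (ω i) + surv I K ω - I.card

lemma Ex_ovr (I : Finset γ) (K : ι → Ω → γ → Prop) :
    Ex (ovr I K) = ∑ o ∈ I, (∑ i, Pr (fun w => K i w o) + ∏ i, (1 - Pr (fun w => K i w o)) - 1) := by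
  unfold ovr
  rw [Ex_sub, Ex_add, Ex_const, Ex_sum univ (fun i (ω : ι → Ω) => kills I K i (ω i)), Ex_surv]
  simp only [Ex_coord, Ex_kills, sum_sub_distrib, sum_add_distrib]
  rw [sum_comm]; simp

lemma ovr_tail (I : Finset γ) (K : ι → Ω → γ → Prop) (W t : ℝ)
    (hW : 0 < W) (ht : 0 ≤ t) (htW : t ≤ 8 * W) (hcB : ∀ i y, kills I K i y ≤ 1)
    (hcW : ∑ i, Ex (kills I K i) ≤ W) :
    Pr (fun ω => t ≤ |ovr I K ω - Ex (ovr I K)|) ≤ 2 * Real.exp (-(t ^ 2 / (64 * W))) := by
  have hlip : ∀ (ω : ι → Ω) i y, |ovr I K ω - ovr I K (Function.update ω i y)| ≤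
      2 * kills I K i (ω i) + 2 * kills I K i y := by
    intro ω i y
    have h1 := abs_le.1 (surv_lip I K ω i y)
    unfold ovr
    rw [← add_sum_erase _ _ (mem_univ i), ← add_sum_erase _ _ (mem_univ i),
      sum_congr rfl (g := fun j => kills I K j (ω j))
        (f := fun j => kills I K j (Function.update ω i y j)) fun j hj => by
          rw [Function.update_of_ne (ne_of_mem_erase hj)]]
    simp only [Function.update_self]
    have : 0 ≤ kills I K i y := Nat.cast_nonneg _
    have : 0 ≤ kills I K i (ω i) := Nat.cast_nonneg _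
    rw [abs_le]; constructor <;> linarith [h1.1, h1.2]
  have h0 : ∀ i y, 0 ≤ 2 * kills I K i y := fun i y =>
    mul_nonneg (by norm_num) (Nat.cast_nonneg _)
  have hB : ∀ i y, 2 * kills I K i y ≤ 2 := fun i y => by linarith [hcB i y]
  have hW' : ∑ i, Ex (fun y => 2 * kills I K i y) ≤ 2 * W := by
    simp only [Ex_const_mul]; rw [← mul_sum]; linarith
  have h1 := tail_upper (ovr I K) (fun i y => 2 * kills I K i y) 2 (2 * W) t (by norm_num)
    (by linarith) ht (by linarith) h0 hB hW' hlip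
  have h2 := tail_lower (ovr I K) (fun i y => 2 * kills I K i y) 2 (2 * W) t (by norm_num)
    (by linarith) ht (by linarith) h0 hB hW' hlip
  have h3 : (16 * 2 * (2 * W)) = 64 * W := by ring
  rw [h3] at h1 h2
  refine le_trans (Pr_mono fun ω h => ?_) (((Pr_or _ _).trans (add_le_add h1 h2)).trans
    (by linarith))
  rcases le_abs.1 h with h | h
  · left; linarith
  · right; linarith

end ovr

lemma Pr_fin_zero (R : ℕ) [NeZero R] : Pr (fun y : Fin R => y = 0) = 1 / R := by
  rw [Pr_eq_card]; simp [filter_eq']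

lemma psi_upper {ρ : ℝ} (h0 : 0 ≤ ρ) (h1 : ρ ≤ 1) (g : ℕ) :
    g * ρ + (1 - ρ) ^ g - 1 ≤ ρ * (g - 1 : ℕ) := by
  rcases g with _ | g
  · simp
  · have : (1 - ρ) ^ (g + 1) ≤ 1 - ρ := pow_le_of_le_one (by linarith) (by linarith) (by omega)
    simp only [Nat.add_sub_cancel]; push_cast; linarith

lemma psi_lower {ρ : ℝ} (h0 : 0 ≤ ρ) (h1 : ρ ≤ 1) (g g₀ : ℕ) (h2 : g₀ * ρ ≤ 1) :
    (g - if g = 0 then 0 else g₀) * ρ * (g₀ * ρ / 2) ≤ g * ρ + (1 - ρ) ^ g - 1 := by
  have hb : ∀ n : ℕ, 1 - n * ρ ≤ (1 - ρ) ^ n := fun n => by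
    have := one_add_mul_le_pow (a := -ρ) (by linarith) n
    simpa [sub_eq_add_neg] using this
  split_ifs with hg
  · subst hg; simp
  rcases le_total g g₀ with hle | hle
  · have : ((g : ℝ) - g₀) ≤ 0 := sub_nonpos.2 (by exact_mod_cast hle)
    have h3 : ((g : ℝ) - g₀) * ρ * (g₀ * ρ / 2) ≤ 0 :=
      mul_nonpos_of_nonpos_of_nonneg (mul_nonpos_of_nonpos_of_nonneg this h0) (by positivity)
    linarith [hb g]
  · obtain ⟨j, rfl⟩ := Nat.exists_eq_add_of_le hle
    set u := (1 - ρ) ^ g₀ with hu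
    have hu0 : 0 ≤ u := pow_nonneg (by linarith) _
    have hu1 : u * (1 + g₀ * ρ) ≤ 1 := by
      have h3 : 1 + g₀ * ρ ≤ (1 + ρ) ^ g₀ := one_add_mul_le_pow (by linarith) _
      calc u * (1 + g₀ * ρ) ≤ u * (1 + ρ) ^ g₀ := mul_le_mul_of_nonneg_left h3 hu0
        _ = (1 - ρ ^ 2) ^ g₀ := by rw [hu, ← mul_pow]; ring
        _ ≤ 1 := pow_le_one₀ (by nlinarith) (by nlinarith)
    have hx0 : 0 ≤ g₀ * ρ := by positivity
    have hu2 : u ≤ 1 - g₀ * ρ / 2 := by
      by_contra hc
      push Not at hc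
      nlinarith
    have h4 : u * (1 - j * ρ) ≤ (1 - ρ) ^ (g₀ + j) := by
      rw [pow_add]; exact mul_le_mul_of_nonneg_left (hb j) hu0
    have h5 := hb g₀
    have hj : 0 ≤ j * ρ := by positivity
    push_cast
    nlinarith

variable {F : Type} [Field F] [Fintype F] [DecidableEq F]

/-- collisions of the lines of `T` on `l` -/
def coll (T : Finset (Option F × F)) (l : Option F × F) : ℕ :=
  ∑ p ∈ pts l, (cnt (T.erase l) p - 1)

/-- the sample -/
def samp {R : ℕ} [NeZero R] (S : Finset (Option F × F)) (σ : Option F × F → Fin R) :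
    Finset (Option F × F) := S.filter fun i => σ i = 0

/-- kill relation of the sample -/
def Ks (R : ℕ) [NeZero R] (S : Finset (Option F × F)) (l i : Option F × F) (y : Fin R)
    (p : F × F) : Prop := i ∈ S.erase l ∧ y = 0 ∧ On i p

variable {R : ℕ} [NeZero R]

lemma Pr_Ks (S : Finset (Option F × F)) (l i : Option F × F) (p : F × F) :
    Pr (fun y => Ks R S l i y p) = if i ∈ (S.erase l).filter (fun i => On i p) then 1 / (R : ℝ)
      else 0 := by
  split_ifs with h
  · rw [← Pr_fin_zero]; rw [mem_filter] at h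
    exact Pr_congr fun y => by simp only [Ks]; tauto
  · rw [← Pr_false (α := Fin R)]; rw [mem_filter] at h
    exact Pr_congr fun y => by simp only [Ks]; tauto

lemma sum_Pr_Ks (S : Finset (Option F × F)) (l : Option F × F) (p : F × F) :
    ∑ i, Pr (fun y => Ks R S l i y p) = cnt (S.erase l) p * (1 / (R : ℝ)) := by
  simp only [Pr_Ks]
  rw [← sum_filter, filter_univ_mem]; simp [cnt]

lemma prod_Pr_Ks (S : Finset (Option F × F)) (l : Option F × F) (p : F × F) :
    ∏ i, (1 - Pr (fun y => Ks R S l i y p)) = (1 - 1 / (R : ℝ)) ^ cnt (S.erase l) p := by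
  simp only [Pr_Ks]
  rw [prod_congr rfl (g := fun i => if i ∈ (S.erase l).filter (fun i => On i p) then
    (1 - 1 / (R : ℝ)) else 1) fun i _ => by split_ifs <;> simp]
  rw [← prod_filter, filter_univ_mem]; simp [cnt]

lemma kills_Ks_le (S : Finset (Option F × F)) (l : Option F × F) (Y : Finset (F × F))
    (hY : ∀ p ∈ Y, On l p) (i : Option F × F) (y : Fin R) : kills Y (Ks R S l) i y ≤ 1 := by
  classical
  unfold kills
  by_cases h : i = l
  · rw [filter_eq_empty_iff.2]
    · simp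
    · intro p _ hp; simpa [h] using hp.1
  · refine le_trans (Nat.cast_le.2 ((card_le_card fun p hp => ?_).trans
      (card_inter_le_one (Ne.symm h) Y hY))) (by simp)
    simp only [mem_filter] at hp ⊢
    exact ⟨hp.1, hp.2.2.2⟩

lemma sum_Ex_kills_Ks (S : Finset (Option F × F)) (l : Option F × F) (Y : Finset (F × F))
    (hY : ∀ p ∈ Y, On l p) : ∑ i, Ex (kills Y (Ks R S l) i) ≤ S.card / R := by
  simp only [Ex_kills]
  rw [sum_comm]
  simp only [sum_Pr_Ks]
  rw [← sum_mul, ← Nat.cast_sum, div_eq_mul_one_div (S.card : ℝ)]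
  refine mul_le_mul_of_nonneg_right (Nat.cast_le.2 ?_) (by positivity)
  refine le_trans (sum_le_sum_of_subset (t := pts l) fun p hp => mem_pts.2 (hY p hp)) ?_
  rw [sum_cnt_erase]; exact card_filter_le _ _

lemma surv_Ks (S : Finset (Option F × F)) (l : Option F × F) (Y : Finset (F × F))
    (σ : Option F × F → Fin R) :
    surv Y (Ks R S l) σ = (Y.filter (· ∈ unc ((samp S σ).erase l))).card := by
  unfold surv
  congr 2
  ext p
  simp only [mem_filter, Ks, mem_unc, samp, mem_erase]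
  refine and_congr_right fun _ => forall_congr' fun i => ?_
  tauto

lemma ovr_Ks (S : Finset (Option F × F)) (l : Option F × F) (σ : Option F × F → Fin R) :
    ovr (pts l) (Ks R S l) σ = coll (samp S σ) l := by
  classical
  have h1 := sum_exc ((samp S σ).erase l) (pts l)
  have h2 : ∑ i, kills (pts l) (Ks R S l) i (σ i) =
      ((∑ p ∈ pts l, cnt ((samp S σ).erase l) p : ℕ) : ℝ) := by
    unfold kills cnt
    simp only [card_filter]
    push_cast
    rw [sum_comm]
    refine sum_congr rfl fun p _ => ?_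
    rw [← sum_filter, ← sum_filter]
    congr 1
    ext i
    simp only [mem_filter, Ks, samp, mem_erase, mem_univ]
    tauto
  unfold ovr coll
  rw [h2, surv_Ks, sub_eq_iff_eq_add]
  exact_mod_cast h1.symm

lemma Ex_over (S : Finset (Option F × F)) (l : Option F × F) :
    Ex (ovr (pts l) (Ks R S l)) = ∑ p ∈ pts l, (cnt (S.erase l) p * (1 / (R : ℝ)) +
      (1 - 1 / (R : ℝ)) ^ cnt (S.erase l) p - 1) := by
  rw [Ex_ovr]; simp only [sum_Pr_Ks, prod_Pr_Ks]

lemma Pr_samp_large (S : Finset (Option F × F)) (hS : 0 < S.card) :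
    Pr (fun σ : Option F × F → Fin R => 2 * (S.card / R : ℝ) ≤ (samp S σ).card) ≤
      Real.exp (-(S.card / R / 16)) := by
  have hR : (0 : ℝ) < R := by exact_mod_cast Nat.pos_of_ne_zero (NeZero.ne R)
  have hW : (0 : ℝ) < S.card / R := by positivity
  have hE : ∑ i : Option F × F, Ex (fun y : Fin R => if i ∈ S ∧ y = 0 then (1 : ℝ) else 0) ≤
      S.card / R := by
    have : ∀ i : Option F × F, Ex (fun y : Fin R => if i ∈ S ∧ y = 0 then (1 : ℝ) else 0) =
        if i ∈ S then 1 / (R : ℝ) else 0 := by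
      intro i
      split_ifs with h
      · rw [← Pr_fin_zero]; unfold Pr; congr 1; ext y; simp [h]
      · simp [h, Ex_const]
    simp only [this]
    rw [← sum_filter, filter_univ_mem]; simp [div_eq_mul_inv]
  have h1 := tail_sum (fun (i : Option F × F) (y : Fin R) => if i ∈ S ∧ y = 0 then (1 : ℝ) else 0)
    1 (S.card / R) (S.card / R) (S.card / R) one_pos hW hW.le (by linarith)
    (fun _ _ => by split_ifs <;> norm_num) (fun _ _ => by split_ifs <;> norm_num) hE hE
  refine le_trans (Pr_mono fun σ h => ?_) (h1.trans (le_of_eq ?_))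
  · rw [← sum_filter]
    have : (univ.filter fun i => i ∈ S ∧ σ i = 0) = samp S σ := by ext i; simp [samp]
    rw [this]; simp only [sum_const, nsmul_eq_mul, mul_one]; linarith
  · congr 2; field_simp

/-- the set encoded by a tuple -/
def dec {α : Type*} [DecidableEq α] {K : ℕ} (g : Fin K → Option α) : Finset α :=
  (univ.image g).eraseNone

lemma exists_dec {α : Type*} [DecidableEq α] {K : ℕ} (T : Finset α) (h : T.card ≤ K) :
    ∃ g : Fin K → Option α, dec g = T := by
  refine ⟨fun j => if hj : j.1 < T.card then some (T.equivFin.symm ⟨j.1, hj⟩).1 else none, ?_⟩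
  ext a
  simp only [dec, mem_eraseNone, mem_image, mem_univ, true_and]
  constructor
  · rintro ⟨j, hj⟩
    split_ifs at hj with h'
    rw [← Option.some.inj hj]; exact Subtype.property _
  · intro ha
    refine ⟨⟨(T.equivFin ⟨a, ha⟩).1, lt_of_lt_of_le (T.equivFin ⟨a, ha⟩).2 h⟩, ?_⟩
    simp

lemma Pr_exists_small {α β : Type*} [Fintype α] [DecidableEq α] [Fintype β] (K : ℝ) (L : ℝ)
    (hL : (Fintype.card α + 1 : ℝ) ≤ Real.exp L) (hK : 0 ≤ K) (A : Finset α → β → Prop) (c : ℝ)
    (hc : 0 ≤ c) (h : ∀ T, Pr (A T) ≤ c) :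
    Pr (fun x => ∃ T : Finset α, (T.card : ℝ) ≤ K ∧ A T x) ≤ Real.exp (K * L) * c := by
  have h1 := Pr_exists_univ (fun (g : Fin ⌊K⌋₊ → Option α) x => A (dec g) x) c fun g => h _
  refine le_trans (Pr_mono fun x hx => ?_) (h1.trans ?_)
  · obtain ⟨T, hT, hx⟩ := hx
    obtain ⟨g, rfl⟩ := exists_dec T (Nat.le_floor hT)
    exact ⟨g, hx⟩
  · refine mul_le_mul_of_nonneg_right ?_ hc
    have hL0 : 0 ≤ L := by
      rw [← Real.exp_le_exp, Real.exp_zero]
      exact le_trans (by linarith [Nat.cast_nonneg (α := ℝ) (Fintype.card α)]) hL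
    simp only [Fintype.card_fun, Fintype.card_option, Fintype.card_fin]
    push_cast
    refine (pow_le_pow_left₀ (by positivity) hL _).trans ?_
    rw [← Real.exp_nat_mul, Real.exp_le_exp]
    exact mul_le_mul_of_nonneg_right (Nat.floor_le hK) hL0

end Crest.Agent.Ryser
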