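import Crest.Agent.Ryser.Sample

set_option autoImplicit false
set_option linter.unusedSectionVars false
set_option linter.unusedSimpArgs false
open Finset

namespace Crest.Agent.Ryser

variable {F Φ Ω : Type} [Field F] [Fintype F] [DecidableEq F] [Fintype Φ] [DecidableEq Φ]
  [Fintype Ω] [Nonempty Ω] {h : ℝ}

noncomputable def C1 (T : Finset (Option F × F)) (w : ℝ) : Finset (Option F × F) :=
  univ.filter fun l => w ≤ coll T l

noncomputable def C2 (C : Finset (Option F × F)) : Finset (Option F × F) :=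
  univ.filter fun l => dl * Fintype.card F / 32 ≤ (priv C l).card

namespace Model
variable (m : Model F Φ Ω h)

structure Bad (ω : Φ → Ω) (S : Finset (Option F × F)) : Prop where
  card : S.card = Fintype.card F
  nonsp : ∀ l ∈ S, ∀ i, m.sp ω i ≠ l
  cover : ∀ p, (∀ i, ¬ On (m.sp ω i) p) → ∃ l ∈ S, On l p
  far1 : ∀ x, dl * Fintype.card F / 4 < (S.filter fun l => ¬ On l x).card
  far2 : ∀ d, dl * Fintype.card F / 4 < (S.filter fun l => l.1 ≠ d).card

include m in
lemma card_ln : (Fintype.card (Option F × F) + 1 : ℝ) ≤ Real.exp (600 * h) := by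
  have h1 : h ^ 600 ≤ Real.exp (600 * h) := by
    have : h ≤ Real.exp h := by linarith [Real.add_one_le_exp h]
    calc h ^ 600 ≤ Real.exp h ^ 600 := pow_le_pow_left₀ m.h_pos.le this _
      _ = _ := by rw [← Real.exp_nat_mul]; norm_num
  refine le_trans ?_ h1
  simp only [Fintype.card_prod, Fintype.card_option]
  push_cast
  rw [m.hq]
  have h2 := m.absorb (c := 3) (a := 400) (b := 600) (by linarith [m.h_ge]) (by norm_num)
  have h3 := m.pow_le (a := 200) (b := 400) (by norm_num)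
  have h4 := m.pow_le (a := 0) (b := 400) (by norm_num)
  have h5 : h ^ 200 * h ^ 200 = h ^ 400 := by ring
  nlinarith

include m in
lemma exp_small {x : ℝ} (hx : h ≤ x) : Real.exp (-x) ≤ 1 / h := by
  rw [Real.exp_neg, one_div]
  exact inv_anti₀ m.h_pos (by linarith [Real.add_one_le_exp x])

include m in
lemma union_small {x : ℝ} (hx : 601 * h ≤ x) :
    (Fintype.card (Option F × F) : ℝ) * Real.exp (-x) ≤ 1 / h := by
  refine le_trans ?_ (m.exp_small le_rfl)
  calc _ ≤ Real.exp (600 * h) * Real.exp (-x) :=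
        mul_le_mul_of_nonneg_right (by linarith [m.card_ln]) (Real.exp_pos _).le
    _ ≤ _ := by rw [← Real.exp_add, Real.exp_le_exp]; linarith

include m in
lemma inv_h_small : 1 / h ≤ 1 / 10 ^ 8 := one_div_le_one_div_of_le (by norm_num) m.h_ge

lemma surv_le (ok : Idx F → Option F × F → Prop) (Y Y' : Finset (F × F)) (ω : Φ → Ω)
    (hY : ∀ p ∈ Y, (∀ i, ok i (m.sp ω i) → ¬ On (m.sp ω i) p) → p ∈ Y') :
    surv Y (m.K ok) ω ≤ Y'.card := by
  classical
  unfold surv
  refine Nat.cast_le.2 (card_le_card fun p hp => ?_)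
  simp only [mem_filter] at hp
  exact hY p hp.1 fun i h1 h2 => hp.2 (m.fam i) ⟨i, rfl, h1, h2⟩

lemma le_surv (ok : Idx F → Option F × F → Prop) (Y Y' : Finset (F × F)) (ω : Φ → Ω)
    (hY : ∀ p ∈ Y', p ∈ Y ∧ ∀ i, ok i (m.sp ω i) → ¬ On (m.sp ω i) p) :
    (Y'.card : ℝ) ≤ surv Y (m.K ok) ω := by
  classical
  unfold surv
  refine Nat.cast_le.2 (card_le_card fun p hp => ?_)
  simp only [mem_filter]
  refine ⟨(hY p hp).1, ?_⟩
  rintro φ ⟨i, rfl, h1, h2⟩
  exact (hY p hp).2 i h1 h2

lemma card_le_spIn (A : Φ → Prop) (C T : Finset (Option F × F)) (ω : Φ → Ω)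
    (hT : ∀ l ∈ T, l ∈ C ∧ ∃ i, A (m.fam i) ∧ m.sp ω i = l) : (T.card : ℝ) ≤ m.spIn A C ω := by
  classical
  unfold spIn
  refine Nat.cast_le.2 (le_trans (card_le_card fun l hl => ?_) (card_image_le (f := m.sp ω)))
  obtain ⟨h1, i, h2, rfl⟩ := hT l hl
  exact mem_image.2 ⟨i, by simp [h1, h2], rfl⟩

lemma card_le_six (ω : Φ → Ω) (S C : Finset (Option F × F)) (hS : S.card = Fintype.card F)
    (hC : ∀ l ∈ C, l ∉ S → ∃ i, m.sp ω i = l) : (C.card : ℝ) ≤ 6 * Fintype.card F := by
  have h1 : C.card ≤ S.card + Fintype.card (Idx F) := by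
    calc C.card ≤ (S ∪ univ.image (m.sp ω)).card := card_le_card fun l hl => by
          by_cases h : l ∈ S
          · exact mem_union_left _ h
          · obtain ⟨i, rfl⟩ := hC l hl h
            exact mem_union_right _ (mem_image_of_mem _ (mem_univ _))
      _ ≤ _ := (card_union_le _ _).trans (Nat.add_le_add_left card_image_le _)
  have h2 : (C.card : ℝ) ≤ ((S.card + Fintype.card (Idx F) : ℕ) : ℝ) := by exact_mod_cast h1
  simp only [Fintype.card_prod, Fintype.card_option, Fintype.card_bool, hS] at h2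
  push_cast at h2
  linarith [m.q_ge, m.h_ge]

include m in
lemma fp_small (S : Finset (Option F × F)) (hS : S.card = Fintype.card F)
    (far : ∀ d, dl * Fintype.card F / 4 < (S.filter fun l => l.1 ≠ d).card)
    (hM1 : h ^ 299 ≤ (unc S).card) (hM2 : (unc S).card ≤ h ^ 389) (R : ℕ)
    (hR1 : h ^ 403 / (unc S).card ≤ R) (hR2 : R ≤ 2 * (h ^ 403 / (unc S).card)) :
    ∃ T : Finset (Option F × F), (T.card : ℝ) ≤ 2 * (Fintype.card F / R) ∧
      ((S \ C1 T (h ^ 195 / R / 2)).card : ℝ) ≤ 2 * h ^ 199 ∧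
      ((C1 T (h ^ 195 / R / 2) \ S).card : ℝ) ≤ 8 * h ^ 194 := by
  have hh := m.h_pos
  have hd := dl_pos
  have hq := m.hq
  set M : ℝ := ((unc S).card : ℝ) with hM
  have hM0 : 0 < M := lt_of_lt_of_le (by positivity) hM1
  have hR0 : (0 : ℝ) < R := lt_of_lt_of_le (by positivity) hR1
  have : NeZero R := ⟨by rintro rfl; simp at hR0⟩
  have hR1' : h ^ 403 ≤ R * M := (div_le_iff₀ hM0).1 hR1
  have hR2' : R * M ≤ 2 * h ^ 403 := by
    rw [mul_div_assoc', le_div_iff₀ hM0] at hR2; exact hR2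
  have hR3 : (R : ℝ) ≤ 2 * h ^ 104 := by
    have : R * h ^ 299 ≤ 2 * h ^ 104 * h ^ 299 :=
      calc R * h ^ 299 ≤ R * M := by gcongr
        _ ≤ 2 * h ^ 403 := hR2'
        _ = _ := by ring
    exact le_of_mul_le_mul_right this (by positivity)
  have hR4 : (1 : ℝ) ≤ R := by exact_mod_cast Nat.pos_of_ne_zero (NeZero.ne R)
  have hρ0 : (0 : ℝ) ≤ 1 / R := by positivity
  have hρ1 : (1 : ℝ) / R ≤ 1 := by rw [div_le_one hR0]; exact hR4
  -- the good sample
  have hP : Pr (fun σ : Option F × F → Fin R => 2 * (S.card / R : ℝ) ≤ (samp S σ).card ∨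
      ∃ l, h ^ 195 / R / 4 ≤ |ovr (pts l) (Ks R S l) σ - Ex (ovr (pts l) (Ks R S l))|) < 1 := by
    have h1 := Pr_samp_large (R := R) S (by rw [hS]; exact Fintype.card_pos)
    have h2 := Pr_exists_univ (fun l (σ : Option F × F → Fin R) => h ^ 195 / R / 4 ≤
      |ovr (pts l) (Ks R S l) σ - Ex (ovr (pts l) (Ks R S l))|) _ fun l =>
      ovr_tail (pts l) (Ks R S l) (h ^ 200 / R) (h ^ 195 / R / 4) (by positivity) (by positivity)
        (by
          have : h ^ 195 / R ≤ h ^ 200 / R := by gcongr; exacts [m.one_le_h, by norm_num]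
          have : 0 ≤ h ^ 195 / R := by positivity
          linarith)
        (kills_Ks_le S l _ fun p hp => mem_pts.1 hp)
        (by rw [← hq, ← hS]; exact sum_Ex_kills_Ks S l _ fun p hp => mem_pts.1 hp)
    have h3 : h ≤ S.card / R / 16 := by
      rw [hS, hq, le_div_iff₀ (by norm_num), le_div_iff₀ hR0]
      calc h * 16 * R ≤ h * 16 * (2 * h ^ 104) := by gcongr
        _ = 32 * h ^ 105 := by ring
        _ ≤ _ := m.absorb (by linarith [m.h_ge]) (by norm_num)
    have h4 : 601 * h ≤ (h ^ 195 / R / 4) ^ 2 / (64 * (h ^ 200 / R)) := by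
      have : (h ^ 195 / R / 4) ^ 2 / (64 * (h ^ 200 / R)) = h ^ 190 / (1024 * R) := by
        field_simp; ring
      rw [this, le_div_iff₀ (by positivity)]
      calc 601 * h * (1024 * R) ≤ 601 * h * (1024 * (2 * h ^ 104)) := by gcongr
        _ = 1230848 * h ^ 105 := by ring
        _ ≤ _ := m.absorb (by linarith [m.h_ge]) (by norm_num)
    have h5 := m.exp_small h3
    have h6 := m.union_small h4
    have h7 := m.inv_h_small
    refine lt_of_le_of_lt ((Pr_or _ _).trans (add_le_add h1 h2)) ?_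
    nlinarith
  obtain ⟨σ, hσ⟩ := exists_not_of_Pr_lt_one hP
  push Not at hσ
  obtain ⟨hσ1, hσ2⟩ := hσ
  refine ⟨samp S σ, by rw [← hS]; exact hσ1.le, ?_, ?_⟩
  · -- lines of `S` missing from `C1`
    have h1 := card_dbl_ge S univ (M / h ^ 199)
    rw [← Nat.cast_sum, sum_exc_univ hS, ← hM] at h1
    have h2 : ((S.filter fun l => M / h ^ 199 ≤ (dbl S univ l).card).card : ℝ) ≤ 2 * h ^ 199 := by
      rw [mul_div_assoc', div_le_iff₀ (by positivity)] at h1
      refine le_of_mul_le_mul_right ?_ hM0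
      linarith
    refine le_trans (Nat.cast_le.2 (card_le_card fun l hl => ?_)) h2
    rw [mem_sdiff] at hl
    refine mem_filter.2 ⟨hl.1, ?_⟩
    by_contra hb
    push Not at hb
    apply hl.2
    simp only [C1, mem_filter, mem_univ, true_and]
    have h3 := (abs_lt.1 (hσ2 l)).1
    rw [ovr_Ks] at h3
    suffices h ^ 195 / R ≤ Ex (ovr (pts l) (Ks R S l)) by
      have : 0 ≤ h ^ 195 / R := by positivity
      linarith
    set g₀ := ⌊dl * h ^ 399 / (8 * M)⌋₊ with hg₀
    have hg1 : (g₀ : ℝ) ≤ dl * h ^ 399 / (8 * M) := Nat.floor_le (by positivity)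
    have hg2 : dl * h ^ 399 / (16 * M) ≤ g₀ := by
      have e1 : dl * h ^ 399 / (8 * M) < g₀ + 1 := Nat.lt_floor_add_one _
      have e2 : 1 ≤ dl * h ^ 399 / (16 * M) := by
        rw [le_div_iff₀ (by positivity)]
        calc 1 * (16 * M) ≤ 16 * h ^ 389 := by linarith
          _ ≤ (dl * h) * h ^ 389 := by gcongr; linarith [m.h_ge1]
          _ = dl * h ^ 390 := by ring
          _ ≤ _ := by gcongr; exacts [m.one_le_h, by norm_num]
      have e3 : dl * h ^ 399 / (8 * M) = 2 * (dl * h ^ 399 / (16 * M)) := by field_simp; ring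
      linarith
    have hg3 : g₀ * (1 / (R : ℝ)) ≤ 1 := by
      rw [mul_one_div, div_le_one hR0]
      refine hg1.trans ?_
      rw [div_le_iff₀ (by positivity)]
      have e1 := m.pow_le (a := 399) (b := 403) (by norm_num)
      have e2 : dl * h ^ 399 ≤ h ^ 399 := mul_le_of_le_one_left (by positivity) dl_le
      nlinarith
    have hg4 : dl / (32 * h ^ 4) ≤ g₀ * (1 / (R : ℝ)) := by
      rw [mul_one_div, le_div_iff₀ hR0]
      refine le_trans ?_ hg2
      rw [div_mul_eq_mul_div, div_le_div_iff₀ (by positivity) (by positivity)]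
      calc dl * R * (16 * M) = 16 * dl * (R * M) := by ring
        _ ≤ 16 * dl * (2 * h ^ 403) := by gcongr
        _ = _ := by ring
    rw [Ex_over]
    refine le_trans ?_ (sum_le_sum fun p _ => psi_lower hρ0 hρ1 (cnt (S.erase l) p) g₀ hg3)
    rw [← sum_mul, ← sum_mul, sum_sub_distrib, ← Nat.cast_sum, sum_cnt_erase]
    have h4 : ∑ p ∈ pts l, (if cnt (S.erase l) p = 0 then (0 : ℝ) else g₀) =
        g₀ * (dbl S univ l).card := by
      rw [sum_ite, sum_const_zero, zero_add, sum_const, nsmul_eq_mul, mul_comm]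
      congr 3
      ext p
      simp only [mem_filter, mem_pts, cnt_eq_zero, mem_unc, dbl, mem_univ, true_and, mem_erase]
      push Not
      refine and_congr_right fun _ => exists_congr fun l' => by tauto
    have h5 : g₀ * ((dbl S univ l).card : ℝ) ≤ dl * h ^ 200 / 8 :=
      calc g₀ * ((dbl S univ l).card : ℝ) ≤ dl * h ^ 399 / (8 * M) * (M / h ^ 199) := by gcongr
        _ = _ := by field_simp
    have h6 := far l.1
    rw [hq] at h6
    simp only [Nat.cast_ite, Nat.cast_zero]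
    rw [h4]
    calc h ^ 195 / R ≤ (dl ^ 2 * h / 512) * (h ^ 195 / R) :=
          le_mul_of_one_le_left (by positivity) (by linarith [m.h_ge2])
      _ = dl * h ^ 200 / 8 * (1 / R) * (dl / (32 * h ^ 4) / 2) := by field_simp; ring
      _ ≤ _ := by
          have h7 : dl * h ^ 200 / 8 ≤ ((S.filter fun l' => l'.1 ≠ l.1).card : ℝ) -
            g₀ * ((dbl S univ l).card : ℝ) := by linarith
          have h8 : 0 ≤ dl * h ^ 200 / 8 := by positivity
          exact mul_le_mul (mul_le_mul_of_nonneg_right h7 hρ0) (by linarith) (by positivity)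
            (mul_nonneg (h8.trans h7) hρ0)
  · -- lines of `C1` outside `S`
    have h1 := corradi (unc S) (C1 (samp S σ) (h ^ 195 / R / 2) \ S) (h ^ 195 / 4) (by positivity)
      ?_ ?_
    · refine le_of_mul_le_mul_right (h1.trans ?_) (show 0 < h ^ 195 / 4 by positivity)
      calc 2 * M ≤ 2 * h ^ 389 := by linarith
        _ = _ := by ring
    · intro l hl
      rw [mem_sdiff] at hl
      by_contra hb
      push Not at hb
      have h2 := (mem_filter.1 hl.1).2
      have h3 := (abs_lt.1 (hσ2 l)).2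
      rw [ovr_Ks] at h3
      suffices Ex (ovr (pts l) (Ks R S l)) ≤ h ^ 195 / R / 4 by linarith
      rw [Ex_over]
      refine le_trans (sum_le_sum fun p _ => psi_upper hρ0 hρ1 (cnt (S.erase l) p)) ?_
      rw [← mul_sum, ← Nat.cast_sum]
      have h4 := sum_exc (S.erase l) (pts l)
      rw [sum_cnt_erase, card_pts, erase_eq_of_notMem hl.2] at h4
      have h5 : (S.filter fun l' => l'.1 ≠ l.1).card ≤ Fintype.card F := hS ▸ card_filter_le _ _
      have h6 : (pts l).filter (· ∈ unc S) = (unc S).filter (On l) := by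
        ext p; simp only [mem_filter, mem_pts]; tauto
      rw [h6] at h4
      have h7 : ∑ p ∈ pts l, (cnt S p - 1) ≤ ((unc S).filter (On l)).card := by omega
      rw [erase_eq_of_notMem hl.2]
      calc _ ≤ 1 / (R : ℝ) * (h ^ 195 / 4) := by
            gcongr; exact le_trans (Nat.cast_le.2 h7) hb.le
        _ = _ := by ring
    · calc 2 * M ≤ 2 * h ^ 389 := by linarith
        _ ≤ (h / 16) * h ^ 389 := by gcongr; linarith [m.h_ge]
        _ = _ := by ring

/-- the rare event for a known approximation `C` -/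
def EvS (C : Finset (Option F × F)) (M : ℝ) (ω : Φ → Ω) : Prop :=
  (((C2 C).card : ℝ) ≤ 6 * Fintype.card F ∧
      M / (2 * h ^ 200) ≤ m.spIn (fun _ => True) (C2 C) ω) ∨
    (M / 2 ≤ (unc (C2 C)).card ∧
      surv (unc (C2 C)) (m.K fun _ _ => True) ω ≤ dl * (unc (C2 C)).card / 2) ∨
    ∃ l, dl * h ^ 200 / 32 ≤ (priv C l).card ∧
      surv (priv C l) (m.K fun _ l' => l' ≠ l) ω ≤ dl * (priv C l).card / 2

lemma unc_ge (S C : Finset (Option F × F)) (P : F × F → Prop) [DecidablePred P]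
    (T : Finset (Option F × F)) (hT : ∀ l ∈ C, l ∉ S → (∃ p, On l p ∧ P p) → l ∈ T) :
    (((unc S).filter P).card : ℝ) ≤ ((unc C).filter P).card + T.card * Fintype.card F := by
  have h1 := card_cov_le' T univ (Fintype.card F) fun l _ => Nat.cast_le.2 (card_filter_on_le l _)
  have h2 : ((unc S).filter P).card ≤ ((unc C).filter P).card +
      (univ.filter fun p => ∃ l ∈ T, On l p).card := by
    refine le_trans (card_le_card fun p hp => ?_) (card_union_le _ _)
    simp only [mem_filter, mem_union, mem_unc, mem_univ, true_and] at hp ⊢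
    by_contra hc
    push Not at hc
    by_cases h3 : ∀ l ∈ C, ¬ On l p
    · exact hc.1 h3 hp.2
    · push Not at h3
      obtain ⟨l, hl, h4⟩ := h3
      exact hc.2 l (hT l hl (fun h5 => hp.1 l h5 h4) ⟨p, h4, hp.2⟩) h4
  have h3 : ((((unc S).filter P).card : ℕ) : ℝ) ≤ ((((unc C).filter P).card +
      (univ.filter fun p => ∃ l ∈ T, On l p).card : ℕ) : ℝ) := Nat.cast_le.2 h2
  push_cast at h3
  linarith

lemma clean (ω : Φ → Ω) (S C : Finset (Option F × F)) (hB : m.Bad ω S)
    (hM2 : (unc S).card ≤ h ^ 389) (hC1 : ((S \ C).card : ℝ) ≤ 2 * h ^ 199)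
    (hC2 : ((C \ S).card : ℝ) ≤ 8 * h ^ 194) : m.EvS C (unc S).card ω := by
  have hh := m.h_pos
  have hd := dl_pos
  have hq := m.hq
  set M : ℝ := ((unc S).card : ℝ) with hM
  by_contra hc
  simp only [EvS, not_or, not_and, not_exists, not_le] at hc
  obtain ⟨hb, hc, hd'⟩ := hc
  have s1 : ∀ l ∈ C2 C, l ∉ S → ∃ i, m.sp ω i = l := by
    intro l hl hlS
    by_contra hn
    push Not at hn
    have h1 : dl * h ^ 200 / 32 ≤ (priv C l).card := by
      rw [← hq]; exact (mem_filter.1 hl).2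
    have h2 := hd' l h1
    have h3 := m.surv_le (fun _ l' => l' ≠ l) (priv C l)
      (univ.filter fun p => On l p ∧ ∃ l' ∈ S \ C, l' ≠ l ∧ On l' p) ω fun p hp h4 => by
        obtain ⟨l', h5, h6⟩ := hB.cover p fun i => h4 i (hn i)
        simp only [priv, mem_filter, mem_univ, true_and, mem_sdiff] at hp ⊢
        have h7 : l' ≠ l := fun h => hlS (h ▸ h5)
        exact ⟨hp.1, l', ⟨h5, fun h8 => hp.2 l' h8 h7 h6⟩, h7, h6⟩
    have h4 : ((univ.filter fun p => On l p ∧ ∃ l' ∈ S \ C, l' ≠ l ∧ On l' p).card : ℝ) ≤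
      (S \ C).card := Nat.cast_le.2 (card_cov_le _ _)
    have h5 : 2 * h ^ 199 ≤ dl * (dl * h ^ 200 / 32) / 2 :=
      calc 2 * h ^ 199 ≤ (dl ^ 2 * h / 64) * h ^ 199 := by gcongr; linarith [m.h_ge2]
        _ = _ := by ring
    have h6 : dl * (dl * h ^ 200 / 32) ≤ dl * (priv C l).card := by gcongr
    linarith
  have s2 := hb (m.card_le_six ω S _ hB.card s1)
  have s3 : ((C2 C \ S).card : ℝ) ≤ m.spIn (fun _ => True) (C2 C) ω :=
    m.card_le_spIn _ _ _ ω fun l hl => by
      rw [mem_sdiff] at hl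
      obtain ⟨i, hi⟩ := s1 l hl.1 hl.2
      exact ⟨hl.1, i, trivial, hi⟩
  have s4 : M / 2 ≤ (unc (C2 C)).card := by
    have h1 := unc_ge S (C2 C) (fun _ => True) (C2 C \ S) fun l h1 h2 _ => mem_sdiff.2 ⟨h1, h2⟩
    simp only [filter_true] at h1
    have h2 : ((C2 C \ S).card : ℝ) * h ^ 200 ≤ M / (2 * h ^ 200) * h ^ 200 := by
      gcongr; linarith
    have h3 : M / (2 * h ^ 200) * h ^ 200 = M / 2 := by field_simp
    rw [hq] at h1
    linarith
  have s5 := hc s4
  have hp : ∀ l ∈ S \ C2 C, ((priv C l).card : ℝ) ≤ dl * h ^ 200 / 32 := by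
    intro l hl
    have := (mem_sdiff.1 hl).2
    simp only [C2, mem_filter, mem_univ, true_and, not_le, hq] at this
    exact this.le
  have s6 : ((S \ C2 C).card : ℝ) * h ^ 200 ≤ 4 * M := by
    have h1 := card_dbl_ge S univ (h ^ 200 / 2)
    rw [← Nat.cast_sum, sum_exc_univ hB.card, ← hM] at h1
    have h2 : ((S \ C2 C).card : ℝ) ≤
        (S.filter fun l => h ^ 200 / 2 ≤ (dbl S univ l).card).card := by
      refine Nat.cast_le.2 (card_le_card fun l hl => mem_filter.2 ⟨(mem_sdiff.1 hl).1, ?_⟩)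
      have h3 : (pts l).card ≤ (priv C l).card + (dbl S univ l).card +
          (univ.filter fun p => On l p ∧ ∃ l' ∈ C \ S, l' ≠ l ∧ On l' p).card := by
        refine le_trans (card_le_card fun p hp => ?_)
          ((card_union_le _ _).trans (Nat.add_le_add_right (card_union_le _ _) _))
        simp only [mem_pts, priv, dbl, mem_union, mem_filter, mem_univ, true_and, mem_sdiff] at hp ⊢
        by_cases h4 : ∀ l' ∈ C, l' ≠ l → ¬ On l' p
        · exact Or.inl (Or.inl ⟨hp, h4⟩)
        · push Not at h4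
          obtain ⟨l', h5, h6, h7⟩ := h4
          by_cases h8 : l' ∈ S
          · exact Or.inl (Or.inr ⟨hp, l', h8, h6, h7⟩)
          · exact Or.inr ⟨hp, l', ⟨h5, h8⟩, h6, h7⟩
      have h4 := card_cov_le (C \ S) l
      have h5 : (((pts l).card : ℕ) : ℝ) ≤ (((priv C l).card + (dbl S univ l).card +
          (C \ S).card : ℕ) : ℝ) := Nat.cast_le.2 (by omega)
      rw [card_pts, hq] at h5
      push_cast at h5
      have h6 := hp l hl
      have h7 := m.absorb (c := 32) (a := 194) (b := 200) (by linarith [m.h_ge]) (by norm_num)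
      have h8 : dl * h ^ 200 ≤ h ^ 200 := mul_le_of_le_one_left (by positivity) dl_le
      have h9 : 0 < h ^ 200 := by positivity
      linarith
    have h3 : ((S \ C2 C).card : ℝ) * (h ^ 200 / 2) ≤ 2 * M := le_trans (by gcongr) h1
    linarith
  have s6' : ((S \ C2 C).card : ℝ) ≤ 4 * h ^ 189 := by
    refine le_of_mul_le_mul_right (s6.trans ?_) (show 0 < h ^ 200 by positivity)
    calc 4 * M ≤ 4 * h ^ 389 := by linarith
      _ = _ := by ring
  have s7 : ∀ l ∈ S \ C2 C, (((unc (C2 C)).filter (On l)).card : ℝ) ≤ dl * h ^ 200 / 16 := by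
    intro l hl
    have h3 : ((unc (C2 C)).filter (On l)).card ≤ (priv C l).card +
        (univ.filter fun p => On l p ∧ ∃ l' ∈ (C \ S) ∪ (S \ C2 C), l' ≠ l ∧ On l' p).card := by
      refine le_trans (card_le_card fun p hp => ?_) (card_union_le _ _)
      simp only [mem_unc, priv, mem_union, mem_filter, mem_univ, true_and, mem_sdiff] at hp ⊢
      by_cases h4 : ∀ l' ∈ C, l' ≠ l → ¬ On l' p
      · exact Or.inl ⟨hp.2, h4⟩
      · push Not at h4
        obtain ⟨l', h5, h6, h7⟩ := h4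
        refine Or.inr ⟨hp.2, l', ?_, h6, h7⟩
        by_cases h8 : l' ∈ S
        · exact Or.inr ⟨h8, fun h9 => hp.1 l' h9 h7⟩
        · exact Or.inl ⟨h5, h8⟩
    have h4 := (card_cov_le ((C \ S) ∪ (S \ C2 C)) l).trans (card_union_le _ _)
    have h5 : ((((unc (C2 C)).filter (On l)).card : ℕ) : ℝ) ≤ (((priv C l).card +
        ((C \ S).card + (S \ C2 C).card) : ℕ) : ℝ) := Nat.cast_le.2 (by omega)
    push_cast at h5
    have h6 := hp l hl
    have h7 := m.pow_le (a := 189) (b := 199) (by norm_num)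
    have h8 := m.pow_le (a := 194) (b := 199) (by norm_num)
    have h9 : 12 * h ^ 199 ≤ dl * h ^ 200 / 32 :=
      calc 12 * h ^ 199 ≤ (dl * h / 32) * h ^ 199 := by gcongr; linarith [m.h_ge1]
        _ = _ := by ring
    linarith
  have s8 := m.surv_le (fun _ _ => True) (unc (C2 C))
    ((unc (C2 C)).filter fun p => ∃ l ∈ S \ C2 C, On l p) ω fun p hp h1 => by
      obtain ⟨l, h2, h3⟩ := hB.cover p fun i => h1 i trivial
      exact mem_filter.2 ⟨hp, l, mem_sdiff.2 ⟨h2, fun h4 => mem_unc.1 hp l h4 h3⟩, h3⟩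
  have s9 := card_cov_le' _ _ _ s7
  have s10 : ((S \ C2 C).card : ℝ) * (dl * h ^ 200 / 16) ≤ dl * M / 4 :=
    calc _ = dl / 16 * ((S \ C2 C).card * h ^ 200) := by ring
      _ ≤ dl / 16 * (4 * M) := by gcongr
      _ = _ := by ring
  have s11 : dl * (M / 2) ≤ dl * (unc (C2 C)).card := by gcongr
  linarith

lemma Pr_EvS (C : Finset (Option F × F)) (M : ℝ) (hM1 : h ^ 299 ≤ M) (hM2 : M ≤ h ^ 389) :
    Pr (m.EvS C M) ≤ 3 * Real.exp (-(1300 * (M / h ^ 202))) := by
  have hh := m.h_pos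
  have hd := dl_pos
  have hq := m.hq
  have hM0 : 0 < M := lt_of_lt_of_le (by positivity) hM1
  have h1 := m.Pr_spIn (fun _ => True) (C2 C) (M / (2 * h ^ 200)) (by
    rw [le_div_iff₀ (by positivity)]
    have := m.absorb (c := 96) (a := 200) (b := 299) (by linarith [m.h_ge]) (by norm_num)
    linarith)
  have h2 := m.Pr_surv_small (fun _ _ => True) (unc (C2 C)) (Fintype.card F) (M / 2)
    (fun _ l _ => Nat.cast_le.2 (card_filter_on_le l _)) q_pos (by positivity)
  have h3 := Pr_exists_univ (fun l (ω : Φ → Ω) => dl * h ^ 200 / 32 ≤ (priv C l).card ∧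
      surv (priv C l) (m.K fun _ l' => l' ≠ l) ω ≤ dl * (priv C l).card / 2) _ fun l =>
    m.Pr_surv_small (fun _ l' => l' ≠ l) (priv C l) 1 (dl * h ^ 200 / 32)
      (fun _ l' hl' => by
        exact_mod_cast card_inter_le_one (Ne.symm hl') (priv C l) fun p hp =>
          (mem_filter.1 hp).2.1)
      one_pos (by positivity)
  have e1 : Real.exp (-(M / (2 * h ^ 200) / (64 * h))) ≤ Real.exp (-(1300 * (M / h ^ 202))) := by
    rw [Real.exp_le_exp, neg_le_neg_iff]
    calc 1300 * (M / h ^ 202) ≤ (h / 128) * (M / h ^ 202) := by gcongr; linarith [m.h_ge]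
      _ = _ := by field_simp; ring
  have e2 : Real.exp (-(dl ^ 2 * (M / 2) / (320 * h * Fintype.card F))) ≤
      Real.exp (-(1300 * (M / h ^ 202))) := by
    rw [Real.exp_le_exp, neg_le_neg_iff, hq]
    calc 1300 * (M / h ^ 202) ≤ (dl ^ 2 * h / 640) * (M / h ^ 202) := by
          gcongr; linarith [m.h_ge2]
      _ = _ := by field_simp; ring
  have e3 : Fintype.card (Option F × F) * Real.exp (-(dl ^ 2 * (dl * h ^ 200 / 32) /
      (320 * h * 1))) ≤ Real.exp (-(1300 * (M / h ^ 202))) := by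
    have f0 : (Fintype.card (Option F × F) : ℝ) ≤ Real.exp (600 * h) := by linarith [m.card_ln]
    refine le_trans (mul_le_mul_of_nonneg_right f0 (Real.exp_pos _).le) ?_
    rw [← Real.exp_add, Real.exp_le_exp]
    have f1 : M / h ^ 202 ≤ h ^ 198 := by
      rw [div_le_iff₀ (by positivity)]
      calc M ≤ h ^ 389 := hM2
        _ ≤ h ^ 400 := m.pow_le (by norm_num)
        _ = _ := by ring
    have f2 : h ≤ h ^ 198 := by simpa using m.pow_le (a := 1) (b := 198) (by norm_num)
    have f3 : 1900 * h ^ 198 ≤ dl ^ 2 * (dl * h ^ 200 / 32) / (320 * h * 1) :=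
      calc 1900 * h ^ 198 ≤ (dl ^ 3 * h / 10240) * h ^ 198 := by gcongr; linarith [m.hh]
        _ = _ := by field_simp; ring
    linarith
  unfold EvS
  refine (Pr_or _ _).trans ((add_le_add h1 ((Pr_or _ _).trans (add_le_add h2 h3))).trans ?_)
  linarith

lemma Pr_small : Pr (fun ω => ∃ S, m.Bad ω S ∧ ((unc S).card : ℝ) ≤ h ^ 389) ≤ 3 / h := by
  have hh := m.h_pos
  have hd := dl_pos
  have hq := m.hq
  have key : ∀ M : ℕ, Pr (fun ω => h ^ 299 ≤ M ∧ (M : ℝ) ≤ h ^ 389 ∧
      ∃ T : Finset (Option F × F), (T.card : ℝ) ≤ 2 * (M / h ^ 203) ∧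
        m.EvS (C1 T (h ^ 195 / ⌈h ^ 403 / M⌉₊ / 2)) M ω) ≤ 3 * Real.exp (-(601 * h)) := by
    intro M
    by_cases hM : h ^ 299 ≤ M ∧ (M : ℝ) ≤ h ^ 389
    swap
    · rw [Pr_congr (B := fun _ => False) fun ω => by tauto, Pr_false]; positivity
    have h1 := Pr_exists_small (2 * (M / h ^ 203)) (600 * h) m.card_ln (by positivity)
      (fun T ω => m.EvS (C1 T (h ^ 195 / ⌈h ^ 403 / M⌉₊ / 2)) M ω) _ (by positivity)
      fun T => m.Pr_EvS _ M hM.1 hM.2
    refine le_trans (Pr_mono fun ω hω => hω.2.2) (h1.trans ?_)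
    rw [mul_left_comm, ← Real.exp_add]
    refine mul_le_mul_of_nonneg_left (Real.exp_le_exp.2 ?_) (by norm_num)
    have e1 : 2 * (M / h ^ 203) * (600 * h) = 1200 * (M / h ^ 202) := by field_simp; ring
    have e2 : h ^ 97 ≤ M / h ^ 202 := by
      rw [le_div_iff₀ (by positivity)]
      calc h ^ 97 * h ^ 202 = h ^ 299 := by ring
        _ ≤ _ := hM.1
    have e3 := m.absorb (c := 7) (a := 1) (b := 97) (by linarith [m.h_ge]) (by norm_num)
    rw [e1]; linarith
  have h1 := Pr_exists_le' (range (Fintype.card (Option F × F))) _ _ fun M _ => key M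
  refine le_trans (Pr_mono fun ω hω => ?_) (h1.trans ?_)
  · obtain ⟨S, hB, hM2⟩ := hω
    have hM1 : h ^ 299 ≤ (unc S).card := by
      have h2 := unc_lower S hB.card _ (by have := q_pos (F := F); positivity) hB.far1 hB.far2
      rw [hq] at h2
      refine le_of_sq_le_sq ?_ (Nat.cast_nonneg _)
      have h3 : 2 * (h ^ 299) ^ 2 ≤ (dl * h ^ 200 / 4) ^ 2 * h ^ 200 :=
        calc 2 * (h ^ 299) ^ 2 = 32 * h ^ 598 / 16 := by ring
          _ ≤ (dl * h) ^ 2 * h ^ 598 / 16 := by gcongr; nlinarith [m.h_ge1]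
          _ = _ := by ring
      linarith
    have hM0 : (0 : ℝ) < (unc S).card := lt_of_lt_of_le (by positivity) hM1
    have hR1 := Nat.le_ceil (h ^ 403 / (unc S).card)
    have hR0 : 1 ≤ h ^ 403 / (unc S).card := by
      rw [le_div_iff₀ hM0]; linarith [m.pow_le (a := 389) (b := 403) (by norm_num)]
    have hR2 : (⌈h ^ 403 / (unc S).card⌉₊ : ℝ) ≤ 2 * (h ^ 403 / (unc S).card) := by
      linarith [Nat.ceil_lt_add_one (show 0 ≤ h ^ 403 / (unc S).card by positivity)]
    obtain ⟨T, hT1, hT2, hT3⟩ := m.fp_small S hB.card hB.far2 hM1 hM2 _ hR1 hR2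
    refine ⟨(unc S).card, ?_, hM1, hM2, T, hT1.trans ?_, m.clean ω S _ hB hM2 hT2 hT3⟩
    · rw [mem_range]
      refine lt_of_le_of_lt (card_le_univ _) ?_
      simp only [Fintype.card_prod, Fintype.card_option]
      have := Fintype.card_pos (α := F)
      nlinarith
    · rw [hq]
      gcongr 2 * ?_
      calc h ^ 200 / (⌈h ^ 403 / (unc S).card⌉₊ : ℝ) ≤ h ^ 200 / (h ^ 403 / (unc S).card) := by
            gcongr
        _ = _ := by field_simp
  · rw [card_range, mul_left_comm]
    have := m.union_small (x := 601 * h) le_rfl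
    rw [div_eq_mul_one_div 3]
    gcongr

end Model

end Crest.Agent.Ryser
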